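import Vale.Agent.P161.NoiseBase

set_option autoImplicit false

noncomputable section
open MeasureTheory

namespace Vale.Agent.P161

variable {I : Type*} [DecidableEq I]

/-- Integrate out the coordinate `c`. -/
def Pc (c : I) (F : (I → ℝ) → ℝ) (ω : I → ℝ) : ℝ := ∫ t in (0 : ℝ)..1, F (Function.update ω c t)

/-- Integrate out the coordinates in a list, the head being the outermost integral. -/
def Pl : List I → ((I → ℝ) → ℝ) → (I → ℝ) → ℝ
  | [], F => F
  | c :: L, F => Pc c (Pl L F)

/-- `F` does not depend on the coordinate `c`. -/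
def IndepOf (c : I) (F : (I → ℝ) → ℝ) : Prop := ∀ ω t, F (Function.update ω c t) = F ω

theorem continuous_Pl_param {X : Type*} [TopologicalSpace X] (L : List I) {Φ : X → (I → ℝ) → ℝ}
    (h : Continuous (Function.uncurry Φ)) :
    Continuous (fun p : X × (I → ℝ) => Pl L (Φ p.1) p.2) := by
  induction L with
  | nil => simpa [Pl, Function.uncurry_def] using h
  | cons c L ih =>
    simp only [Pl, Pc]
    have h1 : Continuous (Function.uncurry
        (fun (p : X × (I → ℝ)) (t : ℝ) => Pl L (Φ p.1) (Function.update p.2 c t))) := by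
      have h2 : Continuous (fun q : (X × (I → ℝ)) × ℝ =>
          ((q.1.1, Function.update q.1.2 c q.2) : X × (I → ℝ))) := by
        refine Continuous.prodMk (by fun_prop) ?_
        exact Continuous.update (by fun_prop) c (by fun_prop)
      exact ih.comp h2
    exact intervalIntegral.continuous_parametric_intervalIntegral_of_continuous' h1 0 1

theorem continuous_Pl (L : List I) {F : (I → ℝ) → ℝ} (h : Continuous F) : Continuous (Pl L F) := by
  have h1 : Continuous (Function.uncurry (fun (_ : Unit) (ω : I → ℝ) => F ω)) :=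
    h.comp continuous_snd
  have h2 := continuous_Pl_param L h1
  exact h2.comp (Continuous.prodMk (continuous_const (y := ())) continuous_id)

/-- Congruence: `F` and `G` agreeing on the slice `z c = w c`, with `c` not integrated out. -/
theorem Pl_congr_coord {c : I} {L : List I} (hc : c ∉ L) {F G : (I → ℝ) → ℝ} {w : I → ℝ}
    (h : ∀ z, z c = w c → F z = G z) : Pl L F w = Pl L G w := by
  induction L generalizing w with
  | nil => exact h w rfl
  | cons a L ih =>
    have ha : c ≠ a := fun e => hc (by simp [e])
    have hc' : c ∉ L := fun e => hc (List.mem_cons_of_mem _ e)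
    simp only [Pl, Pc]
    refine intervalIntegral.integral_congr (fun t _ => ?_)
    exact ih hc' (fun z hz => h z (by rw [hz, Function.update_of_ne ha]))

/-- Pointwise congruence. -/
theorem Pl_congr (L : List I) {F G : (I → ℝ) → ℝ} (h : ∀ z, F z = G z) : Pl L F = Pl L G := by
  have : F = G := funext h
  rw [this]

theorem indepOf_Pc_self (c : I) (F : (I → ℝ) → ℝ) : IndepOf c (Pc c F) := by
  intro ω t
  simp only [Pc, Function.update_idem]

theorem indepOf_Pc {c : I} (a : I) {F : (I → ℝ) → ℝ} (hF : IndepOf c F) : IndepOf c (Pc a F) := by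
  by_cases hac : a = c
  · subst hac; exact indepOf_Pc_self a F
  · intro ω t
    simp only [Pc]
    refine intervalIntegral.integral_congr (fun s _ => ?_)
    change F (Function.update (Function.update ω c t) a s) = F (Function.update ω a s)
    rw [Function.update_comm (Ne.symm hac), hF]

theorem indepOf_Pl_of_mem {c : I} {L : List I} (hc : c ∈ L) (F : (I → ℝ) → ℝ) :
    IndepOf c (Pl L F) := by
  induction L with
  | nil => simp at hc
  | cons a L ih =>
    simp only [Pl]
    rcases List.mem_cons.1 hc with rfl | h
    · exact indepOf_Pc_self _ _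
    · exact indepOf_Pc a (ih h)

theorem indepOf_Pl {c : I} (L : List I) {F : (I → ℝ) → ℝ} (hF : IndepOf c F) :
    IndepOf c (Pl L F) := by
  induction L with
  | nil => exact hF
  | cons a L ih => exact indepOf_Pc a ih

theorem Pc_of_indep {c : I} {F : (I → ℝ) → ℝ} (h : IndepOf c F) : Pc c F = F := by
  funext ω
  have h1 : ∀ t, F (Function.update ω c t) = F ω := h ω
  simp only [Pc, h1]
  simp

theorem Pl_of_indep {L : List I} {F : (I → ℝ) → ℝ} (h : ∀ c ∈ L, IndepOf c F) : Pl L F = F := by
  induction L with
  | nil => rfl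
  | cons a L ih =>
    simp only [Pl]
    rw [ih (fun c hc => h c (List.mem_cons_of_mem _ hc))]
    exact Pc_of_indep (h a (by simp))

theorem Pl_abs_le (L : List I) {F : (I → ℝ) → ℝ} {M : ℝ} (h : ∀ ω, |F ω| ≤ M) (ω : I → ℝ) :
    |Pl L F ω| ≤ M := by
  induction L generalizing ω with
  | nil => exact h ω
  | cons a L ih =>
    simp only [Pl, Pc]
    have := intervalIntegral.norm_integral_le_of_norm_le_const (a := (0 : ℝ)) (b := 1)
      (f := fun t => Pl L F (Function.update ω a t)) (C := M)
      (fun t _ => by simpa using ih (Function.update ω a t))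
    simpa using this

theorem intervalIntegrable_update {G : (I → ℝ) → ℝ} (hG : Continuous G) (ω : I → ℝ) (a : I)
    (u v : ℝ) : IntervalIntegrable (fun t => G (Function.update ω a t)) volume u v := by
  apply Continuous.intervalIntegrable
  exact hG.comp (Continuous.update continuous_const a continuous_id)

theorem Pl_sub (L : List I) {F G : (I → ℝ) → ℝ} (hF : Continuous F) (hG : Continuous G) :
    Pl L (fun ω => F ω - G ω) = fun ω => Pl L F ω - Pl L G ω := by
  induction L with
  | nil => rfl
  | cons a L ih =>
    funext ω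
    simp only [Pl, Pc]
    rw [ih]
    exact intervalIntegral.integral_sub (intervalIntegrable_update (continuous_Pl L hF) ω a 0 1)
      (intervalIntegrable_update (continuous_Pl L hG) ω a 0 1)

theorem Pl_add (L : List I) {F G : (I → ℝ) → ℝ} (hF : Continuous F) (hG : Continuous G) :
    Pl L (fun ω => F ω + G ω) = fun ω => Pl L F ω + Pl L G ω := by
  induction L with
  | nil => rfl
  | cons a L ih =>
    funext ω
    simp only [Pl, Pc]
    rw [ih]
    exact intervalIntegral.integral_add (intervalIntegrable_update (continuous_Pl L hF) ω a 0 1)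
      (intervalIntegrable_update (continuous_Pl L hG) ω a 0 1)

/-- A factor not depending on the integrated coordinates comes out. -/
theorem Pl_mul_indep (L : List I) {F h : (I → ℝ) → ℝ} (hh : ∀ c ∈ L, IndepOf c h) :
    Pl L (fun ω => h ω * F ω) = fun ω => h ω * Pl L F ω := by
  induction L with
  | nil => rfl
  | cons a L ih =>
    funext ω
    simp only [Pl, Pc]
    rw [ih (fun c hc => hh c (List.mem_cons_of_mem _ hc))]
    have h1 : ∀ t, h (Function.update ω a t) = h ω := hh a (by simp) ω
    simp only [h1]
    exact intervalIntegral.integral_const_mul _ _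

theorem measurable_update_pair (c : I) :
    Measurable (fun p : ℝ × (I → ℝ) => Function.update p.2 c p.1) := by
  exact (measurable_update' (a := c)).comp (measurable_snd.prodMk measurable_fst)

/-- Resampling one coordinate preserves the product measure. -/
theorem map_update_prod (c : I) :
    Measure.map (fun p : ℝ × (I → ℝ) => Function.update p.2 c p.1) (unif.prod (PP I)) = PP I := by
  refine Measure.eq_infinitePi (fun _ : I => unif) ?_
  intro s t ht
  have hm : MeasurableSet (Set.pi (s : Set I) t) :=
    MeasurableSet.pi s.countable_toSet (fun i _ => ht i)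
  rw [Measure.map_apply (measurable_update_pair c) hm]
  by_cases hc : c ∈ s
  · have h1 : (fun p : ℝ × (I → ℝ) => Function.update p.2 c p.1) ⁻¹' Set.pi (s : Set I) t
        = (t c) ×ˢ Set.pi ((s.erase c : Finset I) : Set I) t := by
      ext ⟨u, ω⟩
      simp only [Set.mem_preimage, Set.mem_pi, Finset.mem_coe, Set.mem_prod, Finset.mem_erase]
      constructor
      · intro h
        refine ⟨by simpa using h c hc, fun i hi => ?_⟩
        simpa [Function.update_of_ne hi.1] using h i hi.2
      · rintro ⟨h1, h2⟩ i hi
        by_cases hic : i = c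
        · subst hic; simpa using h1
        · simpa [Function.update_of_ne hic] using h2 i ⟨hic, hi⟩
    rw [h1, Measure.prod_prod]
    unfold PP
    rw [Measure.infinitePi_pi _ (fun i _ => ht i)]
    rw [Finset.mul_prod_erase s (fun i => unif (t i)) hc]
  · have h1 : (fun p : ℝ × (I → ℝ) => Function.update p.2 c p.1) ⁻¹' Set.pi (s : Set I) t
        = Set.univ ×ˢ Set.pi (s : Set I) t := by
      ext ⟨u, ω⟩
      simp only [Set.mem_preimage, Set.mem_pi, Finset.mem_coe, Set.mem_prod, Set.mem_univ,
        true_and]
      refine forall_congr' (fun i => forall_congr' (fun hi => ?_))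
      have hic : i ≠ c := fun e => hc (e ▸ hi)
      simp [Function.update_of_ne hic]
    rw [h1, Measure.prod_prod]
    unfold PP
    rw [Measure.infinitePi_pi _ (fun i _ => ht i)]
    simp

omit [DecidableEq I] in
theorem integrable_of_cont_bdd [Countable I] {G : (I → ℝ) → ℝ} (hG : Continuous G) {C : ℝ}
    (hC : ∀ ω, |G ω| ≤ C) : Integrable G (PP I) := by
  refine Integrable.mono' (integrable_const C) hG.measurable.aestronglyMeasurable ?_
  exact Filter.Eventually.of_forall (fun ω => by simpa using hC ω)

theorem integral_Pc [Countable I] (c : I) {G : (I → ℝ) → ℝ} (hG : Continuous G) {C : ℝ}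
    (hC : ∀ ω, |G ω| ≤ C) : ∫ ω, Pc c G ω ∂(PP I) = ∫ ω, G ω ∂(PP I) := by
  have hmeas := measurable_update_pair (I := I) c
  have h1 : ∫ ω, G ω ∂(PP I)
      = ∫ p : ℝ × (I → ℝ), G (Function.update p.2 c p.1) ∂(unif.prod (PP I)) := by
    conv_lhs => rw [← map_update_prod (I := I) c]
    exact integral_map hmeas.aemeasurable hG.measurable.aestronglyMeasurable
  have hint : Integrable (fun p : ℝ × (I → ℝ) => G (Function.update p.2 c p.1))
      (unif.prod (PP I)) := by
    refine Integrable.mono' (integrable_const C)
      (hG.measurable.comp hmeas).aestronglyMeasurable ?_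
    exact Filter.Eventually.of_forall (fun p => by simpa using hC _)
  rw [h1, integral_prod_symm _ hint]
  refine integral_congr_ae (Filter.Eventually.of_forall (fun ω => ?_))
  simp only [Pc]
  rw [intervalIntegral.integral_of_le zero_le_one, integral_Ioc_eq_integral_Ioo,
    ← integral_Icc_eq_integral_Ioo]
  rfl

/-- Integrating out one more coordinate than the expectation sees changes nothing. -/
theorem integral_Pl [Countable I] (L : List I) {F : (I → ℝ) → ℝ} (hF : Continuous F) {M : ℝ}
    (hb : ∀ ω, |F ω| ≤ M) : ∫ ω, Pl L F ω ∂(PP I) = ∫ ω, F ω ∂(PP I) := by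
  induction L with
  | nil => rfl
  | cons a L ih =>
    simp only [Pl]
    rw [integral_Pc a (continuous_Pl L hF) (Pl_abs_le L hb), ih]

/-- The oscillation bound in coordinate `c` survives integrating out other coordinates. -/
theorem Pl_osc (L : List I) {c : I} (hc : c ∉ L) {F : (I → ℝ) → ℝ} (hF : Continuous F) {b : ℝ}
    (h : ∀ ω t, |F ω - F (Function.update ω c t)| ≤ b) (ω : I → ℝ) (t : ℝ) :
    |Pl L F ω - Pl L F (Function.update ω c t)| ≤ b := by
  induction L generalizing ω with
  | nil => exact h ω t
  | cons a L ih =>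
    have ha : c ≠ a := fun e => hc (by simp [e])
    have hc' : c ∉ L := fun e => hc (List.mem_cons_of_mem _ e)
    simp only [Pl, Pc]
    rw [← intervalIntegral.integral_sub
      (intervalIntegrable_update (continuous_Pl L hF) ω a 0 1)
      (intervalIntegrable_update (continuous_Pl L hF) (Function.update ω c t) a 0 1)]
    have := intervalIntegral.norm_integral_le_of_norm_le_const (a := (0 : ℝ)) (b := 1)
      (f := fun s => Pl L F (Function.update ω a s)
        - Pl L F (Function.update (Function.update ω c t) a s)) (C := b)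
      (fun s _ => by
        have h2 := ih hc' (Function.update ω a s)
        rw [Function.update_comm ha]
        simpa using h2)
    simpa using this

/-- Efron-Stein: integrating out the coordinates of `O` changes `F` little in `L²`. -/
theorem efron_stein [Countable I] (O : List I) (hO : O.Nodup) {F : (I → ℝ) → ℝ}
    (hF : Continuous F) {M : ℝ} (hb : ∀ ω, |F ω| ≤ M) (b : I → ℝ)
    (hosc : ∀ c ∈ O, ∀ ω t, |F ω - F (Function.update ω c t)| ≤ b c) :
    ∫ ω, (F ω - Pl O F ω) ^ 2 ∂(PP I) ≤ (O.map (fun c => b c ^ 2)).sum := by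
  induction O with
  | nil => simp [Pl]
  | cons c O ih =>
    have hc : c ∉ O := (List.nodup_cons.1 hO).1
    have hO' : O.Nodup := (List.nodup_cons.1 hO).2
    have ih' := ih hO' (fun a ha => hosc a (List.mem_cons_of_mem _ ha))
    set g : (I → ℝ) → ℝ := Pl O F with hg_def
    have hg : Continuous g := continuous_Pl O hF
    have hgb : ∀ ω, |g ω| ≤ M := Pl_abs_le O hb
    have hPc : Continuous (Pc c g) := continuous_Pl [c] hg
    have hPcb : ∀ ω, |Pc c g ω| ≤ M := Pl_abs_le [c] hgb
    -- the increment
    set h : (I → ℝ) → ℝ := fun ω => g ω - Pc c g ω with hh_def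
    have hh : Continuous h := hg.sub hPc
    have hhosc : ∀ ω, |h ω| ≤ b c := by
      intro ω
      have h1 : h ω = ∫ t in (0 : ℝ)..1, (g ω - g (Function.update ω c t)) := by
        rw [intervalIntegral.integral_sub (by simp)
          (intervalIntegrable_update hg ω c 0 1)]
        simp [hh_def, Pc]
      rw [h1]
      have := intervalIntegral.norm_integral_le_of_norm_le_const (a := (0 : ℝ)) (b := 1)
        (f := fun t => g ω - g (Function.update ω c t)) (C := b c)
        (fun t _ => by
          simpa using Pl_osc O hc hF (hosc c (by simp)) ω t)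
      simpa using this
    have hhO : ∀ a ∈ O, IndepOf a h := by
      intro a ha ω t
      have h1 : IndepOf a g := indepOf_Pl_of_mem ha F
      have h2 : IndepOf a (Pc c g) := indepOf_Pc c h1
      simp only [hh_def, h1 ω t, h2 ω t]
    -- the difference `F - g`
    have hd : Continuous (fun ω => F ω - g ω) := hF.sub hg
    have hdb : ∀ ω, |F ω - g ω| ≤ M + M := fun ω =>
      (abs_sub _ _).trans (add_le_add (hb ω) (hgb ω))
    have hmul : Continuous (fun ω => h ω * (F ω - g ω)) := hh.mul hd
    have hmulb : ∀ ω, |h ω * (F ω - g ω)| ≤ (M + M + (M + M)) * (M + M) := by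
      intro ω
      rw [abs_mul]
      have h1 : |h ω| ≤ M + M + (M + M) := by
        have : |h ω| ≤ M + M := (abs_sub _ _).trans (add_le_add (hgb ω) (hPcb ω))
        have hM : 0 ≤ M + M := (abs_nonneg _).trans (hdb ω)
        linarith
      exact mul_le_mul h1 (hdb ω) (abs_nonneg _) ((abs_nonneg _).trans h1)
    -- the cross term vanishes
    have hcross : ∫ ω, h ω * (F ω - g ω) ∂(PP I) = 0 := by
      rw [← integral_Pl O hmul hmulb, Pl_mul_indep O hhO, Pl_sub O hF hg]
      have h1 : Pl O g = g := Pl_of_indep (fun a ha => indepOf_Pl_of_mem ha F)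
      rw [h1]
      simp [hg_def]
    -- integrability
    have hI1 : Integrable (fun ω => (F ω - g ω) ^ 2) (PP I) := by
      refine integrable_of_cont_bdd (hd.pow 2) (C := (M + M) ^ 2) (fun ω => ?_)
      rw [abs_pow]
      exact pow_le_pow_left₀ (abs_nonneg _) (hdb ω) 2
    have hI2 : Integrable (fun ω => h ω * (F ω - g ω)) (PP I) :=
      integrable_of_cont_bdd hmul hmulb
    have hI3 : Integrable (fun ω => h ω ^ 2) (PP I) := by
      refine integrable_of_cont_bdd (hh.pow 2) (C := (b c) ^ 2) (fun ω => ?_)
      rw [abs_pow]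
      exact pow_le_pow_left₀ (abs_nonneg _) (hhosc ω) 2
    have hexp : ∀ ω, (F ω - Pl (c :: O) F ω) ^ 2
        = (F ω - g ω) ^ 2 + 2 * (h ω * (F ω - g ω)) + h ω ^ 2 := by
      intro ω
      simp only [Pl, hh_def]
      ring
    have hsplit : ∫ ω, (F ω - Pl (c :: O) F ω) ^ 2 ∂(PP I)
        = ∫ ω, (F ω - g ω) ^ 2 ∂(PP I) + 2 * ∫ ω, h ω * (F ω - g ω) ∂(PP I)
          + ∫ ω, h ω ^ 2 ∂(PP I) := by
      simp only [hexp]
      have h1 := integral_add (hI1.add (hI2.const_mul 2)) hI3
      have h2 := integral_add hI1 (hI2.const_mul 2)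
      have h3 : ∫ ω, 2 * (h ω * (F ω - g ω)) ∂(PP I) = 2 * ∫ ω, h ω * (F ω - g ω) ∂(PP I) :=
        integral_const_mul _ _
      simp only [Pi.add_apply] at h1 h2
      rw [h1, h2, h3]
    have hle3 : ∫ ω, h ω ^ 2 ∂(PP I) ≤ b c ^ 2 := by
      have h1 : ∫ ω, h ω ^ 2 ∂(PP I) ≤ ∫ _ω, b c ^ 2 ∂(PP I) := by
        refine integral_mono hI3 (integrable_const _) (fun ω => ?_)
        have := pow_le_pow_left₀ (abs_nonneg _) (hhosc ω) 2
        simpa [sq_abs] using this
      simpa using h1
    rw [hsplit, hcross]
    simp only [List.map_cons, List.sum_cons]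
    linarith

/-- A function depending only on the coordinates of the list `W` is controlled by the sum of its
oscillation bounds. -/
theorem abs_sub_le_of_osc (W : List I) {F : (I → ℝ) → ℝ}
    (hdep : ∀ y y', (∀ c ∈ W, y c = y' c) → F y = F y') (b : I → ℝ)
    (hosc : ∀ c ∈ W, ∀ ω t t', |F (Function.update ω c t) - F (Function.update ω c t')|
        ≤ b c * |max 0 (min t 1) - max 0 (min t' 1)|) (ω ω' : I → ℝ) :
    |F ω - F ω'| ≤ (W.map (fun c => b c * |max 0 (min (ω c) 1) - max 0 (min (ω' c) 1)|)).sum := by
  classical
  have hstep : ∀ (L : List I), (∀ c ∈ L, c ∈ W) → ∀ z : I → ℝ,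
      |F z - F (fun c => if c ∈ L then ω' c else z c)|
        ≤ (L.map (fun c => b c * |max 0 (min (z c) 1) - max 0 (min (ω' c) 1)|)).sum := by
    intro L
    induction L with
    | nil => intro _ z; simp
    | cons a L ih =>
      intro hL z
      have haW : a ∈ W := hL a (by simp)
      have hLW : ∀ c ∈ L, c ∈ W := fun c hc => hL c (List.mem_cons_of_mem _ hc)
      set z₁ := Function.update z a (ω' a) with hz₁
      have h1 : |F z - F z₁| ≤ b a * |max 0 (min (z a) 1) - max 0 (min (ω' a) 1)| := by
        have := hosc a haW z (z a) (ω' a)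
        simpa using this
      have h2 := ih hLW z₁
      have h3 : (fun c => if c ∈ L then ω' c else z₁ c)
          = (fun c => if c ∈ a :: L then ω' c else z c) := by
        funext c
        by_cases hcL : c ∈ L
        · simp [hcL]
        · by_cases hca : c = a
          · subst hca; simp [hz₁]
          · simp [hcL, hca, hz₁]
      rw [h3] at h2
      have h4 : (L.map (fun c => b c * |max 0 (min (z₁ c) 1) - max 0 (min (ω' c) 1)|)).sum
          ≤ (L.map (fun c => b c * |max 0 (min (z c) 1) - max 0 (min (ω' c) 1)|)).sum := by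
        refine List.sum_le_sum (fun c hc => ?_)
        by_cases hca : c = a
        · subst hca
          have h5 : z₁ c = ω' c := by simp [hz₁]
          rw [h5]
          have h6 := (abs_nonneg _).trans (hosc c haW z (z c) (ω' c))
          simpa using h6
        · have h5 : z₁ c = z c := by simp [hz₁, Function.update_of_ne hca]
          rw [h5]
      simp only [List.map_cons, List.sum_cons]
      have h7 := abs_sub_le (F z) (F z₁) (F (fun c => if c ∈ a :: L then ω' c else z c))
      linarith
  have h1 := hstep W (fun c hc => hc) ω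
  have h2 : F (fun c => if c ∈ W then ω' c else ω c) = F ω' :=
    hdep _ _ (fun c hc => by simp [hc])
  rwa [h2] at h1

/-- Integrating out preserves dependence on a list of coordinates only. -/
theorem Pl_congr_dep (O L : List I) {F : (I → ℝ) → ℝ}
    (h : ∀ y y', (∀ c ∈ L, y c = y' c) → F y = F y') :
    ∀ y y', (∀ c ∈ L, y c = y' c) → Pl O F y = Pl O F y' := by
  induction O with
  | nil => exact h
  | cons a O ih =>
    intro y y' hyy
    simp only [Pl, Pc]
    refine intervalIntegral.integral_congr (fun t _ => ?_)
    refine ih _ _ (fun c hc => ?_)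
    by_cases hca : c = a
    · subst hca; simp
    · simp [Function.update_of_ne hca, hyy c hc]

omit [DecidableEq I] in
/-- Almost surely all coordinates lie in the unit interval. -/
theorem ae_mem_Icc [Countable I] : ∀ᵐ ω ∂(PP I), ∀ c, 0 ≤ ω c ∧ ω c ≤ 1 := by
  classical
  rw [ae_all_iff]
  intro c
  have hm : MeasurableSet (Set.pi ((({c} : Finset I)) : Set I) (fun _ : I => Set.Icc (0 : ℝ) 1)) :=
    MeasurableSet.pi (Finset.countable_toSet _) (fun _ _ => measurableSet_Icc)
  have h1 : PP I (Set.pi ((({c} : Finset I)) : Set I) (fun _ : I => Set.Icc (0 : ℝ) 1)) = 1 := by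
    unfold PP
    rw [Measure.infinitePi_pi _ (fun _ _ => measurableSet_Icc)]
    simp [unif]
  have h2 : ∀ᵐ ω ∂(PP I), ω ∈ Set.pi ((({c} : Finset I)) : Set I)
      (fun _ : I => Set.Icc (0 : ℝ) 1) :=
    (prob_compl_eq_zero_iff hm).2 h1
  filter_upwards [h2] with ω hω
  have := hω c (by simp)
  exact ⟨this.1, this.2⟩

end Vale.Agent.P161
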