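import Vale.Agent.P161.NoiseBase

set_option autoImplicit false

noncomputable section
open MeasureTheory Filter Topology

namespace Vale.Agent.P161

/-! ### Quantile transform -/

private theorem ae_mem_Ioo_unif : ∀ᵐ t ∂unif, t ∈ Set.Ioo (0 : ℝ) 1 := by
  have h : unif = volume.restrict (Set.Ioo (0 : ℝ) 1) := by
    rw [unif, Measure.restrict_congr_set Ioo_ae_eq_Icc]
  rw [h]
  exact ae_restrict_mem measurableSet_Ioo

private theorem unif_Iic {a : ℝ} (h1 : a ≤ 1) : unif (Set.Iic a) = ENNReal.ofReal a := by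
  rw [unif, Measure.restrict_apply measurableSet_Iic]
  have : Set.Iic a ∩ Set.Icc (0 : ℝ) 1 = Set.Icc 0 a := by
    ext t
    simp only [Set.mem_inter_iff, Set.mem_Iic, Set.mem_Icc]
    constructor
    · rintro ⟨h2, h3, _⟩
      exact ⟨h3, h2⟩
    · rintro ⟨h3, h2⟩
      exact ⟨h2, h3, h2.trans h1⟩
  rw [this, Real.volume_Icc, sub_zero]

private theorem exists_quantile (ν : Measure ℝ) [IsProbabilityMeasure ν] :
    ∃ Q : ℝ → ℝ, Measurable Q ∧ Measure.map Q unif = ν := by
  classical
  set F := ProbabilityTheory.cdf ν with hF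
  have hmono : Monotone F := ProbabilityTheory.monotone_cdf ν
  have hbot : Tendsto F atBot (𝓝 0) := ProbabilityTheory.tendsto_cdf_atBot ν
  have htop : Tendsto F atTop (𝓝 1) := ProbabilityTheory.tendsto_cdf_atTop ν
  -- the quantile
  let Q : ℝ → ℝ := fun t => if t ∈ Set.Ioo (0 : ℝ) 1 then sInf {x | t ≤ F x} else 0
  have hkey : ∀ t ∈ Set.Ioo (0 : ℝ) 1, ∀ x, Q t ≤ x ↔ t ≤ F x := by
    intro t ht x
    have hQt : Q t = sInf {x | t ≤ F x} := by simp only [Q, if_pos ht]
    have hne : ({x | t ≤ F x} : Set ℝ).Nonempty := by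
      have : ∀ᶠ y in atTop, t < F y := htop.eventually (lt_mem_nhds ht.2)
      obtain ⟨y, hy⟩ := this.exists
      exact ⟨y, hy.le⟩
    have hbdd : BddBelow ({x | t ≤ F x} : Set ℝ) := by
      have : ∀ᶠ y in atBot, F y < t := hbot.eventually (gt_mem_nhds ht.1)
      obtain ⟨y, hy⟩ := this.exists
      refine ⟨y, fun z hz => ?_⟩
      by_contra hlt
      push Not at hlt
      have : F z ≤ F y := hmono hlt.le
      have hz' : t ≤ F z := hz
      linarith
    constructor
    · intro hle
      rw [hQt] at hle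
      -- right continuity
      have hmem : t ≤ F (sInf {x | t ≤ F x}) := by
        by_contra hlt
        push Not at hlt
        set q := sInf {x | t ≤ F x} with hq
        have hrc : ContinuousWithinAt F (Set.Ici q) q := (ProbabilityTheory.cdf ν).right_continuous q
        have hev : ∀ᶠ y in 𝓝[Set.Ici q] q, F y < t := hrc.eventually (gt_mem_nhds hlt)
        rw [eventually_nhdsWithin_iff, Metric.eventually_nhds_iff] at hev
        obtain ⟨δ, hδ, hδ'⟩ := hev
        obtain ⟨a, ha, hlt'⟩ := exists_lt_of_csInf_lt hne (show sInf {x | t ≤ F x} < q + δ by linarith)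
        have hqa : q ≤ a := csInf_le hbdd ha
        have := hδ' (y := a) (by rw [Real.dist_eq, abs_of_nonneg (by linarith)]; linarith) hqa
        have ha' : t ≤ F a := ha
        linarith
      exact hmem.trans (hmono hle)
    · intro h
      rw [hQt]
      exact csInf_le hbdd h
  have hpre : ∀ x : ℝ, Q ⁻¹' Set.Iic x =
      (Set.Ioo (0 : ℝ) 1 ∩ Set.Iic (F x)) ∪ ((Set.Ioo (0 : ℝ) 1)ᶜ ∩ {t | (0 : ℝ) ≤ x}) := by
    intro x
    ext t
    by_cases ht : t ∈ Set.Ioo (0 : ℝ) 1
    · simp only [Set.mem_preimage, Set.mem_Iic, Set.mem_union, Set.mem_inter_iff, Set.mem_compl_iff,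
        ht, true_and, not_true_eq_false, false_and, or_false]
      exact hkey t ht x
    · have hQ0 : Q t = 0 := by simp only [Q, if_neg ht]
      simp only [Set.mem_preimage, Set.mem_Iic, Set.mem_union, Set.mem_inter_iff, Set.mem_compl_iff,
        ht, false_and, not_false_eq_true, true_and, false_or, hQ0, Set.mem_ofPred_eq]
  have hQm : Measurable Q := by
    refine measurable_of_Iic fun x => ?_
    rw [hpre x]
    refine (measurableSet_Ioo.inter measurableSet_Iic).union (measurableSet_Ioo.compl.inter ?_)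
    by_cases hx : (0 : ℝ) ≤ x
    · simp [hx]
    · simp [hx]
  refine ⟨Q, hQm, ?_⟩
  have : IsProbabilityMeasure (Measure.map Q unif) :=
    Measure.isProbabilityMeasure_map hQm.aemeasurable
  refine Measure.eq_of_cdf _ _ ?_
  ext x
  have h0 : 0 ≤ F x := ProbabilityTheory.cdf_nonneg ν x
  have h1 : F x ≤ 1 := ProbabilityTheory.cdf_le_one ν x
  rw [ProbabilityTheory.cdf_eq_real]
  change Measure.real _ _ = F x
  rw [Measure.real, Measure.map_apply hQm measurableSet_Iic]
  have hae : Q ⁻¹' Set.Iic x =ᵐ[unif] Set.Iic (F x) := by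
    filter_upwards [ae_mem_Ioo_unif] with t ht
    have : (Q ⁻¹' Set.Iic x) t ↔ (Set.Iic (F x)) t := hkey t ht x
    exact propext this
  rw [measure_congr hae, unif_Iic h1, ENNReal.toReal_ofReal h0]

/-- One uniform variable encodes an i.i.d. uniform sequence. -/
theorem exists_noise_map : ∃ S : ℝ → ℕ → ℝ, Measurable S ∧ Measure.map S unif = PP ℕ := by
  obtain ⟨e, he⟩ := exists_measurableEmbedding_real (ℕ → ℝ)
  have : IsProbabilityMeasure (Measure.map e (PP ℕ)) :=
    Measure.isProbabilityMeasure_map he.measurable.aemeasurable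
  obtain ⟨Q, hQm, hQ⟩ := exists_quantile (Measure.map e (PP ℕ))
  obtain ⟨g, hg, hge⟩ := he.exists_measurable_extend (g := (id : (ℕ → ℝ) → (ℕ → ℝ))) measurable_id
    (fun _ => ⟨fun _ => 0⟩)
  refine ⟨g ∘ Q, hg.comp hQm, ?_⟩
  rw [← Measure.map_map hg hQm, hQ, Measure.map_map hg he.measurable, hge, Measure.map_id]

/-- Split a site-indexed uniform array into labels and a doubly indexed array. -/
def splitU {V : Type*} (S : ℝ → ℕ → ℝ) (U : V → ℝ) : (V → ℝ) × (V × ℕ → ℝ) :=
  (fun v => S (U v) 0, fun c => S (U c.1) (c.2 + 1))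

theorem measurable_splitU {V : Type*} {S : ℝ → ℕ → ℝ} (hS : Measurable S) :
    Measurable (splitU (V := V) S) := by
  refine Measurable.prodMk ?_ ?_
  · refine measurable_pi_iff.2 fun v => ?_
    exact (measurable_pi_apply 0).comp (hS.comp (measurable_pi_apply v))
  · refine measurable_pi_iff.2 fun c => ?_
    exact (measurable_pi_apply (c.2 + 1)).comp (hS.comp (measurable_pi_apply c.1))

/-- Relabelling preserves the product measure. -/
theorem PP_map_comp_equiv {I J : Type*} (e : I ≃ J) :
    Measure.map (fun ω : I → ℝ => ω ∘ e.symm) (PP I) = PP J := by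
  have h := Measure.infinitePi_map_piCongrLeft (X := fun _ : J => ℝ) (μ := fun _ : J => unif) e
  have hf : (⇑(MeasurableEquiv.piCongrLeft (fun _ : J => ℝ) e)) =
      (fun ω : I → ℝ => ω ∘ e.symm) := by
    funext ω j
    simp [MeasurableEquiv.coe_piCongrLeft, Equiv.piCongrLeft_apply]
  rw [hf] at h
  exact h

private theorem map_sum_split (I J : Type*) :
    Measure.map (fun a : I ⊕ J → ℝ => ((fun i => a (Sum.inl i)), (fun j => a (Sum.inr j))))
      (PP (I ⊕ J)) = (PP I).prod (PP J) := by
  classical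
  have hΨ : Measurable (fun p : (I → ℝ) × (J → ℝ) => (Sum.elim p.1 p.2 : I ⊕ J → ℝ)) := by
    refine measurable_pi_iff.2 fun c => ?_
    rcases c with i | j
    · exact (measurable_pi_apply i).comp measurable_fst
    · exact (measurable_pi_apply j).comp measurable_snd
  have h1 : Measure.map (fun p : (I → ℝ) × (J → ℝ) => (Sum.elim p.1 p.2 : I ⊕ J → ℝ))
      ((PP I).prod (PP J)) = PP (I ⊕ J) := by
    refine Measure.eq_infinitePi _ fun s t ht => ?_
    rw [Measure.map_apply hΨ (MeasurableSet.pi s.countable_toSet fun c _ => ht c)]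
    have hset : (fun p : (I → ℝ) × (J → ℝ) => (Sum.elim p.1 p.2 : I ⊕ J → ℝ)) ⁻¹'
        (Set.pi (s : Set (I ⊕ J)) t) =
        (Set.pi (s.toLeft : Set I) (fun i => t (Sum.inl i))) ×ˢ
        (Set.pi (s.toRight : Set J) (fun j => t (Sum.inr j))) := by
      ext p
      simp only [Set.mem_preimage, Set.mem_pi, Finset.mem_coe, Set.mem_prod, Finset.mem_toLeft,
        Finset.mem_toRight]
      constructor
      · intro h
        exact ⟨fun i hi => h (Sum.inl i) hi, fun j hj => h (Sum.inr j) hj⟩
      · rintro ⟨h1, h2⟩ c hc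
        rcases c with i | j
        · exact h1 i hc
        · exact h2 j hc
    rw [hset, Measure.prod_prod, PP, PP, Measure.infinitePi_pi _ (fun i _ => ht _),
      Measure.infinitePi_pi _ (fun j _ => ht _)]
    conv_rhs => rw [← Finset.toLeft_disjSum_toRight (u := s)]
    rw [Finset.prod_disjSum]
  have hΦ : Measurable (fun a : I ⊕ J → ℝ => ((fun i => a (Sum.inl i)), (fun j => a (Sum.inr j)))) := by
    refine Measurable.prodMk ?_ ?_
    · exact measurable_pi_iff.2 fun i => measurable_pi_apply _
    · exact measurable_pi_iff.2 fun j => measurable_pi_apply _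
  rw [← h1, Measure.map_map hΦ hΨ]
  have : ((fun a : I ⊕ J → ℝ => ((fun i => a (Sum.inl i)), (fun j => a (Sum.inr j)))) ∘
      (fun p : (I → ℝ) × (J → ℝ) => (Sum.elim p.1 p.2 : I ⊕ J → ℝ))) = id := by
    funext p
    rfl
  rw [this, Measure.map_id]

/-- The relabelling of `V × ℕ` that splits off the row `0`. -/
private def splitEquiv (V : Type*) : V × ℕ ≃ V ⊕ (V × ℕ) where
  toFun c := match c with
    | (v, 0) => Sum.inl v
    | (v, n + 1) => Sum.inr (v, n)
  invFun c := match c with
    | Sum.inl v => (v, 0)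
    | Sum.inr (v, n) => (v, n + 1)
  left_inv c := by
    rcases c with ⟨v, n⟩
    cases n <;> rfl
  right_inv c := by
    rcases c with v | ⟨v, n⟩ <;> rfl

theorem map_splitU {V : Type*} [Countable V] {S : ℝ → ℕ → ℝ} (hS : Measurable S)
    (hS' : Measure.map S unif = PP ℕ) :
    Measure.map (splitU (V := V) S) (PP V) = (PP V).prod (PP (V × ℕ)) := by
  classical
  -- Step 1: apply `S` sitewise
  have h1 : Measure.map (fun (U : V → ℝ) (v : V) => S (U v)) (PP V) =
      Measure.infinitePi (fun _ : V => PP ℕ) := by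
    have := Measure.infinitePi_map_pi (X := fun _ : V => ℝ) (Y := fun _ : V => ℕ → ℝ)
      (μ := fun _ : V => unif) (f := fun _ => S) (fun _ => hS)
    rw [hS'] at this
    exact this
  -- Step 2: uncurry
  have h2 := Measure.infinitePi_map_curry_symm (ι := V) (κ := ℕ) (X := ℝ) (fun _ _ => unif)
  have h2' : Measure.map (fun (x : V → ℕ → ℝ) (c : V × ℕ) => x c.1 c.2)
      (Measure.infinitePi (fun _ : V => PP ℕ)) = PP (V × ℕ) := h2
  -- Step 3: relabel
  have h3 := PP_map_comp_equiv (splitEquiv V)
  -- Step 4: split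
  have h4 := map_sum_split V (V × ℕ)
  have m1 : Measurable (fun (U : V → ℝ) (v : V) => S (U v)) :=
    measurable_pi_iff.2 fun v => hS.comp (measurable_pi_apply v)
  have m2 : Measurable (fun (x : V → ℕ → ℝ) (c : V × ℕ) => x c.1 c.2) :=
    measurable_pi_iff.2 fun c => (measurable_pi_apply c.2).comp (measurable_pi_apply c.1)
  have m3 : Measurable (fun ω : V × ℕ → ℝ => ω ∘ (splitEquiv V).symm) :=
    measurable_pi_iff.2 fun c => measurable_pi_apply _
  have m4 : Measurable (fun a : V ⊕ (V × ℕ) → ℝ =>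
      ((fun i => a (Sum.inl i)), (fun j => a (Sum.inr j)))) := by
    refine Measurable.prodMk ?_ ?_
    · exact measurable_pi_iff.2 fun i => measurable_pi_apply _
    · exact measurable_pi_iff.2 fun j => measurable_pi_apply _
  rw [← h4, ← h3, ← h2', ← h1, Measure.map_map m4 m3, Measure.map_map (m4.comp m3) m2,
    Measure.map_map ((m4.comp m3).comp m2) m1]
  rfl

/-- Bounded `L²`-Cauchy sequences of measurable functions have a measurable `L²`-limit. -/
theorem exists_L2_limit {Ω : Type*} [MeasurableSpace Ω] {P : Measure Ω} [IsProbabilityMeasure P]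
    (F : ℕ → Ω → ℝ) (hm : ∀ k, Measurable (F k)) (hb : ∀ k ω, |F k ω| ≤ 1)
    (hC : ∀ ε > 0, ∃ N, ∀ m ≥ N, ∀ m' ≥ N, ∫ ω, (F m ω - F m' ω) ^ 2 ∂P ≤ ε) :
    ∃ X : Ω → ℝ, Measurable X ∧ (∀ ω, |X ω| ≤ 1) ∧
      Tendsto (fun k => ∫ ω, (F k ω - X ω) ^ 2 ∂P) atTop (𝓝 0) := by
  have hmem : ∀ k, MemLp (F k) 2 P := fun k =>
    MemLp.of_bound (hm k).aestronglyMeasurable 1
      (Eventually.of_forall fun ω => by simpa using hb k ω)
  let f : ℕ → Lp ℝ 2 P := fun k => (hmem k).toLp (F k)
  have hfae : ∀ k, f k =ᵐ[P] F k := fun k => (hmem k).coeFn_toLp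
  -- norm identity
  have hnorm : ∀ g : Lp ℝ 2 P, ‖g‖ ^ 2 = ∫ ω, (g ω) ^ 2 ∂P := by
    intro g
    have h := @inner_self_eq_norm_sq ℝ (Lp ℝ 2 P) _ _ _ g
    rw [L2.inner_def] at h
    simp only [RCLike.re_to_real] at h
    rw [← h]
    refine integral_congr_ae (Eventually.of_forall fun ω => ?_)
    simp [pow_two]
  have hsub : ∀ m m', ‖f m - f m'‖ ^ 2 = ∫ ω, (F m ω - F m' ω) ^ 2 ∂P := by
    intro m m'
    rw [hnorm]
    refine integral_congr_ae ?_
    filter_upwards [Lp.coeFn_sub (f m) (f m'), hfae m, hfae m'] with ω h1 h2 h3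
    rw [h1, Pi.sub_apply, h2, h3]
  have hcauchy : CauchySeq f := by
    rw [Metric.cauchySeq_iff]
    intro ε hε
    obtain ⟨N, hN⟩ := hC (ε ^ 2 / 2) (by positivity)
    refine ⟨N, fun m hm' m' hm'' => ?_⟩
    rw [dist_eq_norm]
    have h := hN m hm' m' hm''
    rw [← hsub] at h
    have hlt : ‖f m - f m'‖ ^ 2 < ε ^ 2 := by nlinarith [sq_nonneg ε, sq_pos_of_pos hε]
    exact lt_of_pow_lt_pow_left₀ 2 hε.le hlt
  obtain ⟨g, hg⟩ := cauchySeq_tendsto_of_complete hcauchy
  have hgm : Measurable (g : Ω → ℝ) := (Lp.stronglyMeasurable g).measurable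
  refine ⟨fun ω => max (-1) (min 1 (g ω)), ?_, ?_, ?_⟩
  · exact measurable_const.max (measurable_const.min hgm)
  · intro ω
    rw [abs_le]
    constructor
    · exact le_max_left _ _
    · exact max_le (by norm_num) (min_le_left _ _)
  · have hgl : Tendsto (fun k => ‖f k - g‖ ^ 2) atTop (𝓝 0) := by
      have : Tendsto (fun k => ‖f k - g‖) atTop (𝓝 0) := by
        simpa [dist_eq_norm] using (tendsto_iff_dist_tendsto_zero.1 hg)
      simpa using this.pow 2
    refine squeeze_zero (fun k => integral_nonneg fun ω => sq_nonneg _) (fun k => ?_) hgl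
    rw [hnorm]
    have hpt : ∀ᵐ ω ∂P, (F k ω - max (-1) (min 1 (g ω))) ^ 2 ≤ ((f k - g : Lp ℝ 2 P) ω) ^ 2 := by
      filter_upwards [Lp.coeFn_sub (f k) g, hfae k] with ω h1 h2
      rw [h1, Pi.sub_apply, h2]
      have hk := abs_le.1 (hb k ω)
      have hmax : ∀ a : ℝ, (F k ω - max (-1) (min 1 a)) ^ 2 ≤ (F k ω - a) ^ 2 := by
        intro a
        rcases le_total a (-1) with h | h
        · have : max (-1 : ℝ) (min 1 a) = -1 := by
            rw [min_eq_right (by linarith), max_eq_left h]
          rw [this]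
          nlinarith [hk.1, hk.2]
        · rcases le_total a 1 with h' | h'
          · have : max (-1 : ℝ) (min 1 a) = a := by
              rw [min_eq_right h', max_eq_right h]
            rw [this]
          · have : max (-1 : ℝ) (min 1 a) = 1 := by
              rw [min_eq_left h', max_eq_right (by norm_num)]
            rw [this]
            nlinarith [hk.1, hk.2]
      exact hmax (g ω)
    refine integral_mono_of_nonneg (Eventually.of_forall fun ω => sq_nonneg _) ?_ hpt
    exact (Lp.memLp (f k - g)).integrable_sq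

/-- Almost every label array is injective. -/
theorem ae_injective_label {V : Type*} [Countable V] :
    ∀ᵐ ℓ ∂(PP V), Function.Injective ℓ := by
  classical
  have key : ∀ u v : V, u ≠ v → ∀ᵐ ℓ ∂(PP V), ℓ u ≠ ℓ v := by
    intro u v huv
    have hφ : Measurable (fun ℓ : V → ℝ => (ℓ u, ℓ v)) :=
      (measurable_pi_apply u).prodMk (measurable_pi_apply v)
    have hmap : unif.prod unif = Measure.map (fun ℓ : V → ℝ => (ℓ u, ℓ v)) (PP V) := by
      refine Measure.prod_eq fun s t hs ht => ?_
      rw [Measure.map_apply hφ (hs.prod ht)]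
      have hset : (fun ℓ : V → ℝ => (ℓ u, ℓ v)) ⁻¹' (s ×ˢ t) =
          Set.pi (({u, v} : Finset V) : Set V) (fun w => if w = u then s else t) := by
        ext ℓ
        simp only [Set.mem_preimage, Set.mem_prod, Set.mem_pi, Finset.coe_insert,
          Finset.coe_singleton, Set.mem_insert_iff, Set.mem_singleton_iff]
        constructor
        · rintro ⟨h1, h2⟩ w (rfl | rfl)
          · simpa using h1
          · simpa [huv.symm] using h2
        · intro h
          have h1 := h u (Or.inl rfl)
          have h2 := h v (Or.inr rfl)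
          simp only [if_true] at h1
          simp only [if_neg huv.symm] at h2
          exact ⟨h1, h2⟩
      rw [hset, PP, Measure.infinitePi_pi _ (fun w _ => by
        by_cases hw : w = u
        · simpa [hw] using hs
        · simpa [hw] using ht), Finset.prod_pair huv]
      simp [huv.symm]
    have hD : MeasurableSet {p : ℝ × ℝ | p.1 = p.2} := measurableSet_eq_fun measurable_fst measurable_snd
    have hnull : (unif.prod unif) {p : ℝ × ℝ | p.1 = p.2} = 0 := by
      rw [Measure.measure_prod_null hD]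
      refine Eventually.of_forall fun x => ?_
      have : Prod.mk x ⁻¹' {p : ℝ × ℝ | p.1 = p.2} = {x} := by
        ext y
        simp [eq_comm]
      have hunif : unif {x} = 0 := by
        rw [unif]
        exact le_antisymm ((Measure.restrict_apply_le _ _).trans (by simp)) zero_le
      simp only [Pi.zero_apply, this, hunif]
    rw [hmap, Measure.map_apply hφ hD] at hnull
    rw [ae_iff]
    simpa using hnull
  have hall : ∀ᵐ ℓ ∂(PP V), ∀ u v : V, u ≠ v → ℓ u ≠ ℓ v := by
    refine ae_all_iff.2 fun u => ae_all_iff.2 fun v => ?_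
    by_cases huv : u = v
    · exact Eventually.of_forall fun ℓ h => absurd huv h
    · filter_upwards [key u v huv] with ℓ hℓ _ using hℓ
  filter_upwards [hall] with ℓ hℓ u v heq
  by_contra hne
  exact hℓ u v hne heq

end Vale.Agent.P161
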