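import Vale.Agent.P161.Law

set_option autoImplicit false

noncomputable section
open scoped Classical
open Finset MeasureTheory

namespace Vale.Agent.P161

variable {V : Type*} {G : SimpleGraph V} {θ δ : ℝ}

section stat

/-- The statistic at `v` after the sweeps of `o`. -/
def stat (G : SimpleGraph V) (θ δ : ℝ) (Λ : Finset V) (L : List (V × ℕ)) (v : V)
    (z : V × ℕ → ℝ) : ℝ := (run G θ δ Λ L (0, 0) z).1 v

/-- The decoded spin estimate at `v`. -/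
def tau (G : SimpleGraph V) (θ δ : ℝ) (K : ℝ) (Λ : Finset V) (L : List (V × ℕ)) (v : V)
    (z : V × ℕ → ℝ) : ℝ := clip (K * stat G θ δ Λ L v z)

lemma abs_tau_le (K : ℝ) (Λ : Finset V) (L : List (V × ℕ)) (v : V) (z : V × ℕ → ℝ) :
    |tau G θ δ K Λ L v z| ≤ 1 := abs_clip_le _

lemma continuous_stat (hθ : |θ| < 1) (hδ0 : 0 ≤ δ) (hδ1 : δ ≤ 1 / 2) (Λ : Finset V)
    (L : List (V × ℕ)) (v : V) : Continuous (stat G θ δ Λ L v) := by
  unfold stat
  exact (continuous_apply v).comp (continuous_fst.comp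
    ((continuous_run hθ hδ0 hδ1 Λ L).comp (continuous_const.prodMk continuous_id)))

lemma continuous_tau (hθ : |θ| < 1) (hδ0 : 0 ≤ δ) (hδ1 : δ ≤ 1 / 2) (K : ℝ) (Λ : Finset V)
    (L : List (V × ℕ)) (v : V) : Continuous (tau G θ δ K Λ L v) := by
  unfold tau
  exact continuous_clip.comp (continuous_const.mul (continuous_stat hθ hδ0 hδ1 Λ L v))

lemma run_update_of_not_mem (Λ : Finset V) {L : List (V × ℕ)} {c : V × ℕ} (hc : c ∉ L) (st : St V)
    (z : V × ℕ → ℝ) (t : ℝ) : run G θ δ Λ L st (Function.update z c t) = run G θ δ Λ L st z := by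
  induction L generalizing st with
  | nil => rfl
  | cons b L ih =>
    rw [List.mem_cons, not_or] at hc
    rw [run_cons, run_cons, ih hc.2, Function.update_of_ne (Ne.symm hc.1)]

lemma tau_indep (K : ℝ) (Λ : Finset V) {L : List (V × ℕ)} (v : V) {c : V × ℕ} (hc : c ∉ L) :
    IndepOf c (tau G θ δ K Λ L v) := by
  intro ω t
  unfold tau stat
  rw [run_update_of_not_mem Λ hc]

/-- Lipschitz bound of the decoded spin in the noise. -/
lemma tau_osc (hG : G.Connected) (hθ0 : 0 ≤ θ) (hθ1 : θ < 1) (hδ0 : 0 ≤ δ) (hδ1 : δ ≤ 1 / 2)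
    {K : ℝ} (hK : 0 ≤ K) {Λ : Finset V} (hΛ : TreeSet G Λ) {s C μ : ℝ} (hs : 0 < s)
    (hLy : ∀ x, ∀ u ∈ Λ, ∑ w ∈ Λ, θ ^ G.dist u w * s ^ G.dist w x ≤ C * s ^ G.dist u x)
    (hμ : 1 + 2 * δ ^ 2 * C * μ = μ) (hμ1 : 1 ≤ μ)
    {o : List V} (ho : o.Nodup) (hoΛ : ∀ u ∈ o, u ∈ Λ) (n : ℕ) {v : V} (hv : v ∈ Λ)
    (c : V × ℕ) (ω : V × ℕ → ℝ) (t t' : ℝ) :
    |tau G θ δ K Λ (Cs o n) v (Function.update ω c t) - tau G θ δ K Λ (Cs o n) v (Function.update ω c t')|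
      ≤ (K * KK δ μ n * s ^ G.dist v c.1) * |proj t - proj t'| := by
  have hΔ : 0 ≤ |proj t - proj t'| := abs_nonneg _
  have hp : ∀ u, 0 < s ^ G.dist u c.1 := fun u => pow_pos hs _
  have := Cs_lip (z := Function.update ω c t) (z' := Function.update ω c t') hG hθ0 hθ1 hδ0 hδ1 hΛ hs
    (hLy c.1) hμ hμ1 hΔ o ho hoΛ (fun u _ j => by
      by_cases hc : (u, j) = c
      · subst hc
        simp
      · rw [Function.update_of_ne hc, Function.update_of_ne hc, sub_self, abs_zero]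
        exact mul_nonneg hΔ (hp u).le) (0, 0) n v hv
  unfold tau stat
  refine (abs_clip_sub_le _ _).trans ?_
  rw [← mul_sub, abs_mul, abs_of_nonneg hK]
  calc K * _ ≤ K * (KK δ μ n * |proj t - proj t'| * s ^ G.dist v c.1) :=
        mul_le_mul_of_nonneg_left this hK
    _ = _ := by ring

end stat

section oscillation

variable {I : Type*} [DecidableEq I]

/-- Oscillation survives integrating out other coordinates. -/
lemma Pl_osc2 {F : (I → ℝ) → ℝ} (hF : Continuous F) {c : I} (L : List I) (hc : c ∉ L) (t t' : ℝ)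
    {B : ℝ} (h : ∀ ω, |F (Function.update ω c t) - F (Function.update ω c t')| ≤ B) (ω : I → ℝ) :
    |Pl L F (Function.update ω c t) - Pl L F (Function.update ω c t')| ≤ B := by
  induction L generalizing ω with
  | nil => exact h ω
  | cons b L ih =>
    rw [List.mem_cons, not_or] at hc
    simp only [Pl, Pc]
    have hcont : Continuous (Pl L F) := continuous_Pl L hF
    rw [← intervalIntegral.integral_sub]
    · have hb : ∀ r ∈ Set.uIoc (0 : ℝ) 1,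
          ‖Pl L F (Function.update (Function.update ω c t) b r)
            - Pl L F (Function.update (Function.update ω c t') b r)‖ ≤ B := by
        intro r _
        rw [Function.update_comm hc.1, Function.update_comm hc.1, Real.norm_eq_abs]
        exact ih hc.2 _
      have := intervalIntegral.norm_integral_le_of_norm_le_const hb
      simpa using this
    · apply Continuous.intervalIntegrable
      exact hcont.comp (Continuous.update continuous_const b continuous_id)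
    · apply Continuous.intervalIntegrable
      exact hcont.comp (Continuous.update continuous_const b continuous_id)

end oscillation

section innovation

variable [Countable V]

lemma ae_mem_Icc_coord {I : Type*} (c : I) : ∀ᵐ ω ∂(PP I), 0 ≤ ω c ∧ ω c ≤ 1 := by
  have hmp : MeasurePreserving (Function.eval c) (PP I) unif := by
    unfold PP
    exact measurePreserving_eval_infinitePi _ c
  have h1 : ∀ᵐ t ∂unif, 0 ≤ t ∧ t ≤ 1 := by
    unfold unif
    filter_upwards [ae_restrict_mem measurableSet_Icc] with t ht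
    exact ⟨ht.1, ht.2⟩
  exact hmp.quasiMeasurePreserving.ae h1

lemma ae_mem_Icc_all {I : Type*} [Countable I] : ∀ᵐ ω ∂(PP I), ∀ c, 0 ≤ ω c ∧ ω c ≤ 1 :=
  ae_all_iff.mpr ae_mem_Icc_coord

lemma ae_proj_eq : ∀ᵐ z ∂(PP (V × ℕ)), (fun c => proj (z c)) = z := by
  filter_upwards [ae_mem_Icc_all (I := V × ℕ)] with z hz
  funext c
  exact proj_of_mem (hz c).1 (hz c).2

/-- The innovations of a bigger volume, seen through a smaller convex volume, are uniform. -/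
theorem innov_law (hT : G.IsTree) (hθ : |θ| < 1) (hδ0 : 0 ≤ δ) (hδ1 : δ ≤ 1 / 2)
    {Λ₁ Λ₂ : Finset V} (h₁ : IsConvexSet G Λ₁) (h₂ : IsConvexSet G Λ₂) (hne : Λ₁.Nonempty)
    (hsub : Λ₁ ⊆ Λ₂) {L : List (V × ℕ)} (hL : L.Nodup) (hLΛ : ∀ c ∈ L, c.1 ∈ Λ₂)
    {Ξ : (V × ℕ → ℝ) → ℝ} (hΞ : Continuous Ξ) {M : ℝ} (hΞb : ∀ y, |Ξ y| ≤ M)
    (hΞ' : ∀ y y', (∀ c ∈ L.filter (fun c => c.1 ∈ Λ₁), y c = y' c) → Ξ y = Ξ y') :
    ∫ z, Ξ (innRec G θ δ Λ₁ (L.filter (fun c => c.1 ∈ Λ₁)) 0 (run G θ δ Λ₂ L (0, 0) z).2 0)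
        ∂(PP (V × ℕ)) = ∫ z, Ξ z ∂(PP (V × ℕ)) := by
  set L₁ := L.filter (fun c => c.1 ∈ Λ₁) with hL₁
  have hL₁nd : L₁.Nodup := hL.filter _
  let Ψ : (V × ℕ → ℝ) → ℝ := fun y => Ξ (innRec G θ δ Λ₁ L₁ 0 y 0)
  have hΨ : Continuous Ψ := by
    refine hΞ.comp ?_
    have := continuous_innRec (G := G) hθ hδ0 hδ1 Λ₁ L₁
    exact this.comp (continuous_const.prodMk (continuous_id.prodMk continuous_const))
  have hΨ' : ∀ y y', (∀ c ∈ L₁, y c = y' c) → Ψ y = Ψ y' := by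
    intro y y' h
    simp only [Ψ]
    rw [innRec_congr G θ δ Λ₁ L₁ 0 h 0]
  have t := transfer (G := G) hT hθ hδ0 hδ1 h₁ h₂ hne hsub hL hLΛ (ξ := fun _ => 1) (B := 1)
    (by simp) (fun _ _ _ => rfl) (Ψ := Ψ) hΨ (M := M) (fun y => hΞb _) hΨ'
  have hone : ∀ (Λ : Finset V) (f : V → ℝ), avg G θ Λ f (fun _ => (1 : ℝ)) = 1 :=
    fun Λ f => avg_const hθ Λ f 1
  simp only [hone, one_mul] at t
  rw [← hL₁] at t
  refine t.trans ?_
  refine integral_congr_ae ?_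
  filter_upwards [ae_proj_eq (V := V)] with z hz
  simp only [Ψ]
  refine hΞ' _ _ (fun c hc => ?_)
  have := innRec_run G θ δ Λ₁ hL₁nd (0 : V → ℝ) (0 : V × ℕ → ℝ) (0 : V × ℕ → ℝ) z hc
  rw [this]
  exact congrFun hz c

end innovation

section general

lemma run_congr (Λ : Finset V) {L : List (V × ℕ)} {z z' : V × ℕ → ℝ} (h : ∀ c ∈ L, z c = z' c)
    (st : St V) : run G θ δ Λ L st z = run G θ δ Λ L st z' := by
  induction L generalizing st with
  | nil => rfl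
  | cons c L ih =>
    rw [run_cons, run_cons, h c (List.mem_cons_self ..)]
    exact ih (fun c' hc' => h c' (List.mem_cons_of_mem _ hc')) _

lemma tau_dep (K : ℝ) (Λ : Finset V) (L : List (V × ℕ)) (v : V) :
    ∀ y y', (∀ c ∈ L, y c = y' c) → tau G θ δ K Λ L v y = tau G θ δ K Λ L v y' := by
  intro y y' h
  unfold tau stat
  rw [run_congr Λ h]

/-- Integrating out `O` removes the dependence on `O`. -/
lemma Pl_dep_sdiff {I : Type*} [DecidableEq I] {F : (I → ℝ) → ℝ} {L : List I}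
    (hF : ∀ y y', (∀ c ∈ L, y c = y' c) → F y = F y') (O : List I) :
    ∀ y y', (∀ c ∈ L, c ∉ O → y c = y' c) → Pl O F y = Pl O F y' := by
  induction O with
  | nil => exact fun y y' h => hF y y' (fun c hc => h c hc (by simp))
  | cons b O ih =>
    intro y y' h
    simp only [Pl, Pc]
    refine intervalIntegral.integral_congr (fun t _ => ?_)
    refine ih _ _ (fun c hc hcO => ?_)
    by_cases hcb : c = b
    · subst hcb
      simp only [Function.update_self]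
    · rw [Function.update_of_ne hcb, Function.update_of_ne hcb]
      refine h c hc ?_
      rw [List.mem_cons, not_or]
      exact ⟨hcb, hcO⟩

lemma list_cs {I : Type*} {W : List I} (hW : W.Nodup) (f g : I → ℝ) :
    ((W.map (fun c => f c * g c)).sum) ^ 2
      ≤ (W.map (fun c => f c ^ 2)).sum * (W.map (fun c => g c ^ 2)).sum := by
  classical
  rw [← List.sum_toFinset _ hW, ← List.sum_toFinset _ hW, ← List.sum_toFinset _ hW]
  exact Finset.sum_mul_sq_le_sq_mul_sq _ _ _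

/-- The statistic of the big volume is the statistic of the small volume on the innovations. -/
lemma stat_innov (hδ0 : 0 ≤ δ) (hδ1 : δ ≤ 1 / 2) {Λ₁ Λ₂ : Finset V} {L : List (V × ℕ)}
    (hL : L.Nodup) {v : V} (hv : v ∈ Λ₁) (z : V × ℕ → ℝ) :
    stat G θ δ Λ₁ (L.filter (fun c => c.1 ∈ Λ₁)) v
        (innRec G θ δ Λ₁ (L.filter (fun c => c.1 ∈ Λ₁)) 0 (run G θ δ Λ₂ L (0, 0) z).2 0)
      = stat G θ δ Λ₂ L v z := by
  set L₁ := L.filter (fun c => c.1 ∈ Λ₁) with hL₁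
  have hL₁nd : L₁.Nodup := hL.filter _
  set Y := (run G θ δ Λ₂ L (0, 0) z).2 with hY
  have hYmem : ∀ c, 0 ≤ Y c ∧ Y c ≤ 1 := by
    intro c
    exact run_mem_obs G θ δ Λ₂ L (0 : V × ℕ → ℝ) (fun _ => ⟨le_refl _, zero_le_one⟩) 0 z c
  unfold stat
  rw [run_fst G θ δ Λ₁ hL₁nd (0, 0) _, run_fst G θ δ Λ₂ hL (0, 0) z]
  have h1 : fieldsFrom δ (0 : V → ℝ) L₁
      (run G θ δ Λ₁ L₁ (0, 0) (innRec G θ δ Λ₁ L₁ 0 Y 0)).2 = fieldsFrom δ 0 L₁ Y :=
    fieldsFrom_congr δ 0 (fun c hc =>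
      run_innRec G θ δ hδ0 hδ1 Λ₁ hL₁nd (0 : V → ℝ) (0 : V × ℕ → ℝ) (0 : V × ℕ → ℝ)
        (fun c' _ => hYmem c') hc)
  have h1' : (0 : V → ℝ) = ((0 : V → ℝ), (0 : V × ℕ → ℝ)).1 := rfl
  simp only
  rw [h1]
  exact fieldsFrom_filter δ Λ₁ (fun _ _ => rfl) L Y v hv

/-- The innovation differs from the noise by the difference of the two magnetisations. -/
lemma innov_bound (hδ0 : 0 ≤ δ) (hδ1 : δ ≤ 1 / 2) {Λ₁ Λ₂ : Finset V} {L : List (V × ℕ)}
    (hL : L.Nodup) {c : V × ℕ} (hc : c ∈ L) (hcΛ : c.1 ∈ Λ₁) (z : V × ℕ → ℝ) :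
    |proj (innRec G θ δ Λ₁ (L.filter (fun c => c.1 ∈ Λ₁)) 0 (run G θ δ Λ₂ L (0, 0) z).2 0 c)
        - proj (z c)|
      ≤ δ / 4 * |mag G θ Λ₁ (run G θ δ Λ₂ (pre L c) (0, 0) z).1 c.1
          - mag G θ Λ₂ (run G θ δ Λ₂ (pre L c) (0, 0) z).1 c.1| := by
  obtain ⟨B, hB⟩ := exists_pre hc
  set A := pre L c with hA
  have hnd : (A ++ c :: B).Nodup := hB ▸ hL
  have hAnd : A.Nodup := (List.nodup_append.mp hnd).1
  have hcB : c ∉ B := (List.nodup_cons.mp (List.nodup_append.mp hnd).2.1).1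
  set Y := (run G θ δ Λ₂ L (0, 0) z).2 with hY
  set f := (run G θ δ Λ₂ A (0, 0) z).1 with hf
  have hYc : Y c = Tq δ (mag G θ Λ₂ f c.1) (z c) := by
    rw [hY]
    conv_lhs => rw [hB]
    rw [run_append, run_cons, run_snd_of_not_mem G θ δ Λ₂ hcB]
    simp [stepS, hf]
  have hfY : f = fieldsFrom δ 0 A Y := by
    rw [hf, run_fst G θ δ Λ₂ hAnd (0, 0) z]
    refine fieldsFrom_congr δ _ (fun c' hc' => ?_)
    rw [hY]
    conv_rhs => rw [hB]
    exact (run_snd_append_of_mem G θ δ Λ₂ hnd (0, 0) z hc').symm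
  have hfilter : L.filter (fun c => c.1 ∈ Λ₁)
      = A.filter (fun c => c.1 ∈ Λ₁) ++ c :: B.filter (fun c => c.1 ∈ Λ₁) := by
    conv_lhs => rw [hB]
    rw [List.filter_append, List.filter_cons_of_pos (by simpa using hcΛ)]
  have hval : innRec G θ δ Λ₁ (L.filter (fun c => c.1 ∈ Λ₁)) 0 Y 0 c
      = Fq δ (mag G θ Λ₁ f c.1) (Y c) := by
    rw [hfilter, innRec_value G θ δ Λ₁ _ _ (fun h => hcB (List.mem_of_mem_filter h))]
    congr 1
    refine mag_congr (fun w hw => ?_) _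
    rw [hfY]
    exact fieldsFrom_filter δ Λ₁ (fun _ _ => rfl) A Y w hw
  have hz : proj (z c) = Fq δ (mag G θ Λ₂ f c.1) (Y c) := by
    rw [hYc, Fq_Tq]
  rw [hval, hz, proj_of_mem (Fq_mem hδ0 hδ1 _ _).1 (Fq_mem hδ0 hδ1 _ _).2]
  exact Fq_param hδ0 _ _ _

end general

section main

variable [Countable V]

/-- The second moment of the magnetisation at `c`, just before the observation at `c`. -/
def qq (G : SimpleGraph V) (θ δ : ℝ) (Λ : Finset V) (L : List (V × ℕ)) (c : V × ℕ) : ℝ :=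
  ∫ z, (mag G θ Λ (run G θ δ Λ (pre L c) (0, 0) z).1 c.1) ^ 2 ∂(PP (V × ℕ))

lemma qq_diff (hT : G.IsTree) (hθ : |θ| < 1) (hδ0 : 0 ≤ δ) (hδ1 : δ ≤ 1 / 2)
    {Λ₁ Λ₂ : Finset V} (h₁ : IsConvexSet G Λ₁) (h₂ : IsConvexSet G Λ₂) (hne : Λ₁.Nonempty)
    (hsub : Λ₁ ⊆ Λ₂) {L : List (V × ℕ)} (hL : L.Nodup) (hLΛ : ∀ c ∈ L, c.1 ∈ Λ₂)
    {c : V × ℕ} (hcΛ : c.1 ∈ Λ₁) :
    ∫ z, (mag G θ Λ₁ (run G θ δ Λ₂ (pre L c) (0, 0) z).1 c.1
          - mag G θ Λ₂ (run G θ δ Λ₂ (pre L c) (0, 0) z).1 c.1) ^ 2 ∂(PP (V × ℕ))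
      = qq G θ δ Λ₂ L c - qq G θ δ Λ₁ (L.filter (fun c => c.1 ∈ Λ₁)) c := by
  have hsl : (pre L c).Sublist L := List.takeWhile_sublist _
  have := pythagoras (G := G) (δ := δ) hT hθ hδ0 hδ1 h₁ h₂ hne hsub (A := pre L c) (hsl.nodup hL)
    (fun c' hc' => hLΛ c' (hsl.subset hc')) hcΛ
  rw [this]
  unfold qq
  rw [pre_filter L (fun c => decide (c.1 ∈ Λ₁)) (by simpa using hcΛ)]

/-- The overlap grows with the volume. -/
lemma qq_mono (hT : G.IsTree) (hθ : |θ| < 1) (hδ0 : 0 ≤ δ) (hδ1 : δ ≤ 1 / 2)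
    {Λ₁ Λ₂ : Finset V} (h₁ : IsConvexSet G Λ₁) (h₂ : IsConvexSet G Λ₂) (hne : Λ₁.Nonempty)
    (hsub : Λ₁ ⊆ Λ₂) {L : List (V × ℕ)} (hL : L.Nodup) (hLΛ : ∀ c ∈ L, c.1 ∈ Λ₂)
    {c : V × ℕ} (hcΛ : c.1 ∈ Λ₁) :
    qq G θ δ Λ₁ (L.filter (fun c => c.1 ∈ Λ₁)) c ≤ qq G θ δ Λ₂ L c := by
  have := qq_diff (G := G) (δ := δ) hT hθ hδ0 hδ1 h₁ h₂ hne hsub hL hLΛ hcΛ
  have h0 : 0 ≤ ∫ z, (mag G θ Λ₁ (run G θ δ Λ₂ (pre L c) (0, 0) z).1 c.1
      - mag G θ Λ₂ (run G θ δ Λ₂ (pre L c) (0, 0) z).1 c.1) ^ 2 ∂(PP (V × ℕ)) :=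
    integral_nonneg (fun z => sq_nonneg _)
  linarith

lemma qq_le_one (hθ : |θ| < 1) (Λ : Finset V) (L : List (V × ℕ)) (c : V × ℕ) :
    qq G θ δ Λ L c ≤ 1 := by
  unfold qq
  have hle : ∫ z, (mag G θ Λ (run G θ δ Λ (pre L c) (0, 0) z).1 c.1) ^ 2 ∂(PP (V × ℕ))
      ≤ ∫ _z : V × ℕ → ℝ, (1 : ℝ) ∂(PP (V × ℕ)) := by
    refine integral_mono_of_nonneg (Filter.Eventually.of_forall (fun z => sq_nonneg _))
      (integrable_const _) (Filter.Eventually.of_forall (fun z => ?_))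
    have := abs_mag_le (G := G) hθ Λ (run G θ δ Λ (pre L c) (0, 0) z).1 c.1
    simpa using (sq_le_one_iff_abs_le_one _).mpr this
  simpa using hle

/-- The main Cauchy estimate, for a fixed order of the sites. -/
theorem cauchy_general (hT : G.IsTree) (hθ : |θ| < 1) (hδ0 : 0 ≤ δ) (hδ1 : δ ≤ 1 / 2) (K : ℝ)
    {Λ₁ Λ₂ : Finset V} (h₁ : IsConvexSet G Λ₁) (h₂ : IsConvexSet G Λ₂) (hne : Λ₁.Nonempty)
    (hsub : Λ₁ ⊆ Λ₂) {L : List (V × ℕ)} (hL : L.Nodup) (hLΛ : ∀ c ∈ L, c.1 ∈ Λ₂)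
    {v : V} (hv : v ∈ Λ₁) (b : V × ℕ → ℝ) (hb : ∀ c, 0 ≤ b c)
    (hosc : ∀ c ∈ L.filter (fun c => c.1 ∈ Λ₁), ∀ ω t t',
      |tau G θ δ K Λ₁ (L.filter (fun c => c.1 ∈ Λ₁)) v (Function.update ω c t)
        - tau G θ δ K Λ₁ (L.filter (fun c => c.1 ∈ Λ₁)) v (Function.update ω c t')|
      ≤ b c * |proj t - proj t'|)
    (p : V × ℕ → Bool) :
    ∫ z, (tau G θ δ K Λ₂ L v z - tau G θ δ K Λ₁ (L.filter (fun c => c.1 ∈ Λ₁)) v z) ^ 2
        ∂(PP (V × ℕ))
      ≤ 6 * (((L.filter (fun c => c.1 ∈ Λ₁)).filter p).map (fun c => b c ^ 2)).sum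
        + 3 * (((L.filter (fun c => c.1 ∈ Λ₁)).filter (fun c => !p c)).map (fun c => b c ^ 2)).sum
          * (δ / 4) ^ 2
          * (((L.filter (fun c => c.1 ∈ Λ₁)).filter (fun c => !p c)).map
              (fun c => qq G θ δ Λ₂ L c - qq G θ δ Λ₁ (L.filter (fun c => c.1 ∈ Λ₁)) c)).sum := by
  set L₁ := L.filter (fun c => c.1 ∈ Λ₁) with hL₁
  have hL₁nd : L₁.Nodup := hL.filter _
  have hL₁mem : ∀ c ∈ L₁, c ∈ L ∧ c.1 ∈ Λ₁ := by
    intro c hc
    have := List.mem_filter.mp hc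
    exact ⟨this.1, by simpa using this.2⟩
  set O := L₁.filter p with hO
  set W := L₁.filter (fun c => !p c) with hW
  have hOnd : O.Nodup := hL₁nd.filter _
  have hWnd : W.Nodup := hL₁nd.filter _
  have hOW : ∀ c ∈ W, c ∉ O := by
    intro c hc hc'
    have h1 := (List.mem_filter.mp hc).2
    have h2 := (List.mem_filter.mp hc').2
    simp [h2] at h1
  have hLsplit : ∀ c ∈ L₁, c ∉ O → c ∈ W := by
    intro c hc hc'
    refine List.mem_filter.mpr ⟨hc, ?_⟩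
    by_cases h : p c = true
    · exact absurd (List.mem_filter.mpr ⟨hc, h⟩) hc'
    · simpa using h
  let F : (V × ℕ → ℝ) → ℝ := tau G θ δ K Λ₁ L₁ v
  have hFc : Continuous F := continuous_tau hθ hδ0 hδ1 K Λ₁ L₁ v
  have hFb : ∀ y, |F y| ≤ 1 := abs_tau_le K Λ₁ L₁ v
  have hFdep : ∀ y y', (∀ c ∈ L₁, y c = y' c) → F y = F y' := tau_dep K Λ₁ L₁ v
  let φ : (V × ℕ → ℝ) → ℝ := Pl O F
  have hφc : Continuous φ := continuous_Pl O hFc
  have hφb : ∀ y, |φ y| ≤ 1 := fun y => Pl_abs_le O hFb y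
  have hφdep : ∀ y y', (∀ c ∈ W, y c = y' c) → φ y = φ y' := fun y y' h =>
    Pl_dep_sdiff hFdep O y y' (fun c hc hcO => h c (hLsplit c hc hcO))
  have hφdep₁ : ∀ y y', (∀ c ∈ L₁, y c = y' c) → φ y = φ y' := fun y y' h =>
    Pl_dep_sdiff hFdep O y y' (fun c hc _ => h c hc)
  have hφosc : ∀ c ∈ W, ∀ ω t t', |φ (Function.update ω c t) - φ (Function.update ω c t')|
      ≤ b c * |max 0 (min t 1) - max 0 (min t' 1)| := by
    intro c hc ω t t'
    have hcL₁ : c ∈ L₁ := (List.mem_filter.mp hc).1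
    exact Pl_osc2 hFc O (hOW c hc) t t' (fun ω' => hosc c hcL₁ ω' t t') ω
  -- Efron-Stein
  have hES : ∫ ω, (F ω - φ ω) ^ 2 ∂(PP (V × ℕ)) ≤ (O.map (fun c => b c ^ 2)).sum := by
    refine efron_stein O hOnd hFc hFb b (fun c hc ω t => ?_)
    have hcL₁ : c ∈ L₁ := (List.mem_filter.mp hc).1
    have h1 := hosc c hcL₁ ω (ω c) t
    rw [Function.update_eq_self] at h1
    refine h1.trans ?_
    have hp := proj_mem (ω c)
    have hp' := proj_mem t
    have : |proj (ω c) - proj t| ≤ 1 := abs_le.mpr ⟨by linarith [hp.1, hp'.2], by linarith [hp.2, hp'.1]⟩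
    calc b c * |proj (ω c) - proj t| ≤ b c * 1 := mul_le_mul_of_nonneg_left this (hb c)
      _ = b c := mul_one _
  -- the innovations
  let ζ : (V × ℕ → ℝ) → (V × ℕ → ℝ) := fun z =>
    innRec G θ δ Λ₁ L₁ 0 (run G θ δ Λ₂ L (0, 0) z).2 0
  have hζc : Continuous ζ := by
    have h1 := continuous_innRec (G := G) hθ hδ0 hδ1 Λ₁ L₁
    have h2 : Continuous (fun z => (run G θ δ Λ₂ L (0, 0) z).2) :=
      continuous_snd.comp ((continuous_run hθ hδ0 hδ1 Λ₂ L).comp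
        (continuous_const.prodMk continuous_id))
    exact h1.comp (continuous_const.prodMk (h2.prodMk continuous_const))
  have hstat : ∀ z, tau G θ δ K Λ₂ L v z = F (ζ z) := by
    intro z
    simp only [F, ζ]
    unfold tau
    rw [stat_innov hδ0 hδ1 hL hv]
  -- the law of the innovations
  have hsq : ∀ y, |(F y - φ y) ^ 2| ≤ 4 := by
    intro y
    rw [abs_pow]
    have : |F y - φ y| ≤ 2 := by
      have := abs_sub (F y) (φ y)
      linarith [hFb y, hφb y]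
    nlinarith [abs_nonneg (F y - φ y)]
  have hlaw := innov_law (G := G) (δ := δ) hT hθ hδ0 hδ1 h₁ h₂ hne hsub hL hLΛ
    (Ξ := fun y => (F y - φ y) ^ 2) ((hFc.sub hφc).pow 2) hsq
    (fun y y' h => by rw [hFdep y y' h, hφdep₁ y y' h])
  rw [← hL₁] at hlaw
  -- the magnetisations
  let m₁ : V × ℕ → (V × ℕ → ℝ) → ℝ := fun c z => mag G θ Λ₁ (run G θ δ Λ₂ (pre L c) (0, 0) z).1 c.1
  let m₂ : V × ℕ → (V × ℕ → ℝ) → ℝ := fun c z => mag G θ Λ₂ (run G θ δ Λ₂ (pre L c) (0, 0) z).1 c.1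
  have hmc : ∀ (Λ : Finset V) (c : V × ℕ),
      Continuous (fun z => mag G θ Λ (run G θ δ Λ₂ (pre L c) (0, 0) z).1 c.1) := fun Λ c =>
    (continuous_mag hθ Λ c.1).comp (continuous_fst.comp ((continuous_run hθ hδ0 hδ1 Λ₂ _).comp
      (continuous_const.prodMk continuous_id)))
  -- the pointwise estimate
  have hpt : ∀ z, (φ (ζ z) - φ z) ^ 2 ≤ (W.map (fun c => b c ^ 2)).sum * (δ / 4) ^ 2
      * (W.map (fun c => (m₁ c z - m₂ c z) ^ 2)).sum := by
    intro z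
    have h1 := abs_sub_le_of_osc W hφdep b hφosc (ζ z) z
    have h2 : (W.map (fun c => b c * |max 0 (min (ζ z c) 1) - max 0 (min (z c) 1)|)).sum
        ≤ (W.map (fun c => b c * (δ / 4 * |m₁ c z - m₂ c z|))).sum := by
      refine List.sum_le_sum (fun c hc => ?_)
      have hcL₁ := hL₁mem c (List.mem_filter.mp hc).1
      exact mul_le_mul_of_nonneg_left (innov_bound hδ0 hδ1 hL hcL₁.1 hcL₁.2 z) (hb c)
    have h3 := list_cs hWnd b (fun c => δ / 4 * |m₁ c z - m₂ c z|)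
    have h4 : (W.map (fun c => (δ / 4 * |m₁ c z - m₂ c z|) ^ 2)).sum
        = (δ / 4) ^ 2 * (W.map (fun c => (m₁ c z - m₂ c z) ^ 2)).sum := by
      rw [← List.sum_map_mul_left]
      congr 1
      refine List.map_congr_left (fun c _ => ?_)
      rw [mul_pow, sq_abs]
    rw [h4] at h3
    have h5 : |φ (ζ z) - φ z| ≤ (W.map (fun c => b c * (δ / 4 * |m₁ c z - m₂ c z|))).sum :=
      h1.trans h2
    have h6 := sq_le_sq' (by linarith [neg_abs_le (φ (ζ z) - φ z), abs_nonneg (φ (ζ z) - φ z)]) h5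
    rw [sq_abs] at h6
    refine h6.trans (h3.trans (le_of_eq ?_))
    ring
  have hWsum : ∫ z, (W.map (fun c => (m₁ c z - m₂ c z) ^ 2)).sum ∂(PP (V × ℕ))
      = (W.map (fun c => qq G θ δ Λ₂ L c - qq G θ δ Λ₁ L₁ c)).sum := by
    simp only [← List.sum_toFinset _ hWnd]
    rw [integral_finsetSum]
    · refine Finset.sum_congr rfl (fun c hc => ?_)
      have hcL₁ := hL₁mem c (List.mem_filter.mp (List.mem_toFinset.mp hc)).1
      exact qq_diff (G := G) (δ := δ) hT hθ hδ0 hδ1 h₁ h₂ hne hsub hL hLΛ hcL₁.2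
    · intro c _
      refine integrable_of_bdd (((hmc Λ₁ c).sub (hmc Λ₂ c)).pow 2) (M := 4) (fun z => ?_)
      rw [abs_pow]
      have h1 := abs_mag_le (G := G) hθ Λ₁ (run G θ δ Λ₂ (pre L c) (0, 0) z).1 c.1
      have h2 := abs_mag_le (G := G) hθ Λ₂ (run G θ δ Λ₂ (pre L c) (0, 0) z).1 c.1
      have : |m₁ c z - m₂ c z| ≤ 2 := by
        have := abs_sub (m₁ c z) (m₂ c z)
        simp only [m₁, m₂] at this ⊢
        linarith
      nlinarith [abs_nonneg (m₁ c z - m₂ c z)]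
  -- assembling
  have hb1 : Continuous (fun z => (F (ζ z) - φ (ζ z)) ^ 2) :=
    ((hFc.comp hζc).sub (hφc.comp hζc)).pow 2
  have hb2 : Continuous (fun z => (φ (ζ z) - φ z) ^ 2) := ((hφc.comp hζc).sub hφc).pow 2
  have hb3 : Continuous (fun z => (F z - φ z) ^ 2) := (hFc.sub hφc).pow 2
  have i1 : Integrable (fun z => (F (ζ z) - φ (ζ z)) ^ 2) (PP (V × ℕ)) :=
    integrable_of_bdd hb1 (fun z => hsq (ζ z))
  have i2 : Integrable (fun z => (φ (ζ z) - φ z) ^ 2) (PP (V × ℕ)) := by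
    refine integrable_of_bdd hb2 (M := 4) (fun z => ?_)
    rw [abs_pow]
    have : |φ (ζ z) - φ z| ≤ 2 := by
      have := abs_sub (φ (ζ z)) (φ z)
      linarith [hφb (ζ z), hφb z]
    nlinarith [abs_nonneg (φ (ζ z) - φ z)]
  have i3 : Integrable (fun z => (F z - φ z) ^ 2) (PP (V × ℕ)) := integrable_of_bdd hb3 hsq
  have hbound : ∀ z, (tau G θ δ K Λ₂ L v z - F z) ^ 2
      ≤ 3 * (F (ζ z) - φ (ζ z)) ^ 2 + 3 * (φ (ζ z) - φ z) ^ 2 + 3 * (F z - φ z) ^ 2 := by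
    intro z
    rw [hstat z]
    nlinarith [sq_nonneg ((F (ζ z) - φ (ζ z)) - (φ (ζ z) - φ z)),
      sq_nonneg ((φ (ζ z) - φ z) + (F z - φ z)), sq_nonneg ((F (ζ z) - φ (ζ z)) + (F z - φ z))]
  have hWint : ∫ z, (φ (ζ z) - φ z) ^ 2 ∂(PP (V × ℕ))
      ≤ (W.map (fun c => b c ^ 2)).sum * (δ / 4) ^ 2
        * (W.map (fun c => qq G θ δ Λ₂ L c - qq G θ δ Λ₁ L₁ c)).sum := by
    rw [← hWsum, ← integral_const_mul]
    refine integral_mono_of_nonneg (Filter.Eventually.of_forall (fun z => sq_nonneg _)) ?_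
      (Filter.Eventually.of_forall hpt)
    refine Integrable.const_mul ?_ _
    simp only [← List.sum_toFinset _ hWnd]
    refine integrable_finsetSum _ (fun c _ => ?_)
    refine integrable_of_bdd (((hmc Λ₁ c).sub (hmc Λ₂ c)).pow 2) (M := 4) (fun z => ?_)
    rw [abs_pow]
    have h1 := abs_mag_le (G := G) hθ Λ₁ (run G θ δ Λ₂ (pre L c) (0, 0) z).1 c.1
    have h2 := abs_mag_le (G := G) hθ Λ₂ (run G θ δ Λ₂ (pre L c) (0, 0) z).1 c.1
    have : |m₁ c z - m₂ c z| ≤ 2 := by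
      have := abs_sub (m₁ c z) (m₂ c z)
      simp only [m₁, m₂] at this ⊢
      linarith
    nlinarith [abs_nonneg (m₁ c z - m₂ c z)]
  calc ∫ z, (tau G θ δ K Λ₂ L v z - F z) ^ 2 ∂(PP (V × ℕ))
      ≤ ∫ z, (3 * (F (ζ z) - φ (ζ z)) ^ 2 + 3 * (φ (ζ z) - φ z) ^ 2 + 3 * (F z - φ z) ^ 2)
          ∂(PP (V × ℕ)) := by
        refine integral_mono_of_nonneg (Filter.Eventually.of_forall (fun z => sq_nonneg _)) ?_
          (Filter.Eventually.of_forall hbound)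
        exact ((i1.const_mul 3).add (i2.const_mul 3)).add (i3.const_mul 3)
    _ = 3 * ∫ z, (F (ζ z) - φ (ζ z)) ^ 2 ∂(PP (V × ℕ))
        + 3 * ∫ z, (φ (ζ z) - φ z) ^ 2 ∂(PP (V × ℕ))
        + 3 * ∫ z, (F z - φ z) ^ 2 ∂(PP (V × ℕ)) := by
        have i4 : Integrable (fun z => 3 * (F (ζ z) - φ (ζ z)) ^ 2 + 3 * (φ (ζ z) - φ z) ^ 2)
            (PP (V × ℕ)) := (i1.const_mul 3).add (i2.const_mul 3)
        rw [integral_add i4 (i3.const_mul 3), integral_add (i1.const_mul 3) (i2.const_mul 3),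
          integral_const_mul, integral_const_mul, integral_const_mul]
    _ ≤ _ := by
        rw [hlaw]
        have hnnO := hES
        have e : (6 : ℝ) * (O.map (fun c => b c ^ 2)).sum
            + 3 * (W.map (fun c => b c ^ 2)).sum * (δ / 4) ^ 2
              * (W.map (fun c => qq G θ δ Λ₂ L c - qq G θ δ Λ₁ L₁ c)).sum
            = 3 * (O.map (fun c => b c ^ 2)).sum
              + 3 * ((W.map (fun c => b c ^ 2)).sum * (δ / 4) ^ 2
                * (W.map (fun c => qq G θ δ Λ₂ L c - qq G θ δ Λ₁ L₁ c)).sum)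
              + 3 * (O.map (fun c => b c ^ 2)).sum := by ring
        rw [e]
        linarith

end main

end Vale.Agent.P161
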