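import Mathlib

set_option autoImplicit false

noncomputable section
open MeasureTheory Set

namespace Vale.Agent.P161

/-- Clipping to `[-1,1]`. -/
def clip (m : ℝ) : ℝ := max (-1) (min m 1)

/-- Projection to `[0,1]`. -/
def proj (t : ℝ) : ℝ := max 0 (min t 1)

lemma clip_mem (m : ℝ) : -1 ≤ clip m ∧ clip m ≤ 1 := by
  unfold clip
  constructor
  · exact le_max_left _ _
  · exact max_le (by norm_num) (min_le_right _ _)

lemma abs_clip_le (m : ℝ) : |clip m| ≤ 1 := abs_le.mpr (clip_mem m)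

lemma clip_of_abs_le {m : ℝ} (h : |m| ≤ 1) : clip m = m := by
  have := abs_le.mp h
  unfold clip
  rw [min_eq_left this.2, max_eq_right this.1]

lemma proj_mem (t : ℝ) : 0 ≤ proj t ∧ proj t ≤ 1 := by
  unfold proj
  constructor
  · exact le_max_left _ _
  · exact max_le (by norm_num) (min_le_right _ _)

lemma proj_of_mem {t : ℝ} (h0 : 0 ≤ t) (h1 : t ≤ 1) : proj t = t := by
  unfold proj
  rw [min_eq_left h1, max_eq_right h0]

lemma abs_clip_sub_le (a b : ℝ) : |clip a - clip b| ≤ |a - b| := by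
  unfold clip
  rw [max_comm (-1 : ℝ) (min a 1), max_comm (-1 : ℝ) (min b 1)]
  refine (abs_max_sub_max_le_abs _ _ _).trans ?_
  refine (abs_min_sub_min_le_max a 1 b 1).trans ?_
  simp

lemma abs_proj_sub_le (a b : ℝ) : |proj a - proj b| ≤ |a - b| := by
  unfold proj
  rw [max_comm (0 : ℝ) (min a 1), max_comm (0 : ℝ) (min b 1)]
  refine (abs_max_sub_max_le_abs _ _ _).trans ?_
  refine (abs_min_sub_min_le_max a 1 b 1).trans ?_
  simp

lemma continuous_clip : Continuous clip := by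
  unfold clip; fun_prop

lemma continuous_proj : Continuous proj := by
  unfold proj; fun_prop

lemma proj_one_sub (t : ℝ) : proj (1 - t) = 1 - proj t := by
  unfold proj
  rcases le_total t 0 with h | h
  · rw [min_eq_right (by linarith : (1 : ℝ) ≤ 1 - t), max_eq_right (by norm_num : (0 : ℝ) ≤ 1),
      min_eq_left (by linarith : t ≤ 1), max_eq_left h]
    norm_num
  · rcases le_total t 1 with h' | h'
    · rw [min_eq_left (by linarith : 1 - t ≤ 1), max_eq_right (by linarith : 0 ≤ 1 - t),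
        min_eq_left h', max_eq_right h]
    · rw [min_eq_left (by linarith : 1 - t ≤ 1), max_eq_left (by linarith : 1 - t ≤ 0),
        min_eq_right h', max_eq_right (by norm_num : (0 : ℝ) ≤ 1)]
      norm_num

/-- The distribution function of the channel output with mean parameter `m`. -/
def F₀ (δ m y : ℝ) : ℝ := y + δ * m * (y ^ 2 - y)

section channel

variable {δ : ℝ}

lemma F₀_zero (m : ℝ) : F₀ δ m 0 = 0 := by simp [F₀]

lemma F₀_one (m : ℝ) : F₀ δ m 1 = 1 := by simp [F₀]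

lemma continuous_F₀ (m : ℝ) : Continuous (F₀ δ m) := by
  unfold F₀; fun_prop

lemma hasDerivAt_F₀ (m y : ℝ) : HasDerivAt (F₀ δ m) (1 + δ * m * (2 * y - 1)) y := by
  unfold F₀
  have h1 : HasDerivAt (fun y : ℝ => y ^ 2 - y) (2 * y - 1) y := by
    have := (hasDerivAt_pow 2 y).fun_sub (hasDerivAt_id' y)
    simpa using this
  exact (hasDerivAt_id' y).fun_add (h1.const_mul (δ * m))

/-- `δ * m` is small. -/
lemma abs_dm_le (h0 : 0 ≤ δ) {m : ℝ} (hm : |m| ≤ 1) : |δ * m| ≤ δ := by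
  rw [abs_mul, abs_of_nonneg h0]
  exact mul_le_of_le_one_right h0 hm

lemma F₀_sub (m y y' : ℝ) : F₀ δ m y - F₀ δ m y' = (y - y') * (1 + δ * m * (y + y' - 1)) := by
  unfold F₀; ring

/-- The slope of `F₀` on the unit interval is at least `1 - δ`. -/
lemma slope_ge (h0 : 0 ≤ δ) {m y y' : ℝ} (hm : |m| ≤ 1) (hy : 0 ≤ y ∧ y ≤ 1) (hy' : 0 ≤ y' ∧ y' ≤ 1) :
    1 - δ ≤ 1 + δ * m * (y + y' - 1) := by
  have h1 : |y + y' - 1| ≤ 1 := abs_le.mpr ⟨by linarith [hy.1, hy'.1], by linarith [hy.2, hy'.2]⟩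
  have h2 : |δ * m * (y + y' - 1)| ≤ δ := by
    rw [abs_mul]
    calc |δ * m| * |y + y' - 1| ≤ δ * 1 := mul_le_mul (abs_dm_le h0 hm) h1 (abs_nonneg _) h0
      _ = δ := mul_one δ
  have := (abs_le.mp h2).1
  linarith

lemma F₀_inj_bound (h0 : 0 ≤ δ) {m y y' : ℝ} (hm : |m| ≤ 1) (hy : 0 ≤ y ∧ y ≤ 1)
    (hy' : 0 ≤ y' ∧ y' ≤ 1) : (1 - δ) * |y - y'| ≤ |F₀ δ m y - F₀ δ m y'| := by
  have h1 := slope_ge h0 hm hy hy'
  rw [F₀_sub, abs_mul, mul_comm]
  refine mul_le_mul_of_nonneg_left ?_ (abs_nonneg _)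
  exact h1.trans (le_abs_self _)

lemma F₀_param (m m' y : ℝ) (hy : 0 ≤ y ∧ y ≤ 1) (h0 : 0 ≤ δ) :
    |F₀ δ m y - F₀ δ m' y| ≤ δ / 4 * |m - m'| := by
  have e : F₀ δ m y - F₀ δ m' y = δ * (m - m') * (y ^ 2 - y) := by unfold F₀; ring
  have h1 : |y ^ 2 - y| ≤ 1 / 4 := by
    rw [abs_le]
    constructor
    · nlinarith [sq_nonneg (y - 1 / 2)]
    · nlinarith [hy.1, hy.2]
  rw [e, abs_mul, abs_mul, abs_of_nonneg h0]
  calc δ * |m - m'| * |y ^ 2 - y| ≤ δ * |m - m'| * (1 / 4) :=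
        mul_le_mul_of_nonneg_left h1 (by positivity)
    _ = δ / 4 * |m - m'| := by ring

lemma exists_quantile (m t : ℝ) (ht : 0 ≤ t ∧ t ≤ 1) : ∃ y, (0 ≤ y ∧ y ≤ 1) ∧ F₀ δ m y = t := by
  have h := intermediate_value_Icc (zero_le_one (α := ℝ)) (continuous_F₀ (δ := δ) m).continuousOn
  rw [F₀_zero, F₀_one] at h
  obtain ⟨y, hy, he⟩ := h (mem_Icc.mpr ht)
  exact ⟨y, mem_Icc.mp hy, he⟩

/-- Quantile function of the channel output. -/
def Tq (δ m t : ℝ) : ℝ := Classical.epsilon (fun y => (0 ≤ y ∧ y ≤ 1) ∧ F₀ δ (clip m) y = proj t)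

lemma Tq_spec (m t : ℝ) : (0 ≤ Tq δ m t ∧ Tq δ m t ≤ 1) ∧ F₀ δ (clip m) (Tq δ m t) = proj t :=
  Classical.epsilon_spec (p := fun y => (0 ≤ y ∧ y ≤ 1) ∧ F₀ δ (clip m) y = proj t)
    (exists_quantile _ _ (proj_mem t))

lemma Tq_mem (m t : ℝ) : 0 ≤ Tq δ m t ∧ Tq δ m t ≤ 1 := (Tq_spec m t).1

/-- The distribution function, made total by clipping. -/
def Fq (δ m y : ℝ) : ℝ := F₀ δ (clip m) (proj y)

lemma Fq_Tq (m t : ℝ) : Fq δ m (Tq δ m t) = proj t := by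
  unfold Fq
  rw [proj_of_mem (Tq_mem m t).1 (Tq_mem m t).2]
  exact (Tq_spec m t).2

lemma Fq_mem (h0 : 0 ≤ δ) (h1 : δ ≤ 1 / 2) (m y : ℝ) : 0 ≤ Fq δ m y ∧ Fq δ m y ≤ 1 := by
  have hm := abs_clip_le m
  have hy := proj_mem y
  unfold Fq
  have e0 := slope_ge h0 hm hy (show (0:ℝ) ≤ 0 ∧ (0:ℝ) ≤ 1 by norm_num)
  have e1 := slope_ge h0 hm hy (show (0:ℝ) ≤ 1 ∧ (1:ℝ) ≤ 1 by norm_num)
  have f0 := F₀_sub (δ := δ) (clip m) (proj y) 0
  have f1 := F₀_sub (δ := δ) (clip m) (proj y) 1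
  rw [F₀_zero] at f0
  rw [F₀_one] at f1
  constructor
  · rw [sub_zero] at f0
    rw [f0]
    refine mul_nonneg (by linarith [hy.1]) (by linarith)
  · have : F₀ δ (clip m) (proj y) - 1 ≤ 0 := by
      rw [f1]
      refine mul_nonpos_of_nonpos_of_nonneg (by linarith [hy.2]) (by linarith)
    linarith

lemma Tq_unique (h0 : 0 ≤ δ) (h1 : δ ≤ 1 / 2) {m y y' : ℝ} (hm : |m| ≤ 1) (hy : 0 ≤ y ∧ y ≤ 1)
    (hy' : 0 ≤ y' ∧ y' ≤ 1) (e : F₀ δ m y = F₀ δ m y') : y = y' := by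
  have h := F₀_inj_bound h0 hm hy hy'
  rw [e, sub_self, abs_zero] at h
  have hd : 0 < 1 - δ := by linarith
  have : |y - y'| ≤ 0 := by
    by_contra hc
    push Not at hc
    have := mul_pos hd hc
    linarith
  have := abs_nonpos_iff.mp this
  linarith

lemma Tq_Fq (h0 : 0 ≤ δ) (h1 : δ ≤ 1 / 2) (m : ℝ) {y : ℝ} (hy : 0 ≤ y ∧ y ≤ 1) :
    Tq δ m (Fq δ m y) = y := by
  have hs := Tq_spec (δ := δ) m (Fq δ m y)
  rw [proj_of_mem (Fq_mem h0 h1 m y).1 (Fq_mem h0 h1 m y).2] at hs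
  have e : Fq δ m y = F₀ δ (clip m) y := by unfold Fq; rw [proj_of_mem hy.1 hy.2]
  exact Tq_unique h0 h1 (abs_clip_le m) hs.1 hy (hs.2.trans e)

lemma Fq_param (h0 : 0 ≤ δ) (m m' y : ℝ) : |Fq δ m y - Fq δ m' y| ≤ δ / 4 * |m - m'| := by
  unfold Fq
  refine (F₀_param _ _ _ (proj_mem y) h0).trans ?_
  exact mul_le_mul_of_nonneg_left (abs_clip_sub_le _ _) (by positivity)

lemma Tq_lip (h0 : 0 ≤ δ) (h1 : δ ≤ 1 / 2) (m m' t t' : ℝ) :
    |Tq δ m t - Tq δ m' t'| ≤ 2 * |proj t - proj t'| + δ / 2 * |m - m'| := by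
  have hy := Tq_mem (δ := δ) m t
  have hy' := Tq_mem (δ := δ) m' t'
  have hb := F₀_inj_bound h0 (abs_clip_le m) hy hy'
  have e1 : F₀ δ (clip m) (Tq δ m t) = proj t := (Tq_spec m t).2
  have e2 : F₀ δ (clip m') (Tq δ m' t') = proj t' := (Tq_spec m' t').2
  have hp := F₀_param (δ := δ) (clip m) (clip m') (Tq δ m' t') hy' h0
  rw [e2] at hp
  have htri : |F₀ δ (clip m) (Tq δ m t) - F₀ δ (clip m) (Tq δ m' t')|
      ≤ |proj t - proj t'| + δ / 4 * |clip m - clip m'| := by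
    rw [e1]
    calc |proj t - F₀ δ (clip m) (Tq δ m' t')|
        = |(proj t - proj t') - (F₀ δ (clip m) (Tq δ m' t') - proj t')| := by ring_nf
      _ ≤ |proj t - proj t'| + |F₀ δ (clip m) (Tq δ m' t') - proj t'| := abs_sub _ _
      _ ≤ _ := by linarith
  have hcl : δ / 4 * |clip m - clip m'| ≤ δ / 4 * |m - m'| :=
    mul_le_mul_of_nonneg_left (abs_clip_sub_le _ _) (by positivity)
  have hhalf : (1 / 2 : ℝ) * |Tq δ m t - Tq δ m' t'| ≤ (1 - δ) * |Tq δ m t - Tq δ m' t'| :=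
    mul_le_mul_of_nonneg_right (by linarith) (abs_nonneg _)
  have : (1 / 2 : ℝ) * |Tq δ m t - Tq δ m' t'| ≤ |proj t - proj t'| + δ / 4 * |m - m'| := by
    linarith
  linarith

lemma continuous_Tq (h0 : 0 ≤ δ) (h1 : δ ≤ 1 / 2) : Continuous (fun p : ℝ × ℝ => Tq δ p.1 p.2) := by
  have hb : ∀ p q : ℝ × ℝ, |Tq δ p.1 p.2 - Tq δ q.1 q.2| ≤ 2 * |p.2 - q.2| + δ / 2 * |p.1 - q.1| := by
    intro p q
    have := Tq_lip h0 h1 p.1 q.1 p.2 q.2
    have h2 := abs_proj_sub_le p.2 q.2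
    linarith
  rw [continuous_iff_continuousAt]
  intro q
  rw [ContinuousAt, tendsto_iff_dist_tendsto_zero]
  have hlim : Filter.Tendsto (fun p : ℝ × ℝ => 2 * |p.2 - q.2| + δ / 2 * |p.1 - q.1|) (nhds q) (nhds 0) := by
    have : Continuous (fun p : ℝ × ℝ => 2 * |p.2 - q.2| + δ / 2 * |p.1 - q.1|) := by fun_prop
    have := this.tendsto q
    simpa using this
  refine squeeze_zero (fun _ => dist_nonneg) (fun p => ?_) hlim
  rw [Real.dist_eq]
  exact hb p q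

/-- The centred score. -/
def gg (y : ℝ) : ℝ := 2 * proj y - 1

lemma abs_gg_le (y : ℝ) : |gg y| ≤ 1 := by
  have := proj_mem y
  unfold gg
  rw [abs_le]
  constructor <;> linarith [this.1, this.2]

/-- The log-likelihood ratio of the channel. -/
def aa (δ y : ℝ) : ℝ := (Real.log (1 + δ * gg y) - Real.log (1 - δ * gg y)) / 2

/-- Normalising factor of the channel. -/
def CC (δ y : ℝ) : ℝ := Real.exp ((Real.log (1 + δ * gg y) + Real.log (1 - δ * gg y)) / 2)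

lemma CC_pos (y : ℝ) : 0 < CC δ y := Real.exp_pos _

lemma abs_dg_le (h0 : 0 ≤ δ) (y : ℝ) : |δ * gg y| ≤ δ := abs_dm_le h0 (abs_gg_le y)

lemma one_add_dg_pos (h0 : 0 ≤ δ) (h1 : δ ≤ 1 / 2) (y : ℝ) : 1 / 2 ≤ 1 + δ * gg y := by
  have := (abs_le.mp (abs_dg_le h0 y)).1
  linarith

lemma one_sub_dg_pos (h0 : 0 ≤ δ) (h1 : δ ≤ 1 / 2) (y : ℝ) : 1 / 2 ≤ 1 - δ * gg y := by
  have := (abs_le.mp (abs_dg_le h0 y)).2
  linarith

lemma CC_mul_exp (h0 : 0 ≤ δ) (h1 : δ ≤ 1 / 2) (y : ℝ) :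
    CC δ y * Real.exp (aa δ y) = 1 + δ * gg y := by
  unfold CC aa
  rw [← Real.exp_add]
  have := one_add_dg_pos h0 h1 y
  rw [show (Real.log (1 + δ * gg y) + Real.log (1 - δ * gg y)) / 2
      + (Real.log (1 + δ * gg y) - Real.log (1 - δ * gg y)) / 2 = Real.log (1 + δ * gg y) by ring]
  exact Real.exp_log (by linarith)

lemma CC_mul_exp_neg (h0 : 0 ≤ δ) (h1 : δ ≤ 1 / 2) (y : ℝ) :
    CC δ y * Real.exp (-aa δ y) = 1 - δ * gg y := by
  unfold CC aa
  rw [← Real.exp_add]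
  have := one_sub_dg_pos h0 h1 y
  rw [show (Real.log (1 + δ * gg y) + Real.log (1 - δ * gg y)) / 2
      + -((Real.log (1 + δ * gg y) - Real.log (1 - δ * gg y)) / 2)
      = Real.log (1 - δ * gg y) by ring]
  exact Real.exp_log (by linarith)

/-- The Bayes factor. -/
lemma bayes_factor (h0 : 0 ≤ δ) (h1 : δ ≤ 1 / 2) (y σ : ℝ) (hσ : σ = 1 ∨ σ = -1) :
    CC δ y * Real.exp (aa δ y * σ) = 1 + δ * σ * gg y := by
  rcases hσ with rfl | rfl
  · rw [mul_one, CC_mul_exp h0 h1]; ring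
  · rw [mul_neg_one, CC_mul_exp_neg h0 h1]; ring

lemma log_sub_le {A B : ℝ} (hA : 1 / 2 ≤ A) (hB : 1 / 2 ≤ B) : |Real.log A - Real.log B| ≤ 2 * |A - B| := by
  have key : ∀ {A B : ℝ}, 1 / 2 ≤ A → 1 / 2 ≤ B → Real.log A - Real.log B ≤ 2 * |A - B| := by
    intro A B hA hB
    have hApos : 0 < A := by linarith
    have hBpos : 0 < B := by linarith
    have h : Real.log (A / B) ≤ A / B - 1 := Real.log_le_sub_one_of_pos (div_pos hApos hBpos)
    rw [Real.log_div hApos.ne' hBpos.ne'] at h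
    have h2 : A / B - 1 = (A - B) / B := by field_simp
    rw [h2] at h
    refine h.trans ?_
    have h3 : (A - B) / B ≤ |A - B| / B := div_le_div_of_nonneg_right (le_abs_self _) hBpos.le
    have h4 : |A - B| / B ≤ |A - B| / (1 / 2) :=
      div_le_div_of_nonneg_left (abs_nonneg _) (by norm_num) hB
    have h5 : |A - B| / (1 / 2) = 2 * |A - B| := by ring
    linarith
  rw [abs_le]
  constructor
  · have := key hB hA
    rw [abs_sub_comm] at this
    linarith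
  · exact key hA hB

lemma aa_lip (h0 : 0 ≤ δ) (h1 : δ ≤ 1 / 2) (y y' : ℝ) : |aa δ y - aa δ y'| ≤ 4 * δ * |proj y - proj y'| := by
  have h2 := log_sub_le (one_add_dg_pos h0 h1 y) (one_add_dg_pos h0 h1 y')
  have h3 := log_sub_le (one_sub_dg_pos h0 h1 y) (one_sub_dg_pos h0 h1 y')
  have e1 : (1 + δ * gg y) - (1 + δ * gg y') = δ * (2 * (proj y - proj y')) := by unfold gg; ring
  have e2 : (1 - δ * gg y) - (1 - δ * gg y') = -(δ * (2 * (proj y - proj y'))) := by unfold gg; ring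
  rw [e1, abs_mul, abs_mul, abs_of_nonneg h0] at h2
  rw [e2, abs_neg, abs_mul, abs_mul, abs_of_nonneg h0] at h3
  norm_num at h2 h3
  have e : aa δ y - aa δ y' = ((Real.log (1 + δ * gg y) - Real.log (1 + δ * gg y'))
      - (Real.log (1 - δ * gg y) - Real.log (1 - δ * gg y'))) / 2 := by unfold aa; ring
  rw [e, abs_div, abs_of_pos (by norm_num : (0 : ℝ) < 2)]
  have := abs_sub (Real.log (1 + δ * gg y) - Real.log (1 + δ * gg y'))
    (Real.log (1 - δ * gg y) - Real.log (1 - δ * gg y'))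
  rw [div_le_iff₀ (by norm_num)]
  linarith

lemma continuous_aa (h0 : 0 ≤ δ) (h1 : δ ≤ 1 / 2) : Continuous (aa δ) := by
  unfold aa gg
  refine Continuous.div_const ?_ _
  refine Continuous.sub ?_ ?_
  · refine Continuous.log (by have := continuous_proj; fun_prop) (fun y => ?_)
    have := one_add_dg_pos h0 h1 y
    unfold gg at this
    linarith
  · refine Continuous.log (by have := continuous_proj; fun_prop) (fun y => ?_)
    have := one_sub_dg_pos h0 h1 y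
    unfold gg at this
    linarith

lemma aa_half : aa δ (1 / 2) = 0 := by
  unfold aa gg
  rw [proj_of_mem (by norm_num) (by norm_num)]
  norm_num

lemma abs_aa_le (h0 : 0 ≤ δ) (h1 : δ ≤ 1 / 2) (y : ℝ) : |aa δ y| ≤ 1 := by
  have h := aa_lip h0 h1 y (1 / 2)
  rw [aa_half, sub_zero, proj_of_mem (by norm_num : (0:ℝ) ≤ 1 / 2) (by norm_num : (1/2:ℝ) ≤ 1)] at h
  have hp := proj_mem y
  have h2 : |proj y - 1 / 2| ≤ 1 / 2 := abs_le.mpr ⟨by linarith [hp.1], by linarith [hp.2]⟩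
  calc |aa δ y| ≤ 4 * δ * |proj y - 1 / 2| := h
    _ ≤ 4 * (1 / 2) * (1 / 2) := by
      refine mul_le_mul (by linarith) h2 (abs_nonneg _) (by norm_num)
    _ = 1 := by norm_num

/-- Lipschitz bound of the channel response. -/
lemma response_lip (h0 : 0 ≤ δ) (h1 : δ ≤ 1 / 2) (m m' t t' : ℝ) :
    |aa δ (Tq δ m t) - aa δ (Tq δ m' t')| ≤ 8 * δ * |proj t - proj t'| + 2 * δ ^ 2 * |m - m'| := by
  have h2 := aa_lip h0 h1 (Tq δ m t) (Tq δ m' t')
  have hy := Tq_mem (δ := δ) m t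
  have hy' := Tq_mem (δ := δ) m' t'
  rw [proj_of_mem hy.1 hy.2, proj_of_mem hy'.1 hy'.2] at h2
  have h3 := mul_le_mul_of_nonneg_left (Tq_lip h0 h1 m m' t t') (by positivity : 0 ≤ 4 * δ)
  calc _ ≤ _ := h2
    _ ≤ _ := h3
    _ = _ := by ring

/-- Substitution: the law of the channel output. -/
theorem integral_Tq (h0 : 0 ≤ δ) (h1 : δ ≤ 1 / 2) {m : ℝ} (hm : |m| ≤ 1) (ψ : ℝ → ℝ) :
    ∫ t in (0 : ℝ)..1, ψ (Tq δ m t) = ∫ x in (0 : ℝ)..1, (1 + δ * m * (2 * x - 1)) * ψ x := by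
  have hinj : Set.InjOn (F₀ δ m) (Icc 0 1) := fun y hy y' hy' e =>
    Tq_unique h0 h1 hm (mem_Icc.mp hy) (mem_Icc.mp hy') e
  have himg : F₀ δ m '' Icc 0 1 = Icc 0 1 := by
    ext t
    constructor
    · rintro ⟨y, hy, rfl⟩
      have hq := Fq_mem h0 h1 m y
      unfold Fq at hq
      rw [clip_of_abs_le hm, proj_of_mem (mem_Icc.mp hy).1 (mem_Icc.mp hy).2] at hq
      exact mem_Icc.mpr hq
    · intro ht
      obtain ⟨y, hy, e⟩ := exists_quantile (δ := δ) m t (mem_Icc.mp ht)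
      exact ⟨y, mem_Icc.mpr hy, e⟩
  have key := integral_image_eq_integral_abs_deriv_smul (s := Icc 0 1) (f := F₀ δ m)
    (f' := fun x => 1 + δ * m * (2 * x - 1)) measurableSet_Icc
    (fun x _ => (hasDerivAt_F₀ m x).hasDerivWithinAt) hinj (fun t => ψ (Tq δ m t))
  rw [himg] at key
  rw [intervalIntegral.integral_of_le zero_le_one, intervalIntegral.integral_of_le zero_le_one,
    ← integral_Icc_eq_integral_Ioc, ← integral_Icc_eq_integral_Ioc, key]
  refine setIntegral_congr_fun measurableSet_Icc (fun x hx => ?_)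
  have hx' := mem_Icc.mp hx
  have hmean : 0 ≤ 1 + δ * m * (2 * x - 1) := by
    have := slope_ge h0 hm hx' hx'
    have e : x + x - 1 = 2 * x - 1 := by ring
    rw [e] at this
    linarith
  have hT : Tq δ m (F₀ δ m x) = x := by
    have := Tq_Fq h0 h1 m hx'
    unfold Fq at this
    rwa [clip_of_abs_le hm, proj_of_mem hx'.1 hx'.2] at this
  simp only [smul_eq_mul]
  rw [abs_of_nonneg hmean, hT]

end channel

end Vale.Agent.P161
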