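import Vale.Agent.P161.Lyap
import Vale.Agent.P161.Channel

set_option autoImplicit false

noncomputable section
open scoped Classical
open Finset

namespace Vale.Agent.P161

variable {V : Type*}

/-- The state of the scheme: current fields and the array of observations. -/
abbrev St (V : Type*) := (V → ℝ) × (V × ℕ → ℝ)

section defs

variable (G : SimpleGraph V) (θ δ : ℝ)

/-- One observation at the coordinate `c`, driven by the noise value `t`. -/
def stepS (Λ : Finset V) (c : V × ℕ) (st : St V) (t : ℝ) : St V :=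
  (shift st.1 c.1 (aa δ (Tq δ (mag G θ Λ st.1 c.1) t)),
    Function.update st.2 c (Tq δ (mag G θ Λ st.1 c.1) t))

/-- Run the scheme along a list of coordinates. -/
def run (Λ : Finset V) : List (V × ℕ) → St V → (V × ℕ → ℝ) → St V
  | [], st, _ => st
  | c :: L, st, z => run Λ L (stepS G θ δ Λ c st (z c)) z

/-- Fields obtained by adding the observations of a list. -/
def fieldsFrom : (V → ℝ) → List (V × ℕ) → (V × ℕ → ℝ) → V → ℝ
  | f, [], _ => f
  | f, c :: L, y => fieldsFrom (shift f c.1 (aa δ (y c))) L y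

/-- The innovation filter: recover the noise from the observations. -/
def innRec (Λ : Finset V) : List (V × ℕ) → (V → ℝ) → (V × ℕ → ℝ) → (V × ℕ → ℝ) → V × ℕ → ℝ
  | [], _, _, ζ => ζ
  | c :: L, f, y, ζ =>
      innRec Λ L (shift f c.1 (aa δ (y c))) y (Function.update ζ c (Fq δ (mag G θ Λ f c.1) (y c)))

end defs

/-- The coordinates of one sweep. -/
def sweep (o : List V) (j : ℕ) : List (V × ℕ) := o.map (fun u => (u, j))

/-- The coordinates of the first `n` sweeps. -/
def Cs (o : List V) : ℕ → List (V × ℕ)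
  | 0 => []
  | n + 1 => Cs o n ++ sweep o n

section lists

lemma mem_sweep {o : List V} {j : ℕ} {c : V × ℕ} : c ∈ sweep o j ↔ c.1 ∈ o ∧ c.2 = j := by
  unfold sweep
  rw [List.mem_map]
  constructor
  · rintro ⟨u, hu, rfl⟩
    exact ⟨hu, rfl⟩
  · rintro ⟨h1, h2⟩
    exact ⟨c.1, h1, by rw [← h2]⟩

lemma mem_Cs {o : List V} {n : ℕ} {c : V × ℕ} : c ∈ Cs o n ↔ c.1 ∈ o ∧ c.2 < n := by
  induction n with
  | zero => simp [Cs]
  | succ n ih =>
    simp only [Cs, List.mem_append, ih, mem_sweep]
    constructor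
    · rintro (⟨h1, h2⟩ | ⟨h1, h2⟩)
      · exact ⟨h1, by omega⟩
      · exact ⟨h1, by omega⟩
    · rintro ⟨h1, h2⟩
      by_cases h : c.2 < n
      · exact Or.inl ⟨h1, h⟩
      · exact Or.inr ⟨h1, by omega⟩

lemma sweep_nodup {o : List V} (ho : o.Nodup) (j : ℕ) : (sweep o j).Nodup := by
  unfold sweep
  refine ho.map (fun a b h => ?_)
  simpa using congrArg Prod.fst h

lemma Cs_nodup {o : List V} (ho : o.Nodup) (n : ℕ) : (Cs o n).Nodup := by
  induction n with
  | zero => simp [Cs]
  | succ n ih =>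
    simp only [Cs]
    refine List.nodup_append.mpr ⟨ih, sweep_nodup ho n, ?_⟩
    intro a ha b hb hab
    subst hab
    have h1 := (mem_Cs.mp ha).2
    have h2 := (mem_sweep.mp hb).2
    omega

lemma sweep_filter (o : List V) (j : ℕ) (Λ : Finset V) :
    (sweep o j).filter (fun c => c.1 ∈ Λ) = sweep (o.filter (· ∈ Λ)) j := by
  unfold sweep
  rw [List.filter_map]
  congr 1

lemma Cs_filter (o : List V) (n : ℕ) (Λ : Finset V) :
    (Cs o n).filter (fun c => c.1 ∈ Λ) = Cs (o.filter (· ∈ Λ)) n := by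
  induction n with
  | zero => simp [Cs]
  | succ n ih => simp only [Cs, List.filter_append, ih, sweep_filter]

end lists

section runlemmas

variable (G : SimpleGraph V) (θ δ : ℝ)

lemma run_nil (Λ : Finset V) (st : St V) (z : V × ℕ → ℝ) : run G θ δ Λ [] st z = st := rfl

lemma run_cons (Λ : Finset V) (c : V × ℕ) (L : List (V × ℕ)) (st : St V) (z : V × ℕ → ℝ) :
    run G θ δ Λ (c :: L) st z = run G θ δ Λ L (stepS G θ δ Λ c st (z c)) z := rfl

lemma run_append (Λ : Finset V) (A B : List (V × ℕ)) (st : St V) (z : V × ℕ → ℝ) :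
    run G θ δ Λ (A ++ B) st z = run G θ δ Λ B (run G θ δ Λ A st z) z := by
  induction A generalizing st with
  | nil => rfl
  | cons c A ih => exact ih _

lemma run_snd_of_not_mem (Λ : Finset V) {L : List (V × ℕ)} {c : V × ℕ} (hc : c ∉ L) (st : St V)
    (z : V × ℕ → ℝ) : (run G θ δ Λ L st z).2 c = st.2 c := by
  induction L generalizing st with
  | nil => rfl
  | cons b L ih =>
    rw [List.mem_cons, not_or] at hc
    rw [run_cons, ih hc.2]
    simp [stepS, Function.update_of_ne hc.1]

lemma fieldsFrom_append (f : V → ℝ) (A B : List (V × ℕ)) (y : V × ℕ → ℝ) :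
    fieldsFrom δ f (A ++ B) y = fieldsFrom δ (fieldsFrom δ f A y) B y := by
  induction A generalizing f with
  | nil => rfl
  | cons c A ih => exact ih _

lemma fieldsFrom_congr (f : V → ℝ) {L : List (V × ℕ)} {y y' : V × ℕ → ℝ}
    (h : ∀ c ∈ L, y c = y' c) : fieldsFrom δ f L y = fieldsFrom δ f L y' := by
  induction L generalizing f with
  | nil => rfl
  | cons c L ih =>
    simp only [fieldsFrom]
    rw [h c (List.mem_cons_self ..)]
    exact ih _ (fun c' hc' => h c' (List.mem_cons_of_mem _ hc'))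

/-- The final fields are obtained by adding up the final observations. -/
lemma run_fst (Λ : Finset V) {L : List (V × ℕ)} (hL : L.Nodup) (st : St V) (z : V × ℕ → ℝ) :
    (run G θ δ Λ L st z).1 = fieldsFrom δ st.1 L (run G θ δ Λ L st z).2 := by
  induction L generalizing st with
  | nil => rfl
  | cons c L ih =>
    have hn := List.nodup_cons.mp hL
    rw [run_cons, ih hn.2]
    simp only [fieldsFrom]
    rw [run_snd_of_not_mem G θ δ Λ hn.1]
    simp [stepS]

/-- Observations do not change once written. -/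
lemma run_snd_append_of_mem (Λ : Finset V) {A B : List (V × ℕ)} (h : (A ++ B).Nodup) (st : St V)
    (z : V × ℕ → ℝ) {c : V × ℕ} (hc : c ∈ A) :
    (run G θ δ Λ (A ++ B) st z).2 c = (run G θ δ Λ A st z).2 c := by
  rw [run_append]
  refine run_snd_of_not_mem G θ δ Λ (fun hb => ?_) _ _
  exact (List.nodup_append.mp h).2.2 c hc c hb rfl

/-- Restricting to `Λ₁`, the fields only see the observations at sites of `Λ₁`. -/
lemma fieldsFrom_filter (Λ₁ : Finset V) {f f' : V → ℝ} (h : ∀ w ∈ Λ₁, f w = f' w)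
    (L : List (V × ℕ)) (y : V × ℕ → ℝ) :
    ∀ w ∈ Λ₁, fieldsFrom δ f (L.filter (fun c => c.1 ∈ Λ₁)) y w = fieldsFrom δ f' L y w := by
  induction L generalizing f f' with
  | nil => exact h
  | cons c L ih =>
    by_cases hc : c.1 ∈ Λ₁
    · rw [List.filter_cons_of_pos (by simpa using hc)]
      simp only [fieldsFrom]
      refine ih (fun w hw => ?_)
      by_cases hwc : w = c.1
      · subst hwc
        rw [shift_self, shift_self, h _ hw]
      · rw [shift_of_ne _ _ hwc, shift_of_ne _ _ hwc]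
        exact h w hw
    · rw [List.filter_cons_of_neg (by simpa using hc)]
      simp only [fieldsFrom]
      refine ih (fun w hw => ?_)
      have hwc : w ≠ c.1 := fun e => hc (e ▸ hw)
      rw [shift_of_ne _ _ hwc]
      exact h w hw

lemma fieldsFrom_sweep (f : V → ℝ) {o : List V} (ho : o.Nodup) (j : ℕ) (y : V × ℕ → ℝ) (v : V) :
    fieldsFrom δ f (sweep o j) y v = f v + if v ∈ o then aa δ (y (v, j)) else 0 := by
  induction o generalizing f with
  | nil => simp [sweep, fieldsFrom]
  | cons u o ih =>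
    have hn := List.nodup_cons.mp ho
    have e : sweep (u :: o) j = (u, j) :: sweep o j := rfl
    rw [e]
    simp only [fieldsFrom]
    rw [ih _ hn.2]
    by_cases hvu : v = u
    · subst hvu
      rw [shift_self, if_neg hn.1, if_pos (List.mem_cons_self ..)]
      ring
    · rw [shift_of_ne _ _ hvu]
      simp [List.mem_cons, hvu]

/-- The statistic at a site of `o`. -/
lemma fieldsFrom_Cs {o : List V} (ho : o.Nodup) (n : ℕ) (y : V × ℕ → ℝ) {v : V} (hv : v ∈ o) :
    fieldsFrom δ 0 (Cs o n) y v = ∑ j ∈ Finset.range n, aa δ (y (v, j)) := by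
  induction n with
  | zero => simp [Cs, fieldsFrom]
  | succ n ih =>
    simp only [Cs]
    rw [fieldsFrom_append, fieldsFrom_sweep δ _ ho, ih, Finset.sum_range_succ, if_pos hv]

lemma innRec_of_not_mem (Λ : Finset V) {L : List (V × ℕ)} {c : V × ℕ} (hc : c ∉ L) (f : V → ℝ)
    (y ζ : V × ℕ → ℝ) : innRec G θ δ Λ L f y ζ c = ζ c := by
  induction L generalizing f ζ with
  | nil => rfl
  | cons b L ih =>
    rw [List.mem_cons, not_or] at hc
    simp only [innRec]
    rw [ih hc.2, Function.update_of_ne hc.1]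

lemma innRec_append (Λ : Finset V) (A B : List (V × ℕ)) (f : V → ℝ) (y ζ : V × ℕ → ℝ) :
    innRec G θ δ Λ (A ++ B) f y ζ
      = innRec G θ δ Λ B (fieldsFrom δ f A y) y (innRec G θ δ Λ A f y ζ) := by
  induction A generalizing f ζ with
  | nil => rfl
  | cons c A ih => exact ih _ _

/-- Value of the innovation. -/
lemma innRec_value (Λ : Finset V) (A B : List (V × ℕ)) {c : V × ℕ} (hc : c ∉ B) (f : V → ℝ)
    (y ζ : V × ℕ → ℝ) :
    innRec G θ δ Λ (A ++ c :: B) f y ζ c = Fq δ (mag G θ Λ (fieldsFrom δ f A y) c.1) (y c) := by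
  rw [innRec_append]
  simp only [innRec]
  rw [innRec_of_not_mem G θ δ Λ hc, Function.update_self]

lemma innRec_congr (Λ : Finset V) (L : List (V × ℕ)) (f : V → ℝ) {y y' : V × ℕ → ℝ}
    (h : ∀ c ∈ L, y c = y' c) (ζ : V × ℕ → ℝ) : innRec G θ δ Λ L f y ζ = innRec G θ δ Λ L f y' ζ := by
  induction L generalizing f ζ with
  | nil => rfl
  | cons c L ih =>
    simp only [innRec]
    rw [h c (List.mem_cons_self ..)]
    exact ih _ (fun c' hc' => h c' (List.mem_cons_of_mem _ hc')) _

/-- Filtering recovers the noise of the scheme. -/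
lemma innRec_run (Λ : Finset V) {L : List (V × ℕ)} (hL : L.Nodup) (f : V → ℝ)
    (y₀ ζ₀ : V × ℕ → ℝ) (z : V × ℕ → ℝ) {c : V × ℕ} (hc : c ∈ L) :
    innRec G θ δ Λ L f (run G θ δ Λ L (f, y₀) z).2 ζ₀ c = proj (z c) := by
  induction L generalizing f y₀ ζ₀ with
  | nil => simp at hc
  | cons b L ih =>
    have hn := List.nodup_cons.mp hL
    have hY : (run G θ δ Λ L (stepS G θ δ Λ b (f, y₀) (z b)) z).2 b
        = Tq δ (mag G θ Λ f b.1) (z b) := by
      rw [run_snd_of_not_mem G θ δ Λ hn.1]
      simp [stepS]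
    rw [run_cons]
    simp only [innRec]
    rw [hY]
    by_cases hcb : c = b
    · subst hcb
      rw [innRec_of_not_mem G θ δ Λ hn.1, Function.update_self, Fq_Tq]
    · have hc' : c ∈ L := (List.mem_cons.mp hc).resolve_left hcb
      exact ih hn.2 _ _ _ hc'

/-- Driving the scheme by the innovations of an array reproduces the array. -/
lemma run_innRec (hδ0 : 0 ≤ δ) (hδ1 : δ ≤ 1 / 2) (Λ : Finset V) {L : List (V × ℕ)} (hL : L.Nodup)
    (f : V → ℝ) (y₀ ζ₀ : V × ℕ → ℝ) {y : V × ℕ → ℝ} (hy : ∀ c ∈ L, 0 ≤ y c ∧ y c ≤ 1)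
    {c : V × ℕ} (hc : c ∈ L) :
    (run G θ δ Λ L (f, y₀) (innRec G θ δ Λ L f y ζ₀)).2 c = y c := by
  induction L generalizing f y₀ ζ₀ with
  | nil => simp at hc
  | cons b L ih =>
    have hn := List.nodup_cons.mp hL
    have hhy := hy b (List.mem_cons_self ..)
    simp only [innRec]
    rw [run_cons]
    have hval : innRec G θ δ Λ L (shift f b.1 (aa δ (y b))) y
        (Function.update ζ₀ b (Fq δ (mag G θ Λ f b.1) (y b))) b
        = Fq δ (mag G θ Λ f b.1) (y b) := by
      rw [innRec_of_not_mem G θ δ Λ hn.1, Function.update_self]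
    have hstep : stepS G θ δ Λ b (f, y₀) (innRec G θ δ Λ L (shift f b.1 (aa δ (y b))) y
        (Function.update ζ₀ b (Fq δ (mag G θ Λ f b.1) (y b))) b)
        = (shift f b.1 (aa δ (y b)), Function.update y₀ b (y b)) := by
      rw [hval]
      simp only [stepS]
      rw [Tq_Fq hδ0 hδ1 _ hhy]
    rw [hstep]
    by_cases hcb : c = b
    · subst hcb
      rw [run_snd_of_not_mem G θ δ Λ hn.1]
      simp
    · have hc' : c ∈ L := (List.mem_cons.mp hc).resolve_left hcb
      exact ih hn.2 _ _ _ (fun c' hc'' => hy c' (List.mem_cons_of_mem _ hc'')) hc'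

lemma run_mem_obs (Λ : Finset V) (L : List (V × ℕ)) (y₀ : V × ℕ → ℝ)
    (hy₀ : ∀ c, 0 ≤ y₀ c ∧ y₀ c ≤ 1) (f : V → ℝ) (z : V × ℕ → ℝ) (c : V × ℕ) :
    0 ≤ (run G θ δ Λ L (f, y₀) z).2 c ∧ (run G θ δ Λ L (f, y₀) z).2 c ≤ 1 := by
  induction L generalizing f y₀ with
  | nil => exact hy₀ c
  | cons b L ih =>
    rw [run_cons]
    refine ih _ (fun c' => ?_) _
    simp only [stepS]
    by_cases h : c' = b
    · subst h
      rw [Function.update_self]
      exact Tq_mem _ _
    · rw [Function.update_of_ne h]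
      exact hy₀ c'

end runlemmas

section pres

/-- The part of a list before the coordinate `c`. -/
def pre (L : List (V × ℕ)) (c : V × ℕ) : List (V × ℕ) := L.takeWhile (fun b => b ≠ c)

lemma exists_pre {L : List (V × ℕ)} {c : V × ℕ} (hc : c ∈ L) : ∃ B, L = pre L c ++ c :: B := by
  induction L with
  | nil => simp at hc
  | cons b L ih =>
    by_cases hb : b = c
    · subst hb
      exact ⟨L, by simp [pre]⟩
    · have hc' : c ∈ L := (List.mem_cons.mp hc).resolve_left (Ne.symm hb)
      obtain ⟨B, hB⟩ := ih hc'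
      refine ⟨B, ?_⟩
      have e : pre (b :: L) c = b :: pre L c := by
        simp [pre, List.takeWhile_cons, hb]
      rw [e, List.cons_append, ← hB]

lemma pre_filter (L : List (V × ℕ)) {c : V × ℕ} (p : V × ℕ → Bool) (hp : p c = true) :
    pre (L.filter p) c = (pre L c).filter p := by
  induction L with
  | nil => rfl
  | cons b L ih =>
    by_cases hb : b = c
    · subst hb
      simp [pre, List.filter_cons, hp]
    · have e : pre (b :: L) c = b :: pre L c := by
        simp [pre, List.takeWhile_cons, hb]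
      by_cases hpb : p b = true
      · rw [List.filter_cons_of_pos hpb, e, List.filter_cons_of_pos hpb, ← ih]
        simp [pre, List.takeWhile_cons, hb]
      · rw [List.filter_cons_of_neg hpb, e, List.filter_cons_of_neg hpb, ih]

end pres

section lipschitz

variable {G : SimpleGraph V} {θ δ : ℝ}

/-- One sweep: the stability estimate with respect to the noise. -/
theorem sweep_lip (hG : G.Connected) (hθ0 : 0 ≤ θ) (hθ1 : θ < 1) (hδ0 : 0 ≤ δ) (hδ1 : δ ≤ 1 / 2)
    {Λ : Finset V} (hΛ : TreeSet G Λ) {s C μ B Δ : ℝ} {x : V} (hs : 0 < s)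
    (hLy : ∀ u ∈ Λ, ∑ w ∈ Λ, θ ^ G.dist u w * s ^ G.dist w x ≤ C * s ^ G.dist u x)
    (hμ : 1 + 2 * δ ^ 2 * C * μ = μ) (hμ1 : 1 ≤ μ) (hB : 0 ≤ B) (hΔ : 0 ≤ Δ)
    (j : ℕ) {z z' : V × ℕ → ℝ} (o : List V) (ho : o.Nodup) (hoΛ : ∀ u ∈ o, u ∈ Λ)
    (hz : ∀ u ∈ o, |proj (z (u, j)) - proj (z' (u, j))| ≤ Δ * s ^ G.dist u x)
    (st st' : St V)
    (hst : ∀ w ∈ Λ, |st.1 w - st'.1 w|
      ≤ (if w ∈ o then B else μ * (B + 8 * δ * Δ)) * s ^ G.dist w x) :
    ∀ w ∈ Λ, |(run G θ δ Λ (sweep o j) st z).1 w - (run G θ δ Λ (sweep o j) st' z').1 w|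
      ≤ μ * (B + 8 * δ * Δ) * s ^ G.dist w x := by
  have hA0 : 0 ≤ B + 8 * δ * Δ := by positivity
  have hBA : B ≤ μ * (B + 8 * δ * Δ) := by
    have h1 : B ≤ B + 8 * δ * Δ := by
      have : 0 ≤ 8 * δ * Δ := by positivity
      linarith
    nlinarith
  induction o generalizing st st' with
  | nil =>
    intro w hw
    have := hst w hw
    simpa [sweep, run_nil] using this
  | cons u o ih =>
    have hn := List.nodup_cons.mp ho
    have hu : u ∈ Λ := hoΛ u (List.mem_cons_self ..)
    have es : sweep (u :: o) j = (u, j) :: sweep o j := rfl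
    rw [es]
    simp only [run_cons]
    set A := μ * (B + 8 * δ * Δ) with hA
    have hall : ∀ w ∈ Λ, |st.1 w - st'.1 w| ≤ A * s ^ G.dist w x := by
      intro w hw
      refine (hst w hw).trans (mul_le_mul_of_nonneg_right ?_ (pow_pos hs _).le)
      split_ifs
      · exact hBA
      · exact le_refl _
    have hAnn : 0 ≤ A := le_trans hB hBA
    have hm : |mag G θ Λ st.1 u - mag G θ Λ st'.1 u| ≤ A * (C * s ^ G.dist u x) := by
      refine (mag_lip hG hθ0 hθ1 hΛ hu st.1 st'.1).trans ?_
      calc ∑ w ∈ Λ, θ ^ G.dist u w * |st.1 w - st'.1 w|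
          ≤ ∑ w ∈ Λ, θ ^ G.dist u w * (A * s ^ G.dist w x) :=
            Finset.sum_le_sum (fun w hw =>
              mul_le_mul_of_nonneg_left (hall w hw) (pow_nonneg hθ0 _))
        _ = A * ∑ w ∈ Λ, θ ^ G.dist u w * s ^ G.dist w x := by
            rw [Finset.mul_sum]
            exact Finset.sum_congr rfl (fun w _ => by ring)
        _ ≤ A * (C * s ^ G.dist u x) := mul_le_mul_of_nonneg_left (hLy u hu) hAnn
    have hresp := response_lip hδ0 hδ1 (mag G θ Λ st.1 u) (mag G θ Λ st'.1 u) (z (u, j)) (z' (u, j))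
    have hzu := hz u (List.mem_cons_self ..)
    have hpu : 0 < s ^ G.dist u x := pow_pos hs _
    have hstu := hst u hu
    rw [if_pos (List.mem_cons_self ..)] at hstu
    refine ih hn.2 (fun u' hu' => hoΛ u' (List.mem_cons_of_mem _ hu'))
      (fun u' hu' => hz u' (List.mem_cons_of_mem _ hu')) _ _ ?_
    intro w hw
    simp only [stepS]
    by_cases hwu : w = u
    · subst hwu
      rw [shift_self, shift_self, if_neg hn.1]
      have e : st.1 w + aa δ (Tq δ (mag G θ Λ st.1 w) (z (w, j)))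
          - (st'.1 w + aa δ (Tq δ (mag G θ Λ st'.1 w) (z' (w, j))))
          = (st.1 w - st'.1 w) + (aa δ (Tq δ (mag G θ Λ st.1 w) (z (w, j)))
            - aa δ (Tq δ (mag G θ Λ st'.1 w) (z' (w, j)))) := by ring
      rw [e]
      refine (abs_add_le _ _).trans ?_
      have h8 : 8 * δ * |proj (z (w, j)) - proj (z' (w, j))| ≤ 8 * δ * (Δ * s ^ G.dist w x) :=
        mul_le_mul_of_nonneg_left hzu (by positivity)
      have h2 : 2 * δ ^ 2 * |mag G θ Λ st.1 w - mag G θ Λ st'.1 w|
          ≤ 2 * δ ^ 2 * (A * (C * s ^ G.dist w x)) :=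
        mul_le_mul_of_nonneg_left hm (by positivity)
      have hfinal : B * s ^ G.dist w x + 8 * δ * (Δ * s ^ G.dist w x)
          + 2 * δ ^ 2 * (A * (C * s ^ G.dist w x)) = A * s ^ G.dist w x := by
        have : A = (B + 8 * δ * Δ) * (1 + 2 * δ ^ 2 * C * μ) := by rw [hμ, hA]; ring
        have h3 : 2 * δ ^ 2 * (A * (C * s ^ G.dist w x))
            = (B + 8 * δ * Δ) * (2 * δ ^ 2 * C * μ) * s ^ G.dist w x := by rw [hA]; ring
        rw [h3, this]
        ring
      linarith
    · rw [shift_of_ne _ _ hwu, shift_of_ne _ _ hwu]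
      have := hst w hw
      by_cases hwo : w ∈ o
      · rw [if_pos (List.mem_cons_of_mem _ hwo)] at this
        rw [if_pos hwo]
        exact this
      · have hnot : w ∉ u :: o := by
          rw [List.mem_cons, not_or]
          exact ⟨hwu, hwo⟩
        rw [if_neg hnot] at this
        rw [if_neg hwo]
        exact this

/-- The growth constants of the sweeps. -/
def KK (δ μ : ℝ) : ℕ → ℝ
  | 0 => 0
  | n + 1 => μ * (KK δ μ n + 8 * δ)

lemma KK_nonneg {δ μ : ℝ} (hδ : 0 ≤ δ) (hμ : 0 ≤ μ) (n : ℕ) : 0 ≤ KK δ μ n := by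
  induction n with
  | zero => exact le_refl _
  | succ n ih =>
    simp only [KK]
    positivity

/-- Several sweeps: the stability estimate with respect to the noise. -/
theorem Cs_lip (hG : G.Connected) (hθ0 : 0 ≤ θ) (hθ1 : θ < 1) (hδ0 : 0 ≤ δ) (hδ1 : δ ≤ 1 / 2)
    {Λ : Finset V} (hΛ : TreeSet G Λ) {s C μ Δ : ℝ} {x : V} (hs : 0 < s)
    (hLy : ∀ u ∈ Λ, ∑ w ∈ Λ, θ ^ G.dist u w * s ^ G.dist w x ≤ C * s ^ G.dist u x)
    (hμ : 1 + 2 * δ ^ 2 * C * μ = μ) (hμ1 : 1 ≤ μ) (hΔ : 0 ≤ Δ)
    {z z' : V × ℕ → ℝ} (o : List V) (ho : o.Nodup) (hoΛ : ∀ u ∈ o, u ∈ Λ)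
    (hz : ∀ u ∈ o, ∀ j, |proj (z (u, j)) - proj (z' (u, j))| ≤ Δ * s ^ G.dist u x)
    (st : St V) (n : ℕ) :
    ∀ w ∈ Λ, |(run G θ δ Λ (Cs o n) st z).1 w - (run G θ δ Λ (Cs o n) st z').1 w|
      ≤ KK δ μ n * Δ * s ^ G.dist w x := by
  induction n with
  | zero =>
    intro w _
    simp [Cs, run_nil, KK]
  | succ n ih =>
    intro w hw
    simp only [Cs]
    rw [run_append, run_append]
    have hB : 0 ≤ KK δ μ n * Δ := mul_nonneg (KK_nonneg hδ0 (by linarith) n) hΔ
    have := sweep_lip hG hθ0 hθ1 hδ0 hδ1 hΛ hs hLy hμ hμ1 hB hΔ n o ho hoΛ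
      (fun u hu => hz u hu n) (run G θ δ Λ (Cs o n) st z) (run G θ δ Λ (Cs o n) st z') ?_ w hw
    · refine this.trans (le_of_eq ?_)
      simp only [KK]
      ring
    · intro w' hw'
      refine (ih w' hw').trans (mul_le_mul_of_nonneg_right ?_ (pow_pos hs _).le)
      have hBA : KK δ μ n * Δ ≤ μ * (KK δ μ n * Δ + 8 * δ * Δ) := by
        have h1 : KK δ μ n * Δ ≤ KK δ μ n * Δ + 8 * δ * Δ := by
          have : 0 ≤ 8 * δ * Δ := by positivity
          linarith
        have h2 : 0 ≤ KK δ μ n * Δ + 8 * δ * Δ := by positivity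
        nlinarith
      split_ifs
      · exact le_refl _
      · exact hBA

end lipschitz

section continuity

variable {G : SimpleGraph V} {θ δ : ℝ}

lemma continuous_dot (S : Finset V) (T : Finset V) : Continuous (fun f : V → ℝ => dot S f T) := by
  unfold dot
  exact continuous_finsetSum _ (fun v _ => (continuous_apply v).mul continuous_const)

lemma continuous_wt (S T : Finset V) : Continuous (fun f : V → ℝ => wt G θ S f T) := by
  unfold wt
  exact continuous_const.mul (Real.continuous_exp.comp (continuous_dot S T))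

lemma continuous_ZZ (S : Finset V) : Continuous (fun f : V → ℝ => ZZ G θ S f) := by
  unfold ZZ
  exact continuous_finsetSum _ (fun T _ => continuous_wt S T)

lemma continuous_avg (hθ : |θ| < 1) (S : Finset V) (g : Finset V → ℝ) :
    Continuous (fun f : V → ℝ => avg G θ S f g) := by
  unfold avg
  refine Continuous.div (continuous_finsetSum _ (fun T _ =>
    (continuous_wt S T).mul continuous_const)) (continuous_ZZ S) (fun f => (ZZ_pos hθ S f).ne')

lemma continuous_mag (hθ : |θ| < 1) (S : Finset V) (u : V) :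
    Continuous (fun f : V → ℝ => mag G θ S f u) := continuous_avg hθ S _

lemma continuous_shift (p : V) : Continuous (fun q : (V → ℝ) × ℝ => shift q.1 p q.2) := by
  unfold shift
  refine Continuous.update continuous_fst p ?_
  exact ((continuous_apply p).comp continuous_fst).add continuous_snd

lemma continuous_stepS (hθ : |θ| < 1) (hδ0 : 0 ≤ δ) (hδ1 : δ ≤ 1 / 2) (Λ : Finset V) (c : V × ℕ) :
    Continuous (fun q : St V × ℝ => stepS G θ δ Λ c q.1 q.2) := by
  have hm : Continuous (fun q : St V × ℝ => mag G θ Λ q.1.1 c.1) :=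
    (continuous_mag hθ Λ c.1).comp (continuous_fst.comp continuous_fst)
  have hT : Continuous (fun q : St V × ℝ => Tq δ (mag G θ Λ q.1.1 c.1) q.2) :=
    (continuous_Tq hδ0 hδ1).comp (hm.prodMk continuous_snd)
  unfold stepS
  refine Continuous.prodMk ?_ ?_
  · exact (continuous_shift c.1).comp ((continuous_fst.comp continuous_fst).prodMk
      ((continuous_aa hδ0 hδ1).comp hT))
  · exact Continuous.update (continuous_snd.comp continuous_fst) c hT

lemma continuous_run (hθ : |θ| < 1) (hδ0 : 0 ≤ δ) (hδ1 : δ ≤ 1 / 2) (Λ : Finset V)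
    (L : List (V × ℕ)) :
    Continuous (fun q : St V × (V × ℕ → ℝ) => run G θ δ Λ L q.1 q.2) := by
  induction L with
  | nil => exact continuous_fst
  | cons c L ih =>
    have h1 : Continuous (fun q : St V × (V × ℕ → ℝ) => stepS G θ δ Λ c q.1 (q.2 c)) :=
      (continuous_stepS hθ hδ0 hδ1 Λ c).comp
        (continuous_fst.prodMk ((continuous_apply c).comp continuous_snd))
    exact ih.comp (h1.prodMk continuous_snd)

lemma continuous_fieldsFrom (hδ0 : 0 ≤ δ) (hδ1 : δ ≤ 1 / 2) (L : List (V × ℕ)) :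
    Continuous (fun q : (V → ℝ) × (V × ℕ → ℝ) => fieldsFrom δ q.1 L q.2) := by
  induction L with
  | nil => exact continuous_fst
  | cons c L ih =>
    simp only [fieldsFrom]
    have h1 : Continuous (fun q : (V → ℝ) × (V × ℕ → ℝ) => shift q.1 c.1 (aa δ (q.2 c))) :=
      (continuous_shift c.1).comp (continuous_fst.prodMk
        ((continuous_aa hδ0 hδ1).comp ((continuous_apply c).comp continuous_snd)))
    exact ih.comp (h1.prodMk continuous_snd)

lemma continuous_innRec (hθ : |θ| < 1) (hδ0 : 0 ≤ δ) (hδ1 : δ ≤ 1 / 2) (Λ : Finset V)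
    (L : List (V × ℕ)) :
    Continuous (fun q : (V → ℝ) × (V × ℕ → ℝ) × (V × ℕ → ℝ) =>
      innRec G θ δ Λ L q.1 q.2.1 q.2.2) := by
  induction L with
  | nil => exact continuous_snd.comp continuous_snd
  | cons c L ih =>
    simp only [innRec]
    have h1 : Continuous (fun q : (V → ℝ) × (V × ℕ → ℝ) × (V × ℕ → ℝ) =>
        shift q.1 c.1 (aa δ (q.2.1 c))) :=
      (continuous_shift c.1).comp (continuous_fst.prodMk
        ((continuous_aa hδ0 hδ1).comp ((continuous_apply c).comp
          (continuous_fst.comp continuous_snd))))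
    have hF : Continuous (fun p : ℝ × ℝ => Fq δ p.1 p.2) := by
      unfold Fq F₀
      have := continuous_clip
      have := continuous_proj
      fun_prop
    have h2 : Continuous (fun q : (V → ℝ) × (V × ℕ → ℝ) × (V × ℕ → ℝ) =>
        Function.update q.2.2 c (Fq δ (mag G θ Λ q.1 c.1) (q.2.1 c))) := by
      refine Continuous.update (continuous_snd.comp continuous_snd) c ?_
      exact hF.comp (((continuous_mag hθ Λ c.1).comp continuous_fst).prodMk
        ((continuous_apply c).comp (continuous_fst.comp continuous_snd)))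
    exact ih.comp (h1.prodMk ((continuous_fst.comp continuous_snd).prodMk h2))

end continuity

end Vale.Agent.P161
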