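import Mathlib

set_option autoImplicit false

noncomputable section
open scoped Classical
open MeasureTheory

namespace Vale.Agent.P161

variable {V : Type*}

/-- The order on sites given by labels, ties being broken by `enc`. -/
def lblLE (enc : V → ℕ) (ℓ : V → ℝ) (u v : V) : Prop :=
  ℓ u < ℓ v ∨ (ℓ u = ℓ v ∧ enc u ≤ enc v)

/-- The sites of `Λ`, listed in label order. -/
def ord (enc : V → ℕ) (ℓ : V → ℝ) (Λ : Finset V) : List V :=
  Λ.toList.insertionSort (lblLE enc ℓ)

private instance lblLE_total (enc : V → ℕ) (ℓ : V → ℝ) : Std.Total (lblLE enc ℓ) where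
  total u v := by
    rcases lt_trichotomy (ℓ u) (ℓ v) with h | h | h
    · exact Or.inl (Or.inl h)
    · rcases le_total (enc u) (enc v) with h' | h'
      · exact Or.inl (Or.inr ⟨h, h'⟩)
      · exact Or.inr (Or.inr ⟨h.symm, h'⟩)
    · exact Or.inr (Or.inl h)

private instance lblLE_trans (enc : V → ℕ) (ℓ : V → ℝ) : IsTrans V (lblLE enc ℓ) where
  trans u v w := by
    rintro (h | ⟨h, h'⟩) (k | ⟨k, k'⟩)
    · exact Or.inl (h.trans k)
    · exact Or.inl (h.trans_eq k)
    · exact Or.inl (h.trans_lt k)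
    · exact Or.inr ⟨h.trans k, h'.trans k'⟩

private theorem lblLE_antisymm {enc : V → ℕ} (henc : Function.Injective enc) (ℓ : V → ℝ) {u v : V}
    (h : lblLE enc ℓ u v) (k : lblLE enc ℓ v u) : u = v := by
  rcases h with h | ⟨h, h'⟩
  · rcases k with k | ⟨k, _⟩
    · exact absurd (h.trans k) (lt_irrefl _)
    · exact absurd h (by rw [k]; exact lt_irrefl _)
  · rcases k with k | ⟨_, k'⟩
    · exact absurd k (by rw [h]; exact lt_irrefl _)
    · exact henc (le_antisymm h' k')

private theorem ord_perm (enc : V → ℕ) (ℓ : V → ℝ) (Λ : Finset V) :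
    (ord enc ℓ Λ).Perm Λ.toList := List.perm_insertionSort _ _

private theorem ord_pairwise (enc : V → ℕ) (ℓ : V → ℝ) (Λ : Finset V) :
    (ord enc ℓ Λ).Pairwise (lblLE enc ℓ) := List.pairwise_insertionSort _ _

theorem ord_nodup (enc : V → ℕ) (ℓ : V → ℝ) (Λ : Finset V) : (ord enc ℓ Λ).Nodup :=
  (ord_perm enc ℓ Λ).nodup_iff.2 Λ.nodup_toList

theorem mem_ord (enc : V → ℕ) (ℓ : V → ℝ) (Λ : Finset V) (u : V) : u ∈ ord enc ℓ Λ ↔ u ∈ Λ := by
  rw [(ord_perm enc ℓ Λ).mem_iff, Finset.mem_toList]

/-- Consistency: restricting the order of `Λ` to `Λ₀` gives the order of `Λ₀`. -/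
theorem ord_filter {enc : V → ℕ} (henc : Function.Injective enc) (ℓ : V → ℝ) {Λ₀ Λ : Finset V}
    (h : Λ₀ ⊆ Λ) : (ord enc ℓ Λ).filter (· ∈ Λ₀) = ord enc ℓ Λ₀ := by
  refine List.Perm.eq_of_pairwise (le := lblLE enc ℓ) (fun a b _ _ hab hba => ?_) ?_ ?_ ?_
  · exact lblLE_antisymm henc ℓ hab hba
  · exact (ord_pairwise enc ℓ Λ).filter _
  · exact ord_pairwise enc ℓ Λ₀
  · refine (List.perm_ext_iff_of_nodup ((ord_nodup enc ℓ Λ).filter _) (ord_nodup enc ℓ Λ₀)).2 fun a => ?_
    rw [List.mem_filter, mem_ord, mem_ord]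
    simp only [decide_eq_true_eq]
    exact ⟨fun ha => ha.2, fun ha => ⟨h ha, ha⟩⟩

/-- Covariance under a bijection, for injective labels. -/
theorem ord_map {enc : V → ℕ} (henc : Function.Injective enc) (g : V ≃ V) {ℓ : V → ℝ}
    (hℓ : Function.Injective ℓ) (Λ : Finset V) :
    (ord enc ℓ Λ).map g = ord enc (ℓ ∘ g.symm) (Λ.map g.toEmbedding) := by
  refine List.Perm.eq_of_pairwise (le := lblLE enc (ℓ ∘ g.symm)) (fun a b _ _ hab hba => ?_) ?_ ?_ ?_
  · exact lblLE_antisymm henc _ hab hba
  · rw [List.pairwise_map]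
    refine (ord_pairwise enc ℓ Λ).imp ?_
    intro u v huv
    rcases huv with huv | ⟨huv, _⟩
    · left
      simpa using huv
    · have : u = v := hℓ huv
      subst this
      exact Or.inr ⟨rfl, le_rfl⟩
  · exact ord_pairwise _ _ _
  · refine (List.perm_ext_iff_of_nodup ?_ (ord_nodup _ _ _)).2 fun a => ?_
    · exact (ord_nodup enc ℓ Λ).map g.injective
    · rw [List.mem_map, mem_ord, Finset.mem_map]
      constructor
      · rintro ⟨u, hu, rfl⟩
        exact ⟨u, (mem_ord _ _ _ _).1 hu, rfl⟩
      · rintro ⟨u, hu, rfl⟩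
        exact ⟨u, (mem_ord _ _ _ _).2 hu, rfl⟩

/-! ### Measurability -/

section Meas

private theorem measurableSet_lblLE (enc : V → ℕ) (a b : V) :
    MeasurableSet {ℓ : V → ℝ | lblLE enc ℓ a b} := by
  have h1 : MeasurableSet {ℓ : V → ℝ | ℓ a < ℓ b} :=
    measurableSet_lt (measurable_pi_apply a) (measurable_pi_apply b)
  have h2 : MeasurableSet {ℓ : V → ℝ | ℓ a = ℓ b} :=
    measurableSet_eq_fun (measurable_pi_apply a) (measurable_pi_apply b)
  by_cases h : enc a ≤ enc b
  · have : {ℓ : V → ℝ | lblLE enc ℓ a b} = {ℓ : V → ℝ | ℓ a < ℓ b} ∪ {ℓ : V → ℝ | ℓ a = ℓ b} := by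
      ext ℓ
      simp [lblLE, h]
    rw [this]
    exact h1.union h2
  · have : {ℓ : V → ℝ | lblLE enc ℓ a b} = {ℓ : V → ℝ | ℓ a < ℓ b} := by
      ext ℓ
      simp [lblLE, h]
    rw [this]
    exact h1

private theorem measurable_ord_aux [Countable V] (enc : V → ℕ) (l : List V) :
    @Measurable _ _ _ (⊤ : MeasurableSpace (List V))
      (fun ℓ : V → ℝ => l.insertionSort (lblLE enc ℓ)) := by
  let _ : MeasurableSpace (List V) := ⊤
  have : MeasurableSingletonClass (List V) := ⟨fun _ => MeasurableSpace.measurableSet_top⟩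
  -- inserting into a fixed list
  have hins : ∀ (a : V) (M : List V),
      Measurable (fun ℓ : V → ℝ => M.orderedInsert (lblLE enc ℓ) a) := by
    intro a M
    induction M with
    | nil => simp
    | cons b M ih =>
      simp only [List.orderedInsert_cons]
      refine Measurable.ite (measurableSet_lblLE enc a b) measurable_const ?_
      have hc : Measurable (fun L : List V => b :: L) := measurable_from_top
      exact hc.comp ih
  induction l with
  | nil => simp
  | cons a l ih =>
    simp only [List.insertionSort_cons]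
    have hG : Measurable (fun p : (V → ℝ) × List V => p.2.orderedInsert (lblLE enc p.1) a) :=
      measurable_from_prod_countable_left fun M => hins a M
    exact hG.comp (measurable_id.prodMk ih)

/-- Joint measurability of anything built from the order and from a second variable. -/
theorem measurable_ord_comp [Countable V] {X : Type*} [MeasurableSpace X] (enc : V → ℕ)
    (Λ : Finset V) (F : List V → X → ℝ) (hF : ∀ L, Measurable (F L)) :
    Measurable (fun p : (V → ℝ) × X => F (ord enc p.1 Λ) p.2) := by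
  let _ : MeasurableSpace (List V) := ⊤
  have : MeasurableSingletonClass (List V) := ⟨fun _ => MeasurableSpace.measurableSet_top⟩
  have hG : Measurable (fun q : List V × X => F q.1 q.2) :=
    measurable_from_prod_countable_right fun L => hF L
  have h0 : Measurable (fun ℓ : V → ℝ => ord enc ℓ Λ) := measurable_ord_aux enc Λ.toList
  exact hG.comp ((h0.comp measurable_fst).prodMk measurable_snd)

end Meas

end Vale.Agent.P161
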