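import Vale.Agent.P161.Cauchy
import Vale.Agent.P161.Order

set_option autoImplicit false

noncomputable section
open scoped Classical
open Finset MeasureTheory

namespace Vale.Agent.P161

variable {V : Type*} {G : SimpleGraph V} {θ δ : ℝ}

/-- The action of a graph automorphism on the coordinates. -/
def hatG (g : G ≃g G) : V × ℕ ≃ V × ℕ := Equiv.prodCongr g.toEquiv (Equiv.refl ℕ)

@[simp] lemma hatG_apply (g : G ≃g G) (c : V × ℕ) : hatG g c = (g c.1, c.2) := rfl

@[simp] lemma hatG_symm_apply (g : G ≃g G) (c : V × ℕ) :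
    (hatG g).symm c = (g.symm c.1, c.2) := rfl

private lemma mem_map_iff (g : G ≃g G) (T : Finset V) (u : V) :
    g u ∈ T.map g.toEquiv.toEmbedding ↔ u ∈ T := by
  rw [Finset.mem_map]
  constructor
  · rintro ⟨a, ha, he⟩
    have : a = u := g.injective he
    rwa [← this]
  · intro h
    exact ⟨u, h, rfl⟩

private lemma spin_map (g : G ≃g G) (T : Finset V) (u : V) :
    spin (T.map g.toEquiv.toEmbedding) (g u) = spin T u := by
  unfold spin
  simp only [mem_map_iff]

private lemma dot_map (g : G ≃g G) (S T : Finset V) (f : V → ℝ) :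
    dot (S.map g.toEquiv.toEmbedding) (f ∘ g.symm) (T.map g.toEquiv.toEmbedding) = dot S f T := by
  unfold dot
  rw [Finset.sum_map]
  refine Finset.sum_congr rfl fun v _ => ?_
  have h1 : g.toEquiv.toEmbedding v = g v := rfl
  rw [h1, spin_map]
  simp

private lemma kap_map (g : G ≃g G) (T : Finset V) (e : Sym2 V) :
    kap θ (T.map g.toEquiv.toEmbedding) (e.map g) = kap θ T e := by
  induction e using Sym2.ind with
  | _ a b =>
    rw [Sym2.map_mk, kap_mk, kap_mk, spin_map, spin_map]

private lemma sym2_map_symm (g : G ≃g G) (e : Sym2 V) : (e.map g).map g.symm = e := by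
  induction e using Sym2.ind with
  | _ a b => simp

private lemma sym2_symm_map (g : G ≃g G) (e : Sym2 V) : (e.map g.symm).map g = e := by
  induction e using Sym2.ind with
  | _ a b => simp

private lemma mem_edgesIn_map (g : G ≃g G) (S : Finset V) (e : Sym2 V) :
    e.map g ∈ edgesIn G (S.map g.toEquiv.toEmbedding) ↔ e ∈ edgesIn G S := by
  induction e using Sym2.ind with
  | _ a b =>
    rw [Sym2.map_mk, mem_edgesIn, mem_edgesIn, mem_map_iff, mem_map_iff, g.map_adj_iff]

private lemma W_map (g : G ≃g G) (S T : Finset V) :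
    W G θ (S.map g.toEquiv.toEmbedding) (T.map g.toEquiv.toEmbedding) = W G θ S T := by
  unfold W
  symm
  refine Finset.prod_nbij' (fun e => e.map g) (fun e => e.map g.symm) ?_ ?_ ?_ ?_ ?_
  · intro e he
    exact (mem_edgesIn_map g S e).2 he
  · intro e he
    have h := sym2_symm_map g e
    rw [← h] at he
    have := (mem_edgesIn_map g S _).1 he
    exact this
  · intro e _
    exact sym2_map_symm g e
  · intro e _
    exact sym2_symm_map g e
  · intro e _
    exact (kap_map g T e).symm

private lemma wt_map (g : G ≃g G) (S T : Finset V) (f : V → ℝ) :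
    wt G θ (S.map g.toEquiv.toEmbedding) (f ∘ g.symm) (T.map g.toEquiv.toEmbedding)
      = wt G θ S f T := by
  unfold wt
  rw [W_map, dot_map]

private lemma map_map_symm (g : G ≃g G) (T : Finset V) :
    (T.map g.toEquiv.toEmbedding).map g.symm.toEquiv.toEmbedding = T := by
  ext a
  simp only [Finset.mem_map]
  constructor
  · rintro ⟨b, ⟨c, hc, rfl⟩, rfl⟩
    simpa using hc
  · intro h
    exact ⟨g a, ⟨a, h, rfl⟩, by simp⟩

private lemma map_symm_map (g : G ≃g G) (T : Finset V) :
    (T.map g.symm.toEquiv.toEmbedding).map g.toEquiv.toEmbedding = T := by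
  ext a
  simp only [Finset.mem_map]
  constructor
  · rintro ⟨b, ⟨c, hc, rfl⟩, rfl⟩
    simpa using hc
  · intro h
    exact ⟨g.symm a, ⟨a, h, rfl⟩, by simp⟩

private lemma mem_powerset_map (g : G ≃g G) (S T : Finset V) :
    T.map g.toEquiv.toEmbedding ∈ (S.map g.toEquiv.toEmbedding).powerset ↔ T ∈ S.powerset := by
  rw [Finset.mem_powerset, Finset.mem_powerset, Finset.map_subset_map]

private lemma sum_powerset_map (g : G ≃g G) (S : Finset V) (φ : Finset V → ℝ) :
    ∑ T ∈ (S.map g.toEquiv.toEmbedding).powerset, φ T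
      = ∑ T ∈ S.powerset, φ (T.map g.toEquiv.toEmbedding) := by
  symm
  refine Finset.sum_nbij' (fun T => T.map g.toEquiv.toEmbedding)
    (fun T => T.map g.symm.toEquiv.toEmbedding) ?_ ?_ ?_ ?_ ?_
  · intro T hT
    exact (mem_powerset_map g S T).2 hT
  · intro T hT
    have h := map_symm_map g T
    rw [← h] at hT
    exact (mem_powerset_map g S _).1 hT
  · intro T _
    exact map_map_symm g T
  · intro T _
    exact map_symm_map g T
  · intro T _
    rfl

theorem mag_map (g : G ≃g G) (Λ : Finset V) (f : V → ℝ) (u : V) :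
    mag G θ (Λ.map g.toEquiv.toEmbedding) (f ∘ g.symm) (g u) = mag G θ Λ f u := by
  unfold mag avg ZZ
  rw [sum_powerset_map, sum_powerset_map]
  simp only [wt_map, spin_map]

theorem Cs_map (g : G ≃g G) (o : List V) (n : ℕ) :
    Cs (o.map g) n = (Cs o n).map (hatG g) := by
  induction n with
  | zero => rfl
  | succ n ih =>
    simp only [Cs, List.map_append, ih, sweep, List.map_map]
    rfl

private lemma shift_comp_symm (g : G ≃g G) (f : V → ℝ) (p : V) (x : ℝ) :
    shift (f ∘ g.symm) (g p) x = (shift f p x) ∘ g.symm := by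
  funext v
  by_cases h : v = g p
  · subst h
    simp [shift]
  · have h' : g.symm v ≠ p := fun e => h (by rw [← e]; simp)
    simp [shift, h, h']

private lemma update_comp_symm (g : G ≃g G) (y : V × ℕ → ℝ) (c : V × ℕ) (t : ℝ) :
    Function.update (y ∘ (hatG g).symm) (hatG g c) t
      = (Function.update y c t) ∘ (hatG g).symm := by
  funext v
  by_cases h : v = hatG g c
  · subst h
    simp
  · have h' : (hatG g).symm v ≠ c := fun e => h (by rw [← e]; simp)
    simp only [Function.comp_apply, Function.update_of_ne h, Function.update_of_ne h']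

/-- Covariance of the scheme under automorphisms. -/
theorem run_map (g : G ≃g G) (Λ : Finset V) (L : List (V × ℕ)) (f : V → ℝ) (y z : V × ℕ → ℝ) :
    run G θ δ (Λ.map g.toEquiv.toEmbedding) (L.map (hatG g)) (f ∘ g.symm, y ∘ (hatG g).symm)
        (z ∘ (hatG g).symm)
      = ((run G θ δ Λ L (f, y) z).1 ∘ g.symm, (run G θ δ Λ L (f, y) z).2 ∘ (hatG g).symm) := by
  induction L generalizing f y with
  | nil => rfl
  | cons c L ih =>
    rw [List.map_cons, run_cons, run_cons]
    have hstep : stepS G θ δ (Λ.map g.toEquiv.toEmbedding) (hatG g c)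
        (f ∘ g.symm, y ∘ (hatG g).symm) ((z ∘ (hatG g).symm) (hatG g c))
        = ((stepS G θ δ Λ c (f, y) (z c)).1 ∘ g.symm,
            (stepS G θ δ Λ c (f, y) (z c)).2 ∘ (hatG g).symm) := by
      have hz : (z ∘ (hatG g).symm) (hatG g c) = z c := by simp
      have hm : mag G θ (Λ.map g.toEquiv.toEmbedding) (f ∘ g.symm) (hatG g c).1
          = mag G θ Λ f c.1 := mag_map g Λ f c.1
      simp only [stepS, hz, hm]
      have e1 : ((hatG g) c).1 = g c.1 := rfl
      rw [e1, shift_comp_symm, update_comp_symm]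
    rw [hstep]
    exact ih _ _

/-- Covariance of the decoded spin estimates, for injective labels. -/
theorem tau_map {enc : V → ℕ} (henc : Function.Injective enc) (g : G ≃g G) {ℓ : V → ℝ}
    (hℓ : Function.Injective ℓ) (K : ℝ) (Λ : Finset V) (n : ℕ) (v : V) (z : V × ℕ → ℝ) :
    tau G θ δ K (Λ.map g.toEquiv.toEmbedding)
        (Cs (ord enc (ℓ ∘ g.toEquiv.symm) (Λ.map g.toEquiv.toEmbedding)) n) (g v)
        (z ∘ (hatG g).symm)
      = tau G θ δ K Λ (Cs (ord enc ℓ Λ) n) v z := by
  have ho := ord_map henc g.toEquiv hℓ Λ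
  have hr := run_map (θ := θ) (δ := δ) g Λ (Cs (ord enc ℓ Λ) n) 0 0 z
  have h0 : ((0 : V → ℝ) ∘ g.symm, (0 : V × ℕ → ℝ) ∘ (hatG g).symm) = ((0 : V → ℝ), (0 : V × ℕ → ℝ)) := by
    rfl
  rw [h0] at hr
  unfold tau stat
  rw [← ho]
  have hc : Cs ((ord enc ℓ Λ).map g.toEquiv) n = (Cs (ord enc ℓ Λ) n).map (hatG g) :=
    Cs_map g (ord enc ℓ Λ) n
  rw [hc]
  rw [hr]
  simp

end Vale.Agent.P161
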