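import Vale.Agent.P161.Limit5

set_option autoImplicit false

noncomputable section
open scoped Classical
open Finset MeasureTheory Filter Topology

namespace Vale.Agent.P161

variable {V : Type*} {G : SimpleGraph V} {θ : ℝ}

section counting

/-- A locally finite tree has countably many vertices. -/
theorem countable_of_tree [G.LocallyFinite] (hT : G.IsTree) : Countable V := by
  obtain ⟨u⟩ := hT.connected.nonempty
  have hcover : (Set.univ : Set V) = ⋃ r : ℕ, ((shell G u r : Finset V) : Set V) := by
    ext w
    simp only [Set.mem_univ, Set.mem_iUnion, Finset.mem_coe, true_iff]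
    exact ⟨_, mem_shell hT u _ w rfl⟩
  have : (Set.univ : Set V).Countable := by
    rw [hcover]
    exact Set.countable_iUnion (fun r => (shell G u r).countable_toSet)
  exact Set.countable_univ_iff.mp this

end counting

section partition

lemma W_singleton (a : V) (T : Finset V) : W G θ {a} T = 1 := by
  unfold W
  refine Finset.prod_eq_one (fun e he => ?_)
  induction e using Sym2.ind with
  | _ x y =>
    rw [mem_edgesIn] at he
    have hx := Finset.mem_singleton.mp he.1
    have hy := Finset.mem_singleton.mp he.2.1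
    have := he.2.2
    rw [hx, hy] at this
    exact absurd this (G.loopless.irrefl _)

lemma dot_zero (S T : Finset V) : dot S 0 T = 0 := by
  unfold dot
  simp

lemma wt_zero (S T : Finset V) : wt G θ S 0 T = W G θ S T := by
  unfold wt
  rw [dot_zero, Real.exp_zero, mul_one]

/-- The free partition function of a convex set. -/
theorem ZZ_zero_convex (hT : G.IsTree) (hθ : |θ| < 1) {D : Finset V} (hD : IsConvexSet G D)
    (hne : D.Nonempty) : ZZ G θ D 0 = 2 := by
  obtain ⟨a, ha⟩ := hne
  refine convex_growth' hT hD (isConvexSet_singleton hT a) (Finset.singleton_nonempty a)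
    (by simpa using ha) (fun S => ZZ G θ S 0 = 2) ?_ ?_
  · intro S₁ l p _ _ _ hl hp hadj hu h
    rw [ZZ_insert hθ hl hp hadj hu 0]
    simp only [Pi.zero_apply]
    rw [cav_zero, Cc_zero, shift_zero, h, one_mul]
  · unfold ZZ
    have e : ({a} : Finset V) = insert a ∅ := by simp
    rw [e, sum_insert_split (Finset.notMem_empty a)]
    simp only [wt_zero, Finset.powerset_empty, Finset.sum_singleton, insert_empty_eq]
    rw [W_singleton, W_singleton]
    norm_num

/-- The weight of an edge in the configuration `η`. -/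
def edgeWt (θ : ℝ) (η : V → ℝ) : Sym2 V → ℝ :=
  Sym2.lift ⟨fun a b => (1 + θ * η a * η b) / 2, fun a b => by ring⟩

/-- The cylinder probabilities of the free measure on a convex set. -/
theorem avg_cylinder [Countable V] (hT : G.IsTree) (hθ : |θ| < 1) {D : Finset V} (hD : IsConvexSet G D)
    (hne : D.Nonempty) {η : V → ℝ} (hη : ∀ v, η v = 1 ∨ η v = -1) :
    avg G θ D 0 (fun T => ∏ v ∈ D, (1 + η v * spin T v) / 2)
      = 1 / 2 * ∏ e ∈ edgesIn G D, edgeWt θ η e := by
  set Tη := D.filter (fun v => η v = 1) with hTη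
  have hspin : ∀ v ∈ D, spin Tη v = η v := by
    intro v hv
    unfold spin
    rcases hη v with e | e
    · rw [if_pos (Finset.mem_filter.mpr ⟨hv, e⟩), e]
    · have : v ∉ Tη := by
        intro h
        have := (Finset.mem_filter.mp h).2
        rw [e] at this
        norm_num at this
      rw [if_neg this, e]
  have hone : ∀ T ∈ D.powerset, T ≠ Tη → ∏ v ∈ D, (1 + η v * spin T v) / 2 = 0 := by
    intro T hT' hne'
    rw [prod_factor_indicator hη (fun v => spin_eq T v), if_neg]
    intro hall
    apply hne'
    ext v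
    by_cases hv : v ∈ D
    · have h1 := hall v hv
      have h2 := hspin v hv
      have h3 : spin T v = spin Tη v := by rw [h1, h2]
      unfold spin at h3
      by_cases hvT : v ∈ T <;> by_cases hvT' : v ∈ Tη <;> simp [hvT, hvT'] at h3 ⊢
      · norm_num at h3
      · norm_num at h3
    · have h1 : v ∉ T := fun h => hv (Finset.mem_powerset.mp hT' h)
      have h2 : v ∉ Tη := fun h => hv (Finset.mem_filter.mp h).1
      simp [h1, h2]
  have hself : ∏ v ∈ D, (1 + η v * spin Tη v) / 2 = 1 := by
    rw [prod_factor_indicator hη (fun v => spin_eq Tη v), if_pos hspin]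
  unfold avg
  rw [ZZ_zero_convex hT hθ hD hne]
  rw [Finset.sum_eq_single Tη (fun T hT' hne' => by
      beta_reduce
      rw [hone T hT' hne', mul_zero])
    (fun h => absurd (Finset.mem_powerset.mpr (Finset.filter_subset _ _)) h)]
  beta_reduce
  rw [hself, mul_one, wt_zero]
  unfold W
  have hprod : ∏ e ∈ edgesIn G D, kap θ Tη e = ∏ e ∈ edgesIn G D, edgeWt θ η e := by
    refine Finset.prod_congr rfl (fun e he => ?_)
    induction e using Sym2.ind with
    | _ a b =>
      rw [mem_edgesIn] at he
      rw [kap_mk, hspin a he.1, hspin b he.2.1]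
      rfl
  rw [hprod]
  ring

end partition

section main

/-- The main theorem: below the threshold, the free Ising state is a factor of i.i.d. -/
theorem main_fiid [G.LocallyFinite] {d : ℕ} (hT : G.IsTree) (hreg : G.IsRegularOfDegree d)
    (hd : 2 ≤ d) (hθ0 : 0 ≤ θ) (hθ : θ ^ 2 * ((d : ℝ) - 1) < 1) :
    ∃ Φ : (V → ℝ) → V → ℝ, Measurable Φ ∧ (∀ U v, Φ U v = 1 ∨ Φ U v = -1) ∧
      (∀ D : Finset V, IsConvexSet G D → D.Nonempty → ∀ η : V → ℝ, (∀ v, η v = 1 ∨ η v = -1) →
        (PP V) {U | ∀ v ∈ D, Φ U v = η v}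
          = ENNReal.ofReal (1 / 2 * ∏ e ∈ edgesIn G D, edgeWt θ η e)) ∧
      ∀ g : G ≃g G, ∀ᵐ U ∂(PP V), Φ (U ∘ g.symm) = (Φ U) ∘ g.symm := by
  have hcount : Countable V := countable_of_tree hT
  obtain ⟨P⟩ := exists_Prm hT hreg hd hθ0 hθ
  obtain ⟨enc, henc⟩ := exists_injective_nat V
  obtain ⟨X, hX1, hX2⟩ := exists_X hT P henc
  obtain ⟨Y, hY1, hY2⟩ := exists_Y hT P hX1 hX2
  obtain ⟨S, hS, hS'⟩ := exists_noise_map
  have hθabs' := hθabs P
  have hsplit := map_splitU (V := V) hS hS'
  have hsm := measurable_splitU (V := V) hS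
  refine ⟨fun U v => sgnR (Y v (splitU S U)), ?_, fun U v => sgnR_eq _, ?_, ?_⟩
  · refine measurable_pi_iff.mpr (fun v => ?_)
    exact measurable_sgnR.comp ((hY1 v).1.comp hsm)
  · intro D hD hne η hη
    have hmeas : MeasurableSet {ω | ∀ v ∈ D, sgnR (Y v ω) = η v} := by
      have : {ω | ∀ v ∈ D, sgnR (Y v ω) = η v} = ⋂ v ∈ D, {ω | sgnR (Y v ω) = η v} := by
        ext ω
        simp
      rw [this]
      refine Finset.measurableSet_biInter D (fun v _ => ?_)
      exact measurable_sgnR.comp (hY1 v).1 (measurableSet_singleton (η v))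
    have h1 := Y_cylinder hT P hX1 hX2 hY1 hY2 hD hne hη
    rw [avg_cylinder hT hθabs' hD hne hη] at h1
    rw [← h1]
    have h2 : (Pr V) = Measure.map (splitU S) (PP V) := hsplit.symm
    rw [h2, Measure.map_apply hsm hmeas]
    rfl
  · intro g
    have h1 := Y_acts hT P henc hX1 hX2 hY1 hY2 g
    have h2 : ∀ᵐ ω ∂(Measure.map (splitU (V := V) S) (PP V)),
        ∀ v, Y (g v) (acts g ω) = Y v ω := by
      have e : Measure.map (splitU (V := V) S) (PP V) = Pr V := hsplit
      rw [e]
      exact h1
    have h3 := ae_of_ae_map hsm.aemeasurable h2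
    filter_upwards [h3] with U hU
    funext w
    have e : splitU S (U ∘ g.symm) = acts g (splitU S U) := rfl
    simp only [Function.comp_apply]
    rw [e]
    have := hU (g.symm w)
    rw [RelIso.apply_symm_apply] at this
    rw [this]

end main

end Vale.Agent.P161
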