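import Vale.Agent.P161.Lip

set_option autoImplicit false

noncomputable section
open scoped Classical
open Finset

namespace Vale.Agent.P161

variable {V : Type*} {G : SimpleGraph V}

section basic

lemma exists_closer (hT : G.IsTree) {u x : V} (h : u ≠ x) :
    ∃ y, G.Adj u y ∧ G.dist y x + 1 = G.dist u x := by
  obtain ⟨p, hp⟩ := hT.connected.exists_walk_length_eq_dist u x
  cases p with
  | nil => exact absurd rfl h
  | @cons _ y _ hadj q =>
    refine ⟨y, hadj, ?_⟩
    have h1 : G.dist y x ≤ q.length := SimpleGraph.dist_le q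
    have h2 : G.dist u x ≤ G.dist y x + 1 := by
      have := hT.connected.dist_triangle (u := u) (v := y) (w := x)
      rw [SimpleGraph.dist_eq_one_iff_adj.mpr hadj] at this
      omega
    simp only [SimpleGraph.Walk.length_cons] at hp
    omega

lemma closer_unique (hT : G.IsTree) {u x y y' : V} (ha : G.Adj u y) (ha' : G.Adj u y')
    (h : G.dist y x + 1 = G.dist u x) (h' : G.dist y' x + 1 = G.dist u x) : y = y' := by
  obtain ⟨p, hp⟩ := hT.connected.exists_walk_length_eq_dist y x
  obtain ⟨p', hp'⟩ := hT.connected.exists_walk_length_eq_dist y' x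
  have h1 : (SimpleGraph.Walk.cons ha p).IsPath :=
    SimpleGraph.Walk.isPath_of_length_eq_dist _ (by
      simp only [SimpleGraph.Walk.length_cons]; omega)
  have h2 : (SimpleGraph.Walk.cons ha' p').IsPath :=
    SimpleGraph.Walk.isPath_of_length_eq_dist _ (by
      simp only [SimpleGraph.Walk.length_cons]; omega)
  have := hT.isAcyclic.path_unique ⟨_, h1⟩ ⟨_, h2⟩
  have h3 := congrArg (fun w : G.Path u x => (w : G.Walk u x).getVert 1) this
  simpa using h3

lemma dist_dichotomy (hT : G.IsTree) (x : V) {u v : V} (h : G.Adj u v) :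
    G.dist v x + 1 = G.dist u x ∨ G.dist v x = G.dist u x + 1 := by
  rcases hT.dist_eq_dist_add_one_of_adj x h with e | e
  · left; rw [SimpleGraph.dist_comm (u := v), SimpleGraph.dist_comm (u := u)]; omega
  · right; rw [SimpleGraph.dist_comm (u := v), SimpleGraph.dist_comm (u := u)]; omega

/-- A neighbour that is not the closer one is farther. -/
lemma farther_of_ne (hT : G.IsTree) {u x y y' : V} (ha : G.Adj u y) (ha' : G.Adj u y')
    (h : G.dist y x + 1 = G.dist u x) (hne : y' ≠ y) : G.dist y' x = G.dist u x + 1 := by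
  rcases dist_dichotomy hT x ha' with e | e
  · exact absurd (closer_unique hT ha' ha e h) hne
  · exact e

/-- Separation: if `u'` is on the `x`-side of `u` and `w` is on the other side, then `u` lies
on the geodesic from `w` to `x`. -/
lemma dist_split (hT : G.IsTree) :
    ∀ (n : ℕ) (u w x u' : V), G.dist u w = n → G.Adj u u' → G.dist u' x + 1 = G.dist u x →
      G.dist u' w = G.dist u w + 1 → G.dist w x = G.dist w u + G.dist u x := by
  intro n
  induction n with
  | zero =>
    intro u w x u' h0 _ _ _
    have : u = w := hT.connected.dist_eq_zero_iff.mp h0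
    subst this
    simp
  | succ n ih =>
    intro u w x u' hn ha hc hf
    have hne : u ≠ w := by
      rintro rfl
      simp at hn
    obtain ⟨v, hv, hvw⟩ := exists_closer hT hne
    have hvne : v ≠ u' := by
      rintro rfl
      omega
    have hvx : G.dist v x = G.dist u x + 1 := farther_of_ne hT ha hv hc hvne
    have := ih v w x u (by omega) hv.symm (by omega) (by omega)
    rw [this, SimpleGraph.dist_comm (u := w) (v := v), hvx, SimpleGraph.dist_comm (u := w) (v := u)]
    omega

lemma dist_map_iso (hT : G.IsTree) (g : G ≃g G) (a b : V) : G.dist (g a) (g b) = G.dist a b := by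
  apply le_antisymm
  · obtain ⟨p, hp⟩ := hT.connected.exists_walk_length_eq_dist a b
    have := SimpleGraph.dist_le (p.map g.toHom)
    rw [SimpleGraph.Walk.length_map, hp] at this
    exact this
  · obtain ⟨p, hp⟩ := hT.connected.exists_walk_length_eq_dist (g a) (g b)
    have := SimpleGraph.dist_le ((p.map g.symm.toHom).copy (g.symm_apply_apply a) (g.symm_apply_apply b))
    rw [SimpleGraph.Walk.length_copy, SimpleGraph.Walk.length_map, hp] at this
    exact this

end basic

section convex

/-- Geodesically convex sets. -/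
def IsConvexSet (G : SimpleGraph V) (S : Finset V) : Prop :=
  ∀ a ∈ S, ∀ b ∈ S, ∀ w, G.dist a w + G.dist w b = G.dist a b → w ∈ S

lemma isConvexSet_singleton (hT : G.IsTree) (a : V) : IsConvexSet G {a} := by
  intro x hx y hy w hw
  rw [Finset.mem_singleton] at hx hy ⊢
  rw [hx, hy, SimpleGraph.dist_self] at hw
  have : G.dist a w = 0 := by omega
  exact (hT.connected.dist_eq_zero_iff.mp this).symm

lemma convex_unique_neighbor (hT : G.IsTree) {S : Finset V} (hS : IsConvexSet G S) {l p q : V}
    (hl : l ∉ S) (hp : p ∈ S) (hq : q ∈ S) (hap : G.Adj l p) (haq : G.Adj l q) : q = p := by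
  by_contra hne
  have h1 : G.dist l q = 1 := SimpleGraph.dist_eq_one_iff_adj.mpr haq
  have h2 : G.dist p q = G.dist l q + 1 :=
    farther_of_ne hT haq hap (by rw [SimpleGraph.dist_self]; omega) (Ne.symm hne)
  apply hl
  refine hS p hp q hq l ?_
  rw [SimpleGraph.dist_comm (u := p), SimpleGraph.dist_eq_one_iff_adj.mpr hap, h1, h2, h1]

lemma convex_insert (hT : G.IsTree) {S : Finset V} (hS : IsConvexSet G S) {l p : V}
    (hl : l ∉ S) (hp : p ∈ S) (hap : G.Adj l p) : IsConvexSet G (insert l S) := by
  have key : ∀ a ∈ S, ∀ w, G.dist a w + G.dist w l = G.dist a l → w ∈ insert l S := by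
    intro a ha w hw
    have hpl : G.dist p l = 1 := by
      rw [SimpleGraph.dist_comm]; exact SimpleGraph.dist_eq_one_iff_adj.mpr hap
    have hal : G.dist p a + 1 = G.dist l a := by
      rcases dist_dichotomy hT a hap with e | e
      · exact e
      · exfalso
        apply hl
        refine hS a ha p hp l ?_
        rw [SimpleGraph.dist_comm (u := a) (v := l), SimpleGraph.dist_comm (u := a) (v := p),
          SimpleGraph.dist_comm (u := l) (v := p), hpl]
        omega
    by_cases hwl : w = l
    · subst hwl; exact Finset.mem_insert_self _ _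
    apply Finset.mem_insert_of_mem
    obtain ⟨q, hq, hqw⟩ := exists_closer hT (Ne.symm hwl)
    have hqa : G.dist q a + 1 = G.dist l a := by
      have h1 : G.dist a q ≤ G.dist a w + G.dist w q := hT.connected.dist_triangle
      have h2 : G.dist w q = G.dist q w := SimpleGraph.dist_comm
      have h3 : G.dist a l = G.dist l a := SimpleGraph.dist_comm
      have h4 : G.dist w l = G.dist l w := SimpleGraph.dist_comm
      have h5 : G.dist a q = G.dist q a := SimpleGraph.dist_comm
      rcases dist_dichotomy hT a hq with e | e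
      · exact e
      · omega
    have hqp : q = p := closer_unique hT hq hap hqa hal
    subst hqp
    refine hS a ha q hp w ?_
    have h3 : G.dist a l = G.dist l a := SimpleGraph.dist_comm
    have h4 : G.dist w l = G.dist l w := SimpleGraph.dist_comm
    have h5 : G.dist a q = G.dist q a := SimpleGraph.dist_comm
    have h6 : G.dist w q = G.dist q w := SimpleGraph.dist_comm
    omega
  intro a ha b hb w hw
  rcases Finset.mem_insert.mp ha with ha' | ha' <;> rcases Finset.mem_insert.mp hb with hb' | hb'
  · rw [ha', hb', SimpleGraph.dist_self] at hw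
    have : G.dist l w = 0 := by omega
    rw [← hT.connected.dist_eq_zero_iff.mp this]
    exact Finset.mem_insert_self _ _
  · rw [ha'] at hw
    refine key b hb' w ?_
    rw [SimpleGraph.dist_comm (u := b), SimpleGraph.dist_comm (u := w) (v := l),
      SimpleGraph.dist_comm (u := b) (v := l)]
    omega
  · rw [hb'] at hw
    exact key a ha' w hw
  · exact Finset.mem_insert_of_mem (hS a ha' b hb' w hw)

lemma exists_attach (hT : G.IsTree) {S S' : Finset V} (hS' : IsConvexSet G S') (hsub : S ⊆ S')
    {a : V} (ha : a ∈ S) :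
    ∀ (n : ℕ) (x : V), G.dist x a = n → x ∈ S' → x ∉ S →
      ∃ l p, l ∈ S' ∧ l ∉ S ∧ p ∈ S ∧ G.Adj l p := by
  intro n
  induction n with
  | zero =>
    intro x h0 _ hx
    have : x = a := hT.connected.dist_eq_zero_iff.mp h0
    subst this
    exact absurd ha hx
  | succ n ih =>
    intro x hn hxS' hx
    have hne : x ≠ a := by
      rintro rfl
      exact hx ha
    obtain ⟨y, hy, hya⟩ := exists_closer hT hne
    have hyS' : y ∈ S' := by
      refine hS' a (hsub ha) x hxS' y ?_
      have h1 : G.dist y x = 1 := by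
        rw [SimpleGraph.dist_comm]; exact SimpleGraph.dist_eq_one_iff_adj.mpr hy
      have h2 : G.dist a y = G.dist y a := SimpleGraph.dist_comm
      have h3 : G.dist a x = G.dist x a := SimpleGraph.dist_comm
      omega
    by_cases hyS : y ∈ S
    · exact ⟨x, y, hxS', hx, hyS, hy⟩
    · exact ih y (by omega) hyS' hyS

/-- Growing a convex set inside a bigger convex set, one leaf at a time. -/
theorem convex_growth (hT : G.IsTree) {S' : Finset V} (hS' : IsConvexSet G S')
    (P : Finset V → Prop)
    (step : ∀ (S₁ : Finset V) (l p : V), IsConvexSet G S₁ → S₁ ⊆ S' → l ∈ S' → l ∉ S₁ → p ∈ S₁ →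
      G.Adj l p → (∀ q ∈ S₁, G.Adj l q → q = p) → P S₁ → P (insert l S₁)) :
    ∀ (n : ℕ) (S : Finset V), (S' \ S).card = n → IsConvexSet G S → S.Nonempty → S ⊆ S' →
      P S → P S' := by
  intro n
  induction n with
  | zero =>
    intro S hn _ _ hsub hP
    have : S' ⊆ S := by
      rw [Finset.card_eq_zero, Finset.sdiff_eq_empty_iff_subset] at hn
      exact hn
    rwa [Finset.Subset.antisymm hsub this] at hP
  | succ n ih =>
    intro S hn hS hne hsub hP
    obtain ⟨a, ha⟩ := hne
    have : (S' \ S).Nonempty := by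
      rw [← Finset.card_pos]; omega
    obtain ⟨x, hx⟩ := this
    rw [Finset.mem_sdiff] at hx
    obtain ⟨l, p, hl', hl, hp, hadj⟩ := exists_attach hT hS' hsub ha _ x rfl hx.1 hx.2
    have hu : ∀ q ∈ S, G.Adj l q → q = p := fun q hq haq =>
      convex_unique_neighbor hT hS hl hp hq hadj haq
    refine ih (insert l S) ?_ (convex_insert hT hS hl hp hadj) (Finset.insert_nonempty _ _) ?_
      (step S l p hS hsub hl' hl hp hadj hu hP)
    · have : S' \ insert l S = (S' \ S).erase l := by
        ext z; simp only [Finset.mem_sdiff, Finset.mem_insert, Finset.mem_erase]; tauto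
      rw [this, Finset.card_erase_of_mem (Finset.mem_sdiff.mpr ⟨hl', hl⟩), hn]
      omega
    · exact Finset.insert_subset hl' hsub

theorem convex_growth' (hT : G.IsTree) {S S' : Finset V} (hS' : IsConvexSet G S')
    (hS : IsConvexSet G S) (hne : S.Nonempty) (hsub : S ⊆ S')
    (P : Finset V → Prop)
    (step : ∀ (S₁ : Finset V) (l p : V), IsConvexSet G S₁ → S₁ ⊆ S' → l ∈ S' → l ∉ S₁ → p ∈ S₁ →
      G.Adj l p → (∀ q ∈ S₁, G.Adj l q → q = p) → P S₁ → P (insert l S₁)) (hP : P S) : P S' :=
  convex_growth hT hS' P step _ S rfl hS hne hsub hP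

lemma treeSet_of_convex (hT : G.IsTree) {S : Finset V} (hS : IsConvexSet G S) (hne : S.Nonempty) :
    TreeSet G S := by
  obtain ⟨a, ha⟩ := hne
  refine convex_growth' hT hS (isConvexSet_singleton hT a) (Finset.singleton_nonempty a)
    (by simpa using ha) (TreeSet G) ?_ (TreeSet.single a)
  intro S₁ l p _ _ _ hl hp hadj hu h
  exact TreeSet.add h hl hp hadj hu

lemma exists_convex_superset_mem (hT : G.IsTree) {S : Finset V} (hS : IsConvexSet G S) {a : V}
    (ha : a ∈ S) :
    ∀ (n : ℕ) (x : V), G.dist x a = n → ∃ S', IsConvexSet G S' ∧ S ⊆ S' ∧ x ∈ S' := by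
  intro n
  induction n with
  | zero =>
    intro x h0
    have : x = a := hT.connected.dist_eq_zero_iff.mp h0
    subst this
    exact ⟨S, hS, Finset.Subset.refl _, ha⟩
  | succ n ih =>
    intro x hn
    have hne : x ≠ a := by
      rintro rfl
      simp at hn
    obtain ⟨y, hy, hya⟩ := exists_closer hT hne
    obtain ⟨S', hS', hsub, hyS'⟩ := ih y (by omega)
    by_cases hx : x ∈ S'
    · exact ⟨S', hS', hsub, hx⟩
    · exact ⟨insert x S', convex_insert hT hS' hx hyS' hy,
        hsub.trans (Finset.subset_insert _ _), Finset.mem_insert_self _ _⟩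

/-- Every finite set is contained in a convex finite set containing a given convex set. -/
lemma exists_convex_superset (hT : G.IsTree) {S : Finset V} (hS : IsConvexSet G S)
    (hne : S.Nonempty) (A : Finset V) : ∃ S', IsConvexSet G S' ∧ S ⊆ S' ∧ A ⊆ S' := by
  induction A using Finset.induction_on with
  | empty => exact ⟨S, hS, Finset.Subset.refl _, Finset.empty_subset _⟩
  | insert x A _ ih =>
    obtain ⟨S₁, hS₁, h1, h2⟩ := ih
    obtain ⟨a, ha⟩ := hne
    obtain ⟨S₂, hS₂, h3, h4⟩ := exists_convex_superset_mem hT hS₁ (h1 ha) _ x rfl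
    exact ⟨S₂, hS₂, h1.trans h3, Finset.insert_subset h4 (h2.trans h3)⟩

lemma isConvexSet_map (hT : G.IsTree) (g : G ≃g G) {S : Finset V} (hS : IsConvexSet G S) :
    IsConvexSet G (S.map g.toEquiv.toEmbedding) := by
  intro a ha b hb w hw
  rw [Finset.mem_map] at ha hb
  obtain ⟨a', ha', rfl⟩ := ha
  obtain ⟨b', hb', rfl⟩ := hb
  rw [Finset.mem_map]
  refine ⟨g.symm w, hS a' ha' b' hb' _ ?_, by simp⟩
  have e : ∀ x y, G.dist (g x) (g y) = G.dist x y := dist_map_iso hT g
  have h1 : G.dist a' (g.symm w) = G.dist (g a') w := by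
    have := e a' (g.symm w); simp only [RelIso.apply_symm_apply] at this; exact this.symm
  have h2 : G.dist (g.symm w) b' = G.dist w (g b') := by
    have := e (g.symm w) b'; simp only [RelIso.apply_symm_apply] at this; exact this.symm
  have h3 := e a' b'
  simp only [Equiv.coe_toEmbedding] at hw
  change G.dist (g a') w + G.dist w (g b') = G.dist (g a') (g b') at hw
  omega

/-- A finite set inducing a connected subgraph is convex. -/
lemma isConvexSet_of_connected (hT : G.IsTree) {D : Finset V}
    (hD : (G.induce (D : Set V)).Preconnected) : IsConvexSet G D := by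
  intro a ha b hb w hw
  obtain ⟨q⟩ := hD ⟨a, ha⟩ ⟨b, hb⟩
  let q' := q.map (SimpleGraph.Embedding.induce (D : Set V)).toHom
  have hsup : ∀ z ∈ q'.support, z ∈ D := by
    intro z hz
    simp only [q', SimpleGraph.Walk.support_map, List.mem_map] at hz
    obtain ⟨z', _, rfl⟩ := hz
    exact z'.2
  obtain ⟨p₁, hp₁⟩ := hT.connected.exists_walk_length_eq_dist a w
  obtain ⟨p₂, hp₂⟩ := hT.connected.exists_walk_length_eq_dist w b
  have hpath : (p₁.append p₂).IsPath := SimpleGraph.Walk.isPath_of_length_eq_dist _ (by
    rw [SimpleGraph.Walk.length_append, hp₁, hp₂, hw])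
  have hq'' : (q'.bypass).IsPath := SimpleGraph.Walk.bypass_isPath _
  have huniq := hT.isAcyclic.path_unique ⟨_, hpath⟩ ⟨_, hq''⟩
  have hwmem : w ∈ (p₁.append p₂).support := by
    rw [SimpleGraph.Walk.mem_support_append_iff]
    left
    exact SimpleGraph.Walk.end_mem_support _
  have h3 : (p₁.append p₂) = q'.bypass := congrArg Subtype.val huniq
  rw [h3] at hwmem
  exact hsup w (SimpleGraph.Walk.support_bypass_subset _ hwmem)

end convex

section count

variable [G.LocallyFinite] {d : ℕ}

/-- Shells around `u`. -/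
def shell (G : SimpleGraph V) [G.LocallyFinite] (u : V) : ℕ → Finset V
  | 0 => {u}
  | r + 1 => (shell G u r).biUnion
      (fun w => (G.neighborFinset w).filter (fun z => G.dist z u = r + 1))

lemma mem_shell (hT : G.IsTree) (u : V) : ∀ (r : ℕ) (w : V), G.dist w u = r → w ∈ shell G u r := by
  intro r
  induction r with
  | zero =>
    intro w h
    have : w = u := hT.connected.dist_eq_zero_iff.mp h
    simp [shell, this]
  | succ r ih =>
    intro w h
    have hne : w ≠ u := by
      rintro rfl
      simp at h
    obtain ⟨y, hy, hyu⟩ := exists_closer hT hne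
    simp only [shell, Finset.mem_biUnion, Finset.mem_filter, SimpleGraph.mem_neighborFinset]
    exact ⟨y, ih y (by omega), hy.symm, h⟩

lemma dist_of_mem_shell (u : V) : ∀ (r : ℕ) (w : V), w ∈ shell G u r → G.dist w u = r := by
  intro r
  induction r with
  | zero =>
    intro w h
    simp only [shell, Finset.mem_singleton] at h
    simp [h]
  | succ r _ =>
    intro w h
    simp only [shell, Finset.mem_biUnion, Finset.mem_filter, SimpleGraph.mem_neighborFinset] at h
    obtain ⟨_, _, _, h2⟩ := h
    exact h2

lemma card_shell (hT : G.IsTree) (hreg : G.IsRegularOfDegree d) (hd : 2 ≤ d) (u : V) :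
    ∀ r : ℕ, ((shell G u r).card : ℝ) ≤ d * ((d : ℝ) - 1) ^ r := by
  have hd1 : (1 : ℝ) ≤ (d : ℝ) - 1 := by
    have : (2 : ℝ) ≤ d := by exact_mod_cast hd
    linarith
  intro r
  induction r with
  | zero =>
    simp only [shell, Finset.card_singleton, Nat.cast_one, pow_zero, mul_one]
    have : (2 : ℝ) ≤ d := by exact_mod_cast hd
    linarith
  | succ r ih =>
    have hchild : ∀ w ∈ shell G u r,
        (((G.neighborFinset w).filter (fun z => G.dist z u = r + 1)).card : ℝ) ≤ (d : ℝ) - 1
          ∨ r = 0 := by
      intro w hw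
      rcases Nat.eq_zero_or_pos r with h0 | hpos
      · exact Or.inr h0
      left
      have hwd : G.dist w u = r := dist_of_mem_shell u r w hw
      have hne : w ≠ u := by
        rintro rfl
        simp at hwd
        omega
      obtain ⟨y, hy, hyu⟩ := exists_closer hT hne
      have hsub : (G.neighborFinset w).filter (fun z => G.dist z u = r + 1)
          ⊆ (G.neighborFinset w).erase y := by
        intro z hz
        rw [Finset.mem_filter] at hz
        rw [Finset.mem_erase]
        refine ⟨?_, hz.1⟩
        rintro rfl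
        omega
      have hcard := Finset.card_le_card hsub
      rw [Finset.card_erase_of_mem (by simpa using hy), SimpleGraph.card_neighborFinset_eq_degree,
        hreg.degree_eq] at hcard
      have hcast : (d - 1 : ℕ) = (d : ℝ) - 1 := by
        rw [Nat.cast_sub (by omega)]; simp
      rw [← hcast]
      exact_mod_cast hcard
    rcases Nat.eq_zero_or_pos r with h0 | hpos
    · subst h0
      simp only [shell, Finset.singleton_biUnion]
      have h1 := Finset.card_filter_le (G.neighborFinset u) (fun z => G.dist z u = 0 + 1)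
      rw [SimpleGraph.card_neighborFinset_eq_degree, hreg.degree_eq] at h1
      have h2 : (((G.neighborFinset u).filter (fun z => G.dist z u = 0 + 1)).card : ℝ) ≤ d := by
        exact_mod_cast h1
      calc _ ≤ (d : ℝ) := h2
        _ ≤ d * ((d : ℝ) - 1) ^ (0 + 1) := by
          have : (0 : ℝ) ≤ d := Nat.cast_nonneg d
          simp only [zero_add, pow_one]
          nlinarith
    · have h1 : ((shell G u (r + 1)).card : ℝ)
          ≤ ∑ w ∈ shell G u r,
            (((G.neighborFinset w).filter (fun z => G.dist z u = r + 1)).card : ℝ) := by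
        simp only [shell]
        exact_mod_cast Finset.card_biUnion_le
      calc _ ≤ _ := h1
        _ ≤ ∑ _w ∈ shell G u r, ((d : ℝ) - 1) := Finset.sum_le_sum (fun w hw => by
            rcases hchild w hw with h | h
            · exact h
            · omega)
        _ = ((shell G u r).card : ℝ) * ((d : ℝ) - 1) := by
            rw [Finset.sum_const, nsmul_eq_mul]
        _ ≤ (d * ((d : ℝ) - 1) ^ r) * ((d : ℝ) - 1) :=
            mul_le_mul_of_nonneg_right ih (by linarith)
        _ = _ := by ring

/-- The sum of `x ^ dist` over a finite set is bounded uniformly. -/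
theorem sum_pow_dist_le (hT : G.IsTree) (hreg : G.IsRegularOfDegree d) (hd : 2 ≤ d) {x : ℝ}
    (hx0 : 0 ≤ x) (hx : x * ((d : ℝ) - 1) < 1) (S : Finset V) (u : V) :
    ∑ w ∈ S, x ^ G.dist u w ≤ d / (1 - x * ((d : ℝ) - 1)) := by
  have hd1 : (1 : ℝ) ≤ (d : ℝ) - 1 := by
    have : (2 : ℝ) ≤ d := by exact_mod_cast hd
    linarith
  have hy0 : 0 ≤ x * ((d : ℝ) - 1) := mul_nonneg hx0 (by linarith)
  set R := S.sup (fun w => G.dist u w) with hR
  have hmaps : ∀ w ∈ S, G.dist u w ∈ Finset.range (R + 1) := fun w hw => by
    rw [Finset.mem_range]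
    exact Nat.lt_succ_of_le (Finset.le_sup (f := fun w => G.dist u w) hw)
  rw [← Finset.sum_fiberwise_of_maps_to hmaps]
  have h1 : ∀ r ∈ Finset.range (R + 1),
      ∑ w ∈ S.filter (fun w => G.dist u w = r), x ^ G.dist u w
        ≤ d * (x * ((d : ℝ) - 1)) ^ r := by
    intro r _
    have e1 : ∑ w ∈ S.filter (fun w => G.dist u w = r), x ^ G.dist u w
        = ((S.filter (fun w => G.dist u w = r)).card : ℝ) * x ^ r := by
      rw [Finset.sum_congr rfl (g := fun _ => x ^ r)
        (fun w hw => by rw [(Finset.mem_filter.mp hw).2])]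
      simp
    have hsub : S.filter (fun w => G.dist u w = r) ⊆ shell G u r := by
      intro w hw
      refine mem_shell hT u r w ?_
      rw [SimpleGraph.dist_comm]
      exact (Finset.mem_filter.mp hw).2
    have h2 : ((S.filter (fun w => G.dist u w = r)).card : ℝ) ≤ d * ((d : ℝ) - 1) ^ r :=
      le_trans (by exact_mod_cast Finset.card_le_card hsub) (card_shell hT hreg hd u r)
    rw [e1]
    calc _ ≤ (d * ((d : ℝ) - 1) ^ r) * x ^ r :=
          mul_le_mul_of_nonneg_right h2 (pow_nonneg hx0 _)
      _ = _ := by rw [mul_pow]; ring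
  calc _ ≤ ∑ r ∈ Finset.range (R + 1), d * (x * ((d : ℝ) - 1)) ^ r := Finset.sum_le_sum h1
    _ = d * ∑ r ∈ Finset.range (R + 1), (x * ((d : ℝ) - 1)) ^ r := by rw [Finset.mul_sum]
    _ ≤ d * (1 / (1 - x * ((d : ℝ) - 1))) := by
        refine mul_le_mul_of_nonneg_left ?_ (Nat.cast_nonneg d)
        rw [geom_sum_eq (ne_of_lt hx)]
        have hden : 0 < 1 - x * ((d : ℝ) - 1) := by linarith
        have hden' : x * ((d : ℝ) - 1) - 1 < 0 := by linarith
        have hp : 0 ≤ (x * ((d : ℝ) - 1)) ^ (R + 1) := pow_nonneg hy0 _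
        rw [show ((x * ((d : ℝ) - 1)) ^ (R + 1) - 1) / (x * ((d : ℝ) - 1) - 1)
          = (1 - (x * ((d : ℝ) - 1)) ^ (R + 1)) / (1 - x * ((d : ℝ) - 1)) by
            rw [← neg_div_neg_eq]; congr 1 <;> ring]
        exact div_le_div_of_nonneg_right (by linarith) hden.le
    _ = _ := by ring

end count

end Vale.Agent.P161
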