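import Mathlib

set_option autoImplicit false

noncomputable section
open scoped Classical
open Finset

namespace Vale.Agent.P161

variable {V : Type*}

/-- The spin configuration attached to a finite set: `+1` on `T`, `-1` off `T`. -/
def spin (T : Finset V) (v : V) : ℝ := if v ∈ T then 1 else -1

lemma spin_eq (T : Finset V) (v : V) : spin T v = 1 ∨ spin T v = -1 := by
  unfold spin; split_ifs <;> simp

lemma spin_abs (T : Finset V) (v : V) : |spin T v| = 1 := by
  rcases spin_eq T v with h | h <;> simp [h]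

lemma spin_insert_of_ne {T : Finset V} {v l : V} (h : v ≠ l) : spin (insert l T) v = spin T v := by
  unfold spin; simp [Finset.mem_insert, h]

lemma spin_insert_self (T : Finset V) (l : V) : spin (insert l T) l = 1 := by
  unfold spin; simp

lemma spin_of_not_mem {T : Finset V} {l : V} (h : l ∉ T) : spin T l = -1 := by
  unfold spin; simp [h]

/-- The factor of an edge. -/
def kap (θ : ℝ) (T : Finset V) : Sym2 V → ℝ :=
  Sym2.lift ⟨fun a b => (1 + θ * spin T a * spin T b) / 2, fun a b => by ring⟩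

@[simp] lemma kap_mk (θ : ℝ) (T : Finset V) (a b : V) :
    kap θ T s(a, b) = (1 + θ * spin T a * spin T b) / 2 := rfl

/-- Edges of `G` with both endpoints in `S`. -/
def edgesIn (G : SimpleGraph V) (S : Finset V) : Finset (Sym2 V) :=
  S.sym2.filter (fun e => e ∈ G.edgeSet)

/-- Product of the edge factors inside `S`. -/
def W (G : SimpleGraph V) (θ : ℝ) (S T : Finset V) : ℝ := ∏ e ∈ edgesIn G S, kap θ T e

lemma kap_pos {θ : ℝ} (hθ : |θ| < 1) (T : Finset V) (e : Sym2 V) : 0 < kap θ T e := by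
  induction e using Sym2.ind with
  | _ a b =>
    rw [kap_mk]
    have h := abs_lt.mp hθ
    rcases spin_eq T a with ha | ha <;> rcases spin_eq T b with hb | hb <;>
      rw [ha, hb] <;> linarith [h.1, h.2]

lemma W_pos {G : SimpleGraph V} {θ : ℝ} (hθ : |θ| < 1) (S T : Finset V) : 0 < W G θ S T :=
  Finset.prod_pos (fun e _ => kap_pos hθ T e)

lemma mem_edgesIn {G : SimpleGraph V} {S : Finset V} {a b : V} :
    s(a, b) ∈ edgesIn G S ↔ a ∈ S ∧ b ∈ S ∧ G.Adj a b := by
  simp [edgesIn, and_assoc]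

lemma edgesIn_insert {G : SimpleGraph V} {S : Finset V} {l p : V} (hl : l ∉ S) (hp : p ∈ S)
    (hadj : G.Adj l p) (huniq : ∀ q ∈ S, G.Adj l q → q = p) :
    edgesIn G (insert l S) = insert s(l, p) (edgesIn G S) := by
  ext e
  induction e using Sym2.ind with
  | _ a b =>
    simp only [Finset.mem_insert, mem_edgesIn, Sym2.eq_iff]
    constructor
    · rintro ⟨ha | ha, hb | hb, hab⟩
      · subst ha; subst hb; exact absurd hab (G.loopless.irrefl _)
      · subst ha; left; left; exact ⟨rfl, huniq b hb hab⟩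
      · subst hb; left; right; exact ⟨huniq a ha hab.symm, rfl⟩
      · right; exact ⟨ha, hb, hab⟩
    · rintro ((⟨rfl, rfl⟩ | ⟨rfl, rfl⟩) | ⟨ha, hb, hab⟩)
      · exact ⟨Or.inl rfl, Or.inr hp, hadj⟩
      · exact ⟨Or.inr hp, Or.inl rfl, hadj.symm⟩
      · exact ⟨Or.inr ha, Or.inr hb, hab⟩

lemma not_mem_edgesIn_of_not_mem {G : SimpleGraph V} {S : Finset V} {l p : V} (hl : l ∉ S) :
    s(l, p) ∉ edgesIn G S := by
  rw [mem_edgesIn]; exact fun h => hl h.1

lemma W_insert {G : SimpleGraph V} {θ : ℝ} {S : Finset V} {l p : V} (hl : l ∉ S) (hp : p ∈ S)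
    (hadj : G.Adj l p) (huniq : ∀ q ∈ S, G.Adj l q → q = p) (T : Finset V) :
    W G θ (insert l S) T = (1 + θ * spin T l * spin T p) / 2 * W G θ S T := by
  unfold W
  rw [edgesIn_insert hl hp hadj huniq, Finset.prod_insert (not_mem_edgesIn_of_not_mem hl), kap_mk]

lemma W_congr {G : SimpleGraph V} {θ : ℝ} {S T T' : Finset V}
    (h : ∀ v ∈ S, spin T v = spin T' v) : W G θ S T = W G θ S T' := by
  unfold W
  refine Finset.prod_congr rfl (fun e he => ?_)
  induction e using Sym2.ind with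
  | _ a b =>
    rw [mem_edgesIn] at he
    rw [kap_mk, kap_mk, h a he.1, h b he.2.1]

/-- The field pairing on `S`. -/
def dot (S : Finset V) (f : V → ℝ) (T : Finset V) : ℝ := ∑ v ∈ S, f v * spin T v

lemma dot_insert {S : Finset V} {l : V} (hl : l ∉ S) (f : V → ℝ) (T : Finset V) :
    dot (insert l S) f T = f l * spin T l + dot S f T := by
  unfold dot; rw [Finset.sum_insert hl]

lemma dot_congr {S T T' : Finset V} {f f' : V → ℝ} (h : ∀ v ∈ S, f v = f' v)
    (h' : ∀ v ∈ S, spin T v = spin T' v) : dot S f T = dot S f' T' := by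
  unfold dot
  exact Finset.sum_congr rfl (fun v hv => by rw [h v hv, h' v hv])

/-- Add `x` to the field at `p`. -/
def shift (f : V → ℝ) (p : V) (x : ℝ) : V → ℝ := Function.update f p (f p + x)

lemma shift_self (f : V → ℝ) (p : V) (x : ℝ) : shift f p x p = f p + x := by
  simp [shift]

lemma shift_of_ne (f : V → ℝ) {p v : V} (x : ℝ) (h : v ≠ p) : shift f p x v = f v := by
  simp [shift, h]

lemma dot_shift {S : Finset V} {p : V} (hp : p ∈ S) (f : V → ℝ) (x : ℝ) (T : Finset V) :
    dot S (shift f p x) T = dot S f T + x * spin T p := by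
  unfold dot
  rw [← Finset.add_sum_erase S _ hp, ← Finset.add_sum_erase S (fun v => f v * spin T v) hp,
    shift_self]
  have : ∑ v ∈ S.erase p, shift f p x v * spin T v = ∑ v ∈ S.erase p, f v * spin T v :=
    Finset.sum_congr rfl (fun v hv => by rw [shift_of_ne f x (Finset.ne_of_mem_erase hv)])
  rw [this]; ring

lemma dot_shift_of_not_mem {S : Finset V} {p : V} (hp : p ∉ S) (f : V → ℝ) (x : ℝ) (T : Finset V) :
    dot S (shift f p x) T = dot S f T := by
  refine dot_congr (fun v hv => ?_) (fun _ _ => rfl)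
  exact shift_of_ne f x (fun h => hp (h ▸ hv))

/-- Unnormalised tilted weight of the configuration `T`. -/
def wt (G : SimpleGraph V) (θ : ℝ) (S : Finset V) (f : V → ℝ) (T : Finset V) : ℝ :=
  W G θ S T * Real.exp (dot S f T)

lemma wt_pos {G : SimpleGraph V} {θ : ℝ} (hθ : |θ| < 1) (S : Finset V) (f : V → ℝ) (T : Finset V) :
    0 < wt G θ S f T := mul_pos (W_pos hθ S T) (Real.exp_pos _)

/-- Partition function. -/
def ZZ (G : SimpleGraph V) (θ : ℝ) (S : Finset V) (f : V → ℝ) : ℝ :=
  ∑ T ∈ S.powerset, wt G θ S f T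

lemma ZZ_pos {G : SimpleGraph V} {θ : ℝ} (hθ : |θ| < 1) (S : Finset V) (f : V → ℝ) :
    0 < ZZ G θ S f :=
  Finset.sum_pos (fun T _ => wt_pos hθ S f T) ⟨∅, by simp⟩

/-- Expectation of `g` under the Ising measure on `S` tilted by the field `f`. -/
def avg (G : SimpleGraph V) (θ : ℝ) (S : Finset V) (f : V → ℝ) (g : Finset V → ℝ) : ℝ :=
  (∑ T ∈ S.powerset, wt G θ S f T * g T) / ZZ G θ S f

/-- Magnetisation at `u`. -/
def mag (G : SimpleGraph V) (θ : ℝ) (S : Finset V) (f : V → ℝ) (u : V) : ℝ :=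
  avg G θ S f (fun T => spin T u)

lemma avg_congr_field {G : SimpleGraph V} {θ : ℝ} {S : Finset V} {f f' : V → ℝ}
    (h : ∀ v ∈ S, f v = f' v) (g : Finset V → ℝ) : avg G θ S f g = avg G θ S f' g := by
  have hwt : ∀ T, wt G θ S f T = wt G θ S f' T := fun T => by
    unfold wt; rw [dot_congr h (fun _ _ => rfl)]
  unfold avg ZZ
  simp only [hwt]

lemma mag_congr {G : SimpleGraph V} {θ : ℝ} {S : Finset V} {f f' : V → ℝ}
    (h : ∀ v ∈ S, f v = f' v) (u : V) : mag G θ S f u = mag G θ S f' u :=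
  avg_congr_field h _

lemma avg_const {G : SimpleGraph V} {θ : ℝ} (hθ : |θ| < 1) (S : Finset V) (f : V → ℝ) (c : ℝ) :
    avg G θ S f (fun _ => c) = c := by
  unfold avg
  rw [← Finset.sum_mul]
  exact mul_div_cancel_left₀ c (ZZ_pos hθ S f).ne'

lemma avg_mono {G : SimpleGraph V} {θ : ℝ} (hθ : |θ| < 1) (S : Finset V) (f : V → ℝ)
    {g h : Finset V → ℝ} (hgh : ∀ T, g T ≤ h T) : avg G θ S f g ≤ avg G θ S f h := by
  unfold avg
  refine div_le_div_of_nonneg_right ?_ (ZZ_pos hθ S f).le
  exact Finset.sum_le_sum (fun T _ => mul_le_mul_of_nonneg_left (hgh T) (wt_pos hθ S f T).le)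

lemma avg_add {G : SimpleGraph V} {θ : ℝ} (S : Finset V) (f : V → ℝ) (g h : Finset V → ℝ) :
    avg G θ S f (fun T => g T + h T) = avg G θ S f g + avg G θ S f h := by
  unfold avg
  rw [← add_div, ← Finset.sum_add_distrib]
  simp only [mul_add]

lemma avg_mul_const {G : SimpleGraph V} {θ : ℝ} (S : Finset V) (f : V → ℝ) (c : ℝ)
    (g : Finset V → ℝ) : avg G θ S f (fun T => c * g T) = c * avg G θ S f g := by
  unfold avg
  rw [mul_div_assoc', Finset.mul_sum]
  congr 1
  exact Finset.sum_congr rfl (fun T _ => by ring)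

lemma mag_le_one {G : SimpleGraph V} {θ : ℝ} (hθ : |θ| < 1) (S : Finset V) (f : V → ℝ) (u : V) :
    mag G θ S f u ≤ 1 := by
  have := avg_mono (G := G) hθ S f (g := fun T => spin T u) (h := fun _ => 1)
    (fun T => by rcases spin_eq T u with h | h <;> simp [h])
  rwa [avg_const hθ] at this

lemma neg_one_le_mag {G : SimpleGraph V} {θ : ℝ} (hθ : |θ| < 1) (S : Finset V) (f : V → ℝ) (u : V) :
    -1 ≤ mag G θ S f u := by
  have := avg_mono (G := G) hθ S f (h := fun T => spin T u) (g := fun _ => -1)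
    (fun T => by rcases spin_eq T u with h | h <;> simp [h])
  rwa [avg_const hθ] at this

lemma abs_mag_le {G : SimpleGraph V} {θ : ℝ} (hθ : |θ| < 1) (S : Finset V) (f : V → ℝ) (u : V) :
    |mag G θ S f u| ≤ 1 := abs_le.mpr ⟨neg_one_le_mag hθ S f u, mag_le_one hθ S f u⟩

end Vale.Agent.P161
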