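import Vale.Agent.P161.Dyn
import Vale.Agent.P161.Noise

set_option autoImplicit false

noncomputable section
open scoped Classical
open Finset MeasureTheory

namespace Vale.Agent.P161

variable {V : Type*} {G : SimpleGraph V} {θ δ : ℝ}

section bayes

lemma wt_shift {S : Finset V} {u : V} (hu : u ∈ S) (f : V → ℝ) (a : ℝ) (T : Finset V) :
    wt G θ S (shift f u a) T = wt G θ S f T * Real.exp (a * spin T u) := by
  unfold wt
  rw [dot_shift hu, Real.exp_add]
  ring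

lemma avg_mul_const' (S : Finset V) (f : V → ℝ) (c : ℝ) (g : Finset V → ℝ) :
    avg G θ S f (fun T => g T * c) = avg G θ S f g * c := by
  have := avg_mul_const (G := G) (θ := θ) S f c g
  rw [mul_comm, ← this]
  congr 1
  funext T
  ring

/-- The Bayes identity for one observation. -/
theorem bayes_avg (hθ : |θ| < 1) (hδ0 : 0 ≤ δ) (hδ1 : δ ≤ 1 / 2) {S : Finset V} {u : V}
    (hu : u ∈ S) (f : V → ℝ) (x : ℝ) (Γ : Finset V → ℝ) :
    (1 + δ * mag G θ S f u * gg x) * avg G θ S (shift f u (aa δ x)) Γ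
      = avg G θ S f (fun T => (1 + δ * spin T u * gg x) * Γ T) := by
  have hc : CC δ x ≠ 0 := (CC_pos x).ne'
  have key1 : ∀ Γ : Finset V → ℝ, CC δ x * ∑ T ∈ S.powerset, wt G θ S (shift f u (aa δ x)) T * Γ T
      = ∑ T ∈ S.powerset, wt G θ S f T * ((1 + δ * spin T u * gg x) * Γ T) := by
    intro Γ
    rw [Finset.mul_sum]
    refine Finset.sum_congr rfl (fun T _ => ?_)
    rw [wt_shift hu, ← bayes_factor hδ0 hδ1 x (spin T u) (spin_eq T u)]
    ring
  have hmag : |δ * mag G θ S f u * gg x| ≤ δ := by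
    rw [abs_mul, abs_mul, abs_of_nonneg hδ0]
    calc δ * |mag G θ S f u| * |gg x| ≤ δ * 1 * 1 :=
          mul_le_mul (mul_le_mul_of_nonneg_left (abs_mag_le hθ S f u) hδ0) (abs_gg_le x)
            (abs_nonneg _) (by positivity)
      _ = δ := by ring
  have hpos : 0 < 1 + δ * mag G θ S f u * gg x := by
    have := (abs_le.mp hmag).1
    linarith
  have hZ := ZZ_pos (G := G) hθ S f
  have hmagdef : ZZ G θ S f * mag G θ S f u = ∑ T ∈ S.powerset, wt G θ S f T * spin T u := by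
    unfold mag avg
    field_simp
  have key2 : CC δ x * ZZ G θ S (shift f u (aa δ x))
      = ZZ G θ S f * (1 + δ * mag G θ S f u * gg x) := by
    have h := key1 (fun _ => 1)
    simp only [mul_one] at h
    have e : ∑ T ∈ S.powerset, wt G θ S (shift f u (aa δ x)) T = ZZ G θ S (shift f u (aa δ x)) := rfl
    rw [e] at h
    rw [h]
    have e2 : ZZ G θ S f * (1 + δ * mag G θ S f u * gg x)
        = ZZ G θ S f + δ * gg x * (ZZ G θ S f * mag G θ S f u) := by ring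
    rw [e2, hmagdef, Finset.mul_sum]
    unfold ZZ
    rw [← Finset.sum_add_distrib]
    exact Finset.sum_congr rfl (fun T _ => by ring)
  have hZ' := ZZ_pos (G := G) hθ S (shift f u (aa δ x))
  unfold avg
  rw [eq_div_iff hZ.ne', ← key1 Γ]
  field_simp
  nth_rewrite 1 [mul_comm] at key2
  have : CC δ x * ZZ G θ S (shift f u (aa δ x)) = ZZ G θ S f * (1 + δ * mag G θ S f u * gg x) := by
    linarith
  linear_combination (-(∑ T ∈ S.powerset, wt G θ S (shift f u (aa δ x)) T * Γ T)) * this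

lemma avg_integral (S : Finset V) (f : V → ℝ) (g : Finset V → ℝ → ℝ)
    (hg : ∀ T, IntervalIntegrable (g T) volume 0 1) :
    ∫ x in (0 : ℝ)..1, avg G θ S f (fun T => g T x)
      = avg G θ S f (fun T => ∫ x in (0 : ℝ)..1, g T x) := by
  unfold avg
  rw [intervalIntegral.integral_div, intervalIntegral.integral_finsetSum]
  · congr 1
    refine Finset.sum_congr rfl (fun T _ => ?_)
    rw [intervalIntegral.integral_const_mul]
  · intro T _
    exact (hg T).const_mul _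

lemma avg_integral_measure {Ω : Type*} [MeasurableSpace Ω] (P : Measure Ω) (S : Finset V)
    (f : V → ℝ) (g : Finset V → Ω → ℝ) (hg : ∀ T, Integrable (g T) P) :
    ∫ x, avg G θ S f (fun T => g T x) ∂P = avg G θ S f (fun T => ∫ x, g T x ∂P) := by
  unfold avg
  rw [integral_div, integral_finsetSum]
  · congr 1
    refine Finset.sum_congr rfl (fun T _ => ?_)
    rw [integral_const_mul]
  · intro T _
    exact (hg T).const_mul _

lemma abs_avg_le (hθ : |θ| < 1) (S : Finset V) (f : V → ℝ) {g : Finset V → ℝ} {B : ℝ}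
    (hg : ∀ T, |g T| ≤ B) : |avg G θ S f g| ≤ B := by
  have h1 := avg_mono (G := G) hθ S f (g := g) (h := fun _ => B) (fun T => (abs_le.mp (hg T)).2)
  have h2 := avg_mono (G := G) hθ S f (g := fun _ => -B) (h := g) (fun T => (abs_le.mp (hg T)).1)
  rw [avg_const hθ] at h1 h2
  exact abs_le.mpr ⟨h2, h1⟩

end bayes

section plant

/-- The planted observation array: coordinates of `L` are observed through the channel from the
configuration `T`, all others stay as in `y`. -/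
def plantArr (δ : ℝ) (T : Finset V) (L : List (V × ℕ)) (y z : V × ℕ → ℝ) : V × ℕ → ℝ :=
  fun c => if c ∈ L then Tq δ (spin T c.1) (z c) else y c

lemma plantArr_nil (T : Finset V) (y z : V × ℕ → ℝ) : plantArr δ T [] y z = y := by
  funext c; simp [plantArr]

lemma plantArr_cons (T : Finset V) (c : V × ℕ) (L : List (V × ℕ)) (y z : V × ℕ → ℝ) :
    plantArr δ T (c :: L) y z
      = plantArr δ T L (Function.update y c (Tq δ (spin T c.1) (z c))) z := by
  funext c'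
  unfold plantArr
  by_cases h : c' = c
  · subst h
    by_cases h2 : c' ∈ L <;> simp [h2]
  · by_cases h2 : c' ∈ L
    · simp [h2]
    · simp [h, h2, Function.update_of_ne h]

lemma plantArr_congr_list (T : Finset V) {L L' : List (V × ℕ)} {y y' z z' : V × ℕ → ℝ} {c : V × ℕ}
    (h : c ∈ L) (h' : c ∈ L') (hz : z c = z' c) :
    plantArr δ T L y z c = plantArr δ T L' y' z' c := by
  unfold plantArr
  rw [if_pos h, if_pos h', hz]

lemma plantArr_indep {c : V × ℕ} {L : List (V × ℕ)} (hc : c ∉ L) (T : Finset V) (y : V × ℕ → ℝ)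
    (Ψ : (V × ℕ → ℝ) → ℝ) : IndepOf c (fun z => Ψ (plantArr δ T L y z)) := by
  intro ω t
  simp only
  congr 1
  funext c'
  unfold plantArr
  split_ifs with h
  · rw [Function.update_of_ne (ne_of_mem_of_not_mem h hc)]
  · rfl

lemma continuous_plantArr (hδ0 : 0 ≤ δ) (hδ1 : δ ≤ 1 / 2) (T : Finset V) (L : List (V × ℕ)) :
    Continuous (fun q : (V × ℕ → ℝ) × (V × ℕ → ℝ) => plantArr δ T L q.1 q.2) := by
  refine continuous_pi (fun c => ?_)
  unfold plantArr
  by_cases h : c ∈ L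
  · simp only [h, if_true]
    exact (continuous_Tq hδ0 hδ1).comp (continuous_const.prodMk
      ((continuous_apply c).comp continuous_snd))
  · simp only [h, if_false]
    exact (continuous_apply c).comp continuous_fst

lemma gg_of_mem {x : ℝ} (hx : x ∈ Set.Icc (0 : ℝ) 1) : gg x = 2 * x - 1 := by
  unfold gg
  rw [proj_of_mem hx.1 hx.2]

/-- The law of the scheme: the posterior-weighted end state is a mixture of planted arrays. -/
theorem law_list (hθ : |θ| < 1) (hδ0 : 0 ≤ δ) (hδ1 : δ ≤ 1 / 2) (Λ : Finset V)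
    {Ψ : (V × ℕ → ℝ) → ℝ} (hΨ : Continuous Ψ) (ξ : Finset V → ℝ) (L : List (V × ℕ))
    (hL : L.Nodup) (hLΛ : ∀ c ∈ L, c.1 ∈ Λ) (st : St V) (z₀ : V × ℕ → ℝ) :
    Pl L (fun z => avg G θ Λ (run G θ δ Λ L st z).1 ξ * Ψ (run G θ δ Λ L st z).2) z₀
      = avg G θ Λ st.1 (fun T => ξ T * Pl L (fun z => Ψ (plantArr δ T L st.2 z)) z₀) := by
  induction L generalizing st z₀ with
  | nil =>
    simp only [Pl, run_nil, plantArr_nil]
    rw [avg_mul_const']
  | cons c L ih =>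
    have hn := List.nodup_cons.mp hL
    have hcΛ : c.1 ∈ Λ := hLΛ c (List.mem_cons_self ..)
    have hLΛ' : ∀ c' ∈ L, c'.1 ∈ Λ := fun c' hc' => hLΛ c' (List.mem_cons_of_mem _ hc')
    set u := c.1 with hu
    set m := mag G θ Λ st.1 u with hm
    have hmabs : |m| ≤ 1 := abs_mag_le hθ Λ st.1 u
    -- the conditional integrals of the planted model
    let H : Finset V → ℝ → ℝ := fun T x =>
      Pl L (fun z => Ψ (plantArr δ T L (Function.update st.2 c x) z)) z₀
    have hHcont : ∀ T, Continuous (H T) := by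
      intro T
      have h1 : Continuous (Function.uncurry (fun (x : ℝ) (z : V × ℕ → ℝ) =>
          Ψ (plantArr δ T L (Function.update st.2 c x) z))) := by
        have hc1 : Continuous (fun a : ℝ × (V × ℕ → ℝ) => Function.update st.2 c a.1) :=
          Continuous.update continuous_const c continuous_fst
        have hc : Continuous (fun a : ℝ × (V × ℕ → ℝ) =>
            ((Function.update st.2 c a.1, a.2) : (V × ℕ → ℝ) × (V × ℕ → ℝ))) :=
          hc1.prodMk continuous_snd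
        exact hΨ.comp ((continuous_plantArr hδ0 hδ1 T L).comp hc)
      have h2 := continuous_Pl_param L h1
      exact h2.comp (continuous_id.prodMk continuous_const)
    -- the left-hand side, slice by slice
    have h1 : ∀ t, Pl L (fun z => avg G θ Λ (run G θ δ Λ (c :: L) st z).1 ξ
          * Ψ (run G θ δ Λ (c :: L) st z).2) (Function.update z₀ c t)
        = avg G θ Λ (shift st.1 u (aa δ (Tq δ m t))) (fun T => ξ T * H T (Tq δ m t)) := by
      intro t
      have e1 := Pl_congr_coord (c := c) (L := L) hn.1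
        (F := fun z => avg G θ Λ (run G θ δ Λ (c :: L) st z).1 ξ
          * Ψ (run G θ δ Λ (c :: L) st z).2)
        (G := fun z => avg G θ Λ (run G θ δ Λ L (stepS G θ δ Λ c st t) z).1 ξ
          * Ψ (run G θ δ Λ L (stepS G θ δ Λ c st t) z).2)
        (w := Function.update z₀ c t) (fun z hz => by
          rw [Function.update_self] at hz
          simp only [run_cons, hz])
      rw [e1, ih hn.2 hLΛ' (stepS G θ δ Λ c st t) (Function.update z₀ c t)]
      have e2 : (stepS G θ δ Λ c st t).1 = shift st.1 u (aa δ (Tq δ m t)) := rfl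
      have e3 : (stepS G θ δ Λ c st t).2 = Function.update st.2 c (Tq δ m t) := rfl
      rw [e2, e3]
      congr 1
      funext T
      congr 1
      exact indepOf_Pl L (plantArr_indep hn.1 T _ Ψ) z₀ t
    -- the right-hand side, slice by slice
    have h2 : ∀ T t, Pl L (fun z => Ψ (plantArr δ T (c :: L) st.2 z)) (Function.update z₀ c t)
        = H T (Tq δ (spin T u) t) := by
      intro T t
      have e1 := Pl_congr_coord (c := c) (L := L) hn.1
        (F := fun z => Ψ (plantArr δ T (c :: L) st.2 z))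
        (G := fun z => Ψ (plantArr δ T L (Function.update st.2 c (Tq δ (spin T u) t)) z))
        (w := Function.update z₀ c t) (fun z hz => by
          rw [Function.update_self] at hz
          rw [plantArr_cons, hz])
      rw [e1]
      exact indepOf_Pl L (plantArr_indep hn.1 T _ Ψ) z₀ t
    have hL : Pl (c :: L) (fun z => avg G θ Λ (run G θ δ Λ (c :: L) st z).1 ξ
          * Ψ (run G θ δ Λ (c :: L) st z).2) z₀
        = ∫ t in (0 : ℝ)..1,
          avg G θ Λ (shift st.1 u (aa δ (Tq δ m t))) (fun T => ξ T * H T (Tq δ m t)) := by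
      simp only [Pl, Pc]
      exact intervalIntegral.integral_congr (fun t _ => h1 t)
    have hR : ∀ T, Pl (c :: L) (fun z => Ψ (plantArr δ T (c :: L) st.2 z)) z₀
        = ∫ x in (0 : ℝ)..1, (1 + δ * spin T u * (2 * x - 1)) * H T x := by
      intro T
      simp only [Pl, Pc]
      rw [← integral_Tq hδ0 hδ1 (by rw [spin_abs]) (H T)]
      exact intervalIntegral.integral_congr (fun t _ => h2 T t)
    rw [hL, integral_Tq hδ0 hδ1 hmabs
      (fun x => avg G θ Λ (shift st.1 u (aa δ x)) (fun T => ξ T * H T x))]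
    have h3 : ∀ x ∈ Set.uIcc (0 : ℝ) 1,
        (1 + δ * m * (2 * x - 1)) * avg G θ Λ (shift st.1 u (aa δ x)) (fun T => ξ T * H T x)
        = avg G θ Λ st.1 (fun T => ξ T * ((1 + δ * spin T u * (2 * x - 1)) * H T x)) := by
      intro x hx
      rw [Set.uIcc_of_le zero_le_one] at hx
      have := bayes_avg (G := G) hθ hδ0 hδ1 hcΛ st.1 x (fun T => ξ T * H T x)
      rw [gg_of_mem hx] at this
      rw [this]
      congr 1
      funext T
      ring
    rw [intervalIntegral.integral_congr h3]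
    have hint : ∀ T, IntervalIntegrable
        (fun x => ξ T * ((1 + δ * spin T u * (2 * x - 1)) * H T x)) volume 0 1 := by
      intro T
      apply Continuous.intervalIntegrable
      have := hHcont T
      fun_prop
    rw [avg_integral Λ st.1 (fun T x => ξ T * ((1 + δ * spin T u * (2 * x - 1)) * H T x)) hint]
    congr 1
    funext T
    rw [hR T, intervalIntegral.integral_const_mul]

end plant

section integrated

variable [Countable V]

lemma integrable_of_bdd {F : (V × ℕ → ℝ) → ℝ} (hF : Continuous F) {M : ℝ} (hb : ∀ z, |F z| ≤ M) :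
    Integrable F (PP (V × ℕ)) :=
  Integrable.of_bound hF.aestronglyMeasurable M (Filter.Eventually.of_forall hb)

/-- Integrated form of the law of the scheme. -/
theorem law_integrated (hθ : |θ| < 1) (hδ0 : 0 ≤ δ) (hδ1 : δ ≤ 1 / 2) (Λ : Finset V)
    {Ψ : (V × ℕ → ℝ) → ℝ} (hΨ : Continuous Ψ) {M : ℝ} (hΨb : ∀ y, |Ψ y| ≤ M)
    {ξ : Finset V → ℝ} {B : ℝ} (hξ : ∀ T, |ξ T| ≤ B) (L : List (V × ℕ))
    (hL : L.Nodup) (hLΛ : ∀ c ∈ L, c.1 ∈ Λ) (st : St V) :
    ∫ z, avg G θ Λ (run G θ δ Λ L st z).1 ξ * Ψ (run G θ δ Λ L st z).2 ∂(PP (V × ℕ))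
      = avg G θ Λ st.1 (fun T => ξ T * ∫ z, Ψ (plantArr δ T L st.2 z) ∂(PP (V × ℕ))) := by
  have hM : 0 ≤ M := (abs_nonneg _).trans (hΨb (fun _ => 0))
  have hB : 0 ≤ B := (abs_nonneg _).trans (hξ ∅)
  have hcont : Continuous (fun z => avg G θ Λ (run G θ δ Λ L st z).1 ξ
      * Ψ (run G θ δ Λ L st z).2) := by
    have hr : Continuous (fun z => run G θ δ Λ L st z) :=
      (continuous_run hθ hδ0 hδ1 Λ L).comp (continuous_const.prodMk continuous_id)
    exact ((continuous_avg hθ Λ ξ).comp (continuous_fst.comp hr)).mul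
      (hΨ.comp (continuous_snd.comp hr))
  have hbd : ∀ z, |avg G θ Λ (run G θ δ Λ L st z).1 ξ * Ψ (run G θ δ Λ L st z).2| ≤ B * M := by
    intro z
    rw [abs_mul]
    exact mul_le_mul (abs_avg_le hθ Λ _ hξ) (hΨb _) (abs_nonneg _) hB
  rw [← integral_Pl L hcont hbd]
  have hpl : ∀ T, Continuous (fun z => Ψ (plantArr δ T L st.2 z)) := fun T =>
    hΨ.comp ((continuous_plantArr hδ0 hδ1 T L).comp (continuous_const.prodMk continuous_id))
  have hplb : ∀ T z, |Ψ (plantArr δ T L st.2 z)| ≤ M := fun T z => hΨb _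
  simp only [law_list hθ hδ0 hδ1 Λ hΨ ξ L hL hLΛ st]
  rw [avg_integral_measure (PP (V × ℕ)) Λ st.1
    (fun T z => ξ T * Pl L (fun z => Ψ (plantArr δ T L st.2 z)) z)]
  · congr 1
    funext T
    rw [integral_const_mul, integral_Pl L (hpl T) (hplb T)]
  · intro T
    refine Integrable.const_mul ?_ _
    exact integrable_of_bdd (continuous_Pl L (hpl T)) (fun z => Pl_abs_le L (hplb T) z)

end integrated

section marginal

lemma shift_zero (f : V → ℝ) (p : V) : shift f p 0 = f := by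
  funext w
  unfold shift
  by_cases h : w = p
  · subst h; simp
  · simp [Function.update_of_ne h]

/-- Marginals of the free measure on a convex set are free. -/
theorem avg_marginal (hT : G.IsTree) (hθ : |θ| < 1) {Λ₁ Λ₂ : Finset V} (h₁ : IsConvexSet G Λ₁)
    (h₂ : IsConvexSet G Λ₂) (hne : Λ₁.Nonempty) (hsub : Λ₁ ⊆ Λ₂) {Γ : Finset V → ℝ}
    (hΓ : ∀ T T', (∀ v ∈ Λ₁, spin T v = spin T' v) → Γ T = Γ T') :
    avg G θ Λ₂ 0 Γ = avg G θ Λ₁ 0 Γ := by
  have := convex_growth' hT h₂ h₁ hne hsub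
    (fun S => Λ₁ ⊆ S ∧ avg G θ S 0 Γ = avg G θ Λ₁ 0 Γ) ?_ ⟨Finset.Subset.refl _, rfl⟩
  · exact this.2
  · intro S₁ l p _ _ _ hl hp hadj hu hP
    refine ⟨hP.1.trans (Finset.subset_insert _ _), ?_⟩
    rw [avg_insert hθ hl hp hadj hu 0 Γ (fun T _ => hΓ _ _ (fun v hv =>
      spin_insert_of_ne (fun e => hl (e ▸ hP.1 hv))))]
    have : shift (0 : V → ℝ) p (cav θ ((0 : V → ℝ) l)) = 0 := by
      simp only [Pi.zero_apply]
      rw [cav_zero, shift_zero]
    rw [this]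
    exact hP.2

end marginal

section transfer

variable [Countable V]

/-- The transfer principle: a bigger volume, seen through a smaller convex volume, has the law of
the smaller volume. -/
theorem transfer (hT : G.IsTree) (hθ : |θ| < 1) (hδ0 : 0 ≤ δ) (hδ1 : δ ≤ 1 / 2)
    {Λ₁ Λ₂ : Finset V} (h₁ : IsConvexSet G Λ₁) (h₂ : IsConvexSet G Λ₂) (hne : Λ₁.Nonempty)
    (hsub : Λ₁ ⊆ Λ₂) {A : List (V × ℕ)} (hA : A.Nodup) (hAΛ : ∀ c ∈ A, c.1 ∈ Λ₂)
    {ξ : Finset V → ℝ} {B : ℝ} (hξ : ∀ T, |ξ T| ≤ B)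
    (hξ' : ∀ T T', (∀ v ∈ Λ₁, spin T v = spin T' v) → ξ T = ξ T')
    {Ψ : (V × ℕ → ℝ) → ℝ} (hΨ : Continuous Ψ) {M : ℝ} (hΨb : ∀ y, |Ψ y| ≤ M)
    (hΨ' : ∀ y y', (∀ c ∈ A.filter (fun c => c.1 ∈ Λ₁), y c = y' c) → Ψ y = Ψ y') :
    ∫ z, avg G θ Λ₂ (run G θ δ Λ₂ A (0, 0) z).1 ξ * Ψ (run G θ δ Λ₂ A (0, 0) z).2 ∂(PP (V × ℕ))
      = ∫ z, avg G θ Λ₁ (run G θ δ Λ₁ (A.filter (fun c => c.1 ∈ Λ₁)) (0, 0) z).1 ξ
          * Ψ (run G θ δ Λ₁ (A.filter (fun c => c.1 ∈ Λ₁)) (0, 0) z).2 ∂(PP (V × ℕ)) := by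
  set A₁ := A.filter (fun c => c.1 ∈ Λ₁) with hA₁
  have hA₁nd : A₁.Nodup := hA.filter _
  have hA₁mem : ∀ c ∈ A₁, c.1 ∈ Λ₁ ∧ c ∈ A := by
    intro c hc
    have := List.mem_filter.mp hc
    exact ⟨by simpa using this.2, this.1⟩
  rw [law_integrated hθ hδ0 hδ1 Λ₂ hΨ hΨb hξ A hA hAΛ,
    law_integrated hθ hδ0 hδ1 Λ₁ hΨ hΨb hξ A₁ hA₁nd (fun c hc => (hA₁mem c hc).1)]
  simp only
  have e : ∀ T z, Ψ (plantArr δ T A (0 : V × ℕ → ℝ) z) = Ψ (plantArr δ T A₁ 0 z) := by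
    intro T z
    refine hΨ' _ _ (fun c hc => ?_)
    exact plantArr_congr_list T (hA₁mem c hc).2 hc rfl
  simp only [e]
  refine avg_marginal hT hθ h₁ h₂ hne hsub (fun T T' hTT => ?_)
  rw [hξ' T T' hTT]
  congr 2
  funext z
  congr 1
  funext c
  unfold plantArr
  split_ifs with hc
  · rw [hTT c.1 (hA₁mem c hc).1]
  · rfl

end transfer

section pythagoras

variable [Countable V]

lemma continuous_magOfFields (hθ : |θ| < 1) (hδ0 : 0 ≤ δ) (hδ1 : δ ≤ 1 / 2) (Λ : Finset V)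
    (A : List (V × ℕ)) (u : V) :
    Continuous (fun y : V × ℕ → ℝ => mag G θ Λ (fieldsFrom δ 0 A y) u) :=
  (continuous_mag hθ Λ u).comp
    ((continuous_fieldsFrom hδ0 hδ1 A).comp (continuous_const.prodMk continuous_id))

/-- The orthogonality relation behind the monotonicity of the overlap. -/
theorem pythagoras (hT : G.IsTree) (hθ : |θ| < 1) (hδ0 : 0 ≤ δ) (hδ1 : δ ≤ 1 / 2)
    {Λ₁ Λ₂ : Finset V} (h₁ : IsConvexSet G Λ₁) (h₂ : IsConvexSet G Λ₂) (hne : Λ₁.Nonempty)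
    (hsub : Λ₁ ⊆ Λ₂) {A : List (V × ℕ)} (hA : A.Nodup) (hAΛ : ∀ c ∈ A, c.1 ∈ Λ₂)
    {u : V} (hu : u ∈ Λ₁) :
    ∫ z, (mag G θ Λ₁ (run G θ δ Λ₂ A (0, 0) z).1 u - mag G θ Λ₂ (run G θ δ Λ₂ A (0, 0) z).1 u) ^ 2
        ∂(PP (V × ℕ))
      = ∫ z, (mag G θ Λ₂ (run G θ δ Λ₂ A (0, 0) z).1 u) ^ 2 ∂(PP (V × ℕ))
        - ∫ z, (mag G θ Λ₁ (run G θ δ Λ₁ (A.filter (fun c => c.1 ∈ Λ₁)) (0, 0) z).1 u) ^ 2
            ∂(PP (V × ℕ)) := by
  set A₁ := A.filter (fun c => c.1 ∈ Λ₁) with hA₁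
  have hA₁nd : A₁.Nodup := hA.filter _
  let Ψ : (V × ℕ → ℝ) → ℝ := fun y => mag G θ Λ₁ (fieldsFrom δ 0 A₁ y) u
  have hΨ : Continuous Ψ := continuous_magOfFields hθ hδ0 hδ1 Λ₁ A₁ u
  have hΨb : ∀ y, |Ψ y| ≤ 1 := fun y => abs_mag_le hθ _ _ _
  have hΨ' : ∀ y y', (∀ c ∈ A₁, y c = y' c) → Ψ y = Ψ y' := by
    intro y y' h
    simp only [Ψ]
    rw [fieldsFrom_congr δ 0 h]
  -- identifying the magnetisations
  have e₂ : ∀ z, mag G θ Λ₁ (run G θ δ Λ₂ A (0, 0) z).1 u = Ψ (run G θ δ Λ₂ A (0, 0) z).2 := by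
    intro z
    refine mag_congr (fun w hw => ?_) u
    rw [run_fst G θ δ Λ₂ hA (0, 0) z]
    exact (fieldsFrom_filter δ Λ₁ (fun _ _ => rfl) A _ w hw).symm
  have e₁ : ∀ z, mag G θ Λ₁ (run G θ δ Λ₁ A₁ (0, 0) z).1 u = Ψ (run G θ δ Λ₁ A₁ (0, 0) z).2 := by
    intro z
    rw [run_fst G θ δ Λ₁ hA₁nd (0, 0) z]
  have hone : ∀ (Λ : Finset V) (f : V → ℝ), avg G θ Λ f (fun _ => (1 : ℝ)) = 1 :=
    fun Λ f => avg_const hθ Λ f 1
  -- transfer with the constant test function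
  have t1 := transfer (G := G) hT hθ hδ0 hδ1 h₁ h₂ hne hsub hA hAΛ (ξ := fun _ => 1) (B := 1)
    (by simp) (fun _ _ _ => rfl) (Ψ := fun y => Ψ y ^ 2) (hΨ.pow 2) (M := 1)
    (fun y => by rw [abs_pow]; exact pow_le_one₀ (abs_nonneg _) (hΨb y))
    (fun y y' h => by rw [hΨ' y y' h])
  simp only [hone, one_mul] at t1
  rw [← hA₁] at t1
  -- transfer with the spin at `u`
  have t2 := transfer (G := G) hT hθ hδ0 hδ1 h₁ h₂ hne hsub hA hAΛ (ξ := fun T => spin T u) (B := 1)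
    (fun T => by rw [spin_abs]) (fun T T' h => h u hu) (Ψ := Ψ) hΨ (M := 1) hΨb hΨ'
  have t2' : ∀ (Λ : Finset V) (f : V → ℝ), avg G θ Λ f (fun T => spin T u) = mag G θ Λ f u :=
    fun _ _ => rfl
  simp only [t2'] at t2
  rw [← hA₁] at t2
  simp only [e₁] at t2
  simp only [e₂, e₁]
  have hrun : ∀ (Λ : Finset V) (L : List (V × ℕ)), Continuous (fun z => run G θ δ Λ L (0, 0) z) :=
    fun Λ L => (continuous_run hθ hδ0 hδ1 Λ L).comp (continuous_const.prodMk continuous_id)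
  have cM₂ : Continuous (fun z => mag G θ Λ₂ (run G θ δ Λ₂ A (0, 0) z).1 u) :=
    (continuous_mag hθ Λ₂ u).comp (continuous_fst.comp (hrun Λ₂ A))
  have cΨ₂ : Continuous (fun z => Ψ (run G θ δ Λ₂ A (0, 0) z).2) :=
    hΨ.comp (continuous_snd.comp (hrun Λ₂ A))
  have bM₂ : ∀ z, |mag G θ Λ₂ (run G θ δ Λ₂ A (0, 0) z).1 u| ≤ 1 := fun z => abs_mag_le hθ _ _ _
  have bΨ₂ : ∀ z, |Ψ (run G θ δ Λ₂ A (0, 0) z).2| ≤ 1 := fun z => hΨb _
  have i1 : Integrable (fun z => (Ψ (run G θ δ Λ₂ A (0, 0) z).2) ^ 2) (PP (V × ℕ)) :=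
    integrable_of_bdd (cΨ₂.pow 2) (M := 1) (fun z => by
      rw [abs_pow]; exact pow_le_one₀ (abs_nonneg _) (bΨ₂ z))
  have i2 : Integrable (fun z => (mag G θ Λ₂ (run G θ δ Λ₂ A (0, 0) z).1 u) ^ 2) (PP (V × ℕ)) :=
    integrable_of_bdd (cM₂.pow 2) (M := 1) (fun z => by
      rw [abs_pow]; exact pow_le_one₀ (abs_nonneg _) (bM₂ z))
  have i3 : Integrable (fun z => mag G θ Λ₂ (run G θ δ Λ₂ A (0, 0) z).1 u
      * Ψ (run G θ δ Λ₂ A (0, 0) z).2) (PP (V × ℕ)) :=
    integrable_of_bdd (cM₂.mul cΨ₂) (M := 1) (fun z => by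
      rw [abs_mul]
      exact mul_le_one₀ (bM₂ z) (abs_nonneg _) (bΨ₂ z))
  have hexp : ∀ z, (Ψ (run G θ δ Λ₂ A (0, 0) z).2 - mag G θ Λ₂ (run G θ δ Λ₂ A (0, 0) z).1 u) ^ 2
      = (Ψ (run G θ δ Λ₂ A (0, 0) z).2) ^ 2
        - 2 * (mag G θ Λ₂ (run G θ δ Λ₂ A (0, 0) z).1 u * Ψ (run G θ δ Λ₂ A (0, 0) z).2)
        + (mag G θ Λ₂ (run G θ δ Λ₂ A (0, 0) z).1 u) ^ 2 := fun z => by ring
  simp only [hexp]
  have i4 : Integrable (fun z => (Ψ (run G θ δ Λ₂ A (0, 0) z).2) ^ 2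
      - 2 * (mag G θ Λ₂ (run G θ δ Λ₂ A (0, 0) z).1 u * Ψ (run G θ δ Λ₂ A (0, 0) z).2))
      (PP (V × ℕ)) := i1.sub (i3.const_mul 2)
  rw [integral_add i4 i2, integral_sub i1 (i3.const_mul 2), integral_const_mul, t1, t2]
  have e3 : ∀ z, Ψ (run G θ δ Λ₁ A₁ (0, 0) z).2 * Ψ (run G θ δ Λ₁ A₁ (0, 0) z).2
      = (Ψ (run G θ δ Λ₁ A₁ (0, 0) z).2) ^ 2 := fun z => by ring
  simp only [e3]
  ring

end pythagoras

end Vale.Agent.P161
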