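import Vale.Agent.P161.Ising

set_option autoImplicit false

noncomputable section
open scoped Classical
open Finset

namespace Vale.Agent.P161

variable {V : Type*}

def Ap (θ x : ℝ) : ℝ := Real.cosh x + θ * Real.sinh x
def Am (θ x : ℝ) : ℝ := Real.cosh x - θ * Real.sinh x

lemma Ap_eq (θ x : ℝ) : Ap θ x = (1 + θ) / 2 * Real.exp x + (1 - θ) / 2 * Real.exp (-x) := by
  unfold Ap; rw [Real.cosh_eq, Real.sinh_eq]; ring

lemma Am_eq (θ x : ℝ) : Am θ x = (1 - θ) / 2 * Real.exp x + (1 + θ) / 2 * Real.exp (-x) := by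
  unfold Am; rw [Real.cosh_eq, Real.sinh_eq]; ring

lemma Ap_pos {θ : ℝ} (hθ : |θ| < 1) (x : ℝ) : 0 < Ap θ x := by
  rw [Ap_eq]
  have h := abs_lt.mp hθ
  have := Real.exp_pos x
  have := Real.exp_pos (-x)
  have h1 : 0 < 1 + θ := by linarith [h.1]
  have h2 : 0 < 1 - θ := by linarith [h.2]
  positivity

lemma Am_pos {θ : ℝ} (hθ : |θ| < 1) (x : ℝ) : 0 < Am θ x := by
  rw [Am_eq]
  have h := abs_lt.mp hθ
  have := Real.exp_pos x
  have := Real.exp_pos (-x)
  have h1 : 0 < 1 + θ := by linarith [h.1]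
  have h2 : 0 < 1 - θ := by linarith [h.2]
  positivity

/-- The cavity field transmitted by a leaf with field `x`. -/
def cav (θ x : ℝ) : ℝ := (Real.log (Ap θ x) - Real.log (Am θ x)) / 2

def Cc (θ x : ℝ) : ℝ := Real.exp ((Real.log (Ap θ x) + Real.log (Am θ x)) / 2)

lemma Cc_pos (θ x : ℝ) : 0 < Cc θ x := Real.exp_pos _

lemma Cc_mul_exp_cav {θ : ℝ} (hθ : |θ| < 1) (x : ℝ) : Cc θ x * Real.exp (cav θ x) = Ap θ x := by
  unfold Cc cav
  rw [← Real.exp_add]
  have : (Real.log (Ap θ x) + Real.log (Am θ x)) / 2 + (Real.log (Ap θ x) - Real.log (Am θ x)) / 2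
      = Real.log (Ap θ x) := by ring
  rw [this, Real.exp_log (Ap_pos hθ x)]

lemma Cc_mul_exp_neg_cav {θ : ℝ} (hθ : |θ| < 1) (x : ℝ) :
    Cc θ x * Real.exp (-cav θ x) = Am θ x := by
  unfold Cc cav
  rw [← Real.exp_add]
  have : (Real.log (Ap θ x) + Real.log (Am θ x)) / 2 + -((Real.log (Ap θ x) - Real.log (Am θ x)) / 2)
      = Real.log (Am θ x) := by ring
  rw [this, Real.exp_log (Am_pos hθ x)]

/-- The key identity of the leaf reduction, `σ = ± 1`. -/
lemma bracket_eq {θ : ℝ} (hθ : |θ| < 1) (x σ : ℝ) (hσ : σ = 1 ∨ σ = -1) :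
    (1 - θ * σ) / 2 * Real.exp (-x) + (1 + θ * σ) / 2 * Real.exp x
      = Cc θ x * Real.exp (cav θ x * σ) := by
  rcases hσ with rfl | rfl
  · have : cav θ x * 1 = cav θ x := by ring
    rw [this, Cc_mul_exp_cav hθ, Ap_eq]; ring
  · have : cav θ x * -1 = -cav θ x := by ring
    rw [this, Cc_mul_exp_neg_cav hθ, Am_eq]; ring

lemma cav_zero {θ : ℝ} : cav θ 0 = 0 := by
  unfold cav Ap Am; simp

lemma Cc_zero {θ : ℝ} : Cc θ 0 = 1 := by
  unfold Cc Ap Am; simp

lemma Ap_mul_Am_ge_one {θ : ℝ} (hθ : |θ| < 1) (x : ℝ) : 1 ≤ Ap θ x * Am θ x := by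
  unfold Ap Am
  have h1 := Real.cosh_sq x
  have h2 : θ ^ 2 ≤ 1 := by
    have := abs_lt.mp hθ
    nlinarith [this.1, this.2]
  have h3 := sq_nonneg (Real.sinh x)
  nlinarith [mul_nonneg (sub_nonneg.mpr h2) h3]

lemma hasDerivAt_Ap (θ x : ℝ) : HasDerivAt (Ap θ) (Real.sinh x + θ * Real.cosh x) x := by
  unfold Ap
  exact (Real.hasDerivAt_cosh x).add ((Real.hasDerivAt_sinh x).const_mul θ)

lemma hasDerivAt_Am (θ x : ℝ) : HasDerivAt (Am θ) (Real.sinh x - θ * Real.cosh x) x := by
  unfold Am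
  exact (Real.hasDerivAt_cosh x).sub ((Real.hasDerivAt_sinh x).const_mul θ)

lemma hasDerivAt_cav {θ : ℝ} (hθ : |θ| < 1) (x : ℝ) :
    HasDerivAt (cav θ) (θ / (Ap θ x * Am θ x)) x := by
  have h1 := (hasDerivAt_Ap θ x).log (Ap_pos hθ x).ne'
  have h2 := (hasDerivAt_Am θ x).log (Am_pos hθ x).ne'
  have h3 : HasDerivAt (cav θ) (((Real.sinh x + θ * Real.cosh x) / Ap θ x
      - (Real.sinh x - θ * Real.cosh x) / Am θ x) / 2) x := (h1.sub h2).div_const 2
  have hp := (Ap_pos hθ x).ne'
  have hm := (Am_pos hθ x).ne'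
  refine h3.congr_deriv ?_
  have h4 := Real.cosh_sq x
  field_simp
  unfold Ap Am
  linear_combination (2 * θ) * h4

lemma cav_lip {θ : ℝ} (h0 : 0 ≤ θ) (h1 : θ < 1) (x y : ℝ) :
    |cav θ x - cav θ y| ≤ θ * |x - y| := by
  have hθ : |θ| < 1 := by rw [abs_of_nonneg h0]; exact h1
  have := Convex.norm_image_sub_le_of_norm_hasDerivWithin_le (f := cav θ)
    (f' := fun x => θ / (Ap θ x * Am θ x)) (s := Set.univ) (C := θ) (x := y) (y := x)
    (fun z _ => (hasDerivAt_cav hθ z).hasDerivWithinAt)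
    (fun z _ => by
      have hpos := Ap_mul_Am_ge_one hθ z
      rw [Real.norm_eq_abs, abs_of_nonneg (div_nonneg h0 (by linarith))]
      exact div_le_self h0 hpos)
    convex_univ (Set.mem_univ _) (Set.mem_univ _)
  simpa [Real.norm_eq_abs] using this

/-- Regression of the spin of a leaf on that of its parent. -/
def BB (θ x : ℝ) : ℝ := θ / (Ap θ x * Am θ x)

def AA (θ x : ℝ) : ℝ := (Real.sinh x * (Am θ x + Ap θ x) / 2 - θ * Real.cosh x * (Ap θ x - Am θ x) / 2)
  / (Ap θ x * Am θ x)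

lemma BB_nonneg {θ : ℝ} (h0 : 0 ≤ θ) (hθ : |θ| < 1) (x : ℝ) : 0 ≤ BB θ x :=
  div_nonneg h0 (by linarith [Ap_mul_Am_ge_one hθ x])

lemma BB_le {θ : ℝ} (h0 : 0 ≤ θ) (hθ : |θ| < 1) (x : ℝ) : BB θ x ≤ θ :=
  div_le_self h0 (Ap_mul_Am_ge_one hθ x)

lemma leaf_regress {θ : ℝ} (hθ : |θ| < 1) (x σ : ℝ) (hσ : σ = 1 ∨ σ = -1) :
    Real.sinh x + θ * σ * Real.cosh x
      = (AA θ x + BB θ x * σ) * (Real.cosh x + θ * σ * Real.sinh x) := by
  have hp := (Ap_pos hθ x).ne'
  have hm := (Am_pos hθ x).ne'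
  have h4 := Real.cosh_sq x
  unfold AA BB
  rcases hσ with rfl | rfl
  · have e : Real.cosh x + θ * 1 * Real.sinh x = Ap θ x := by unfold Ap; ring
    rw [e]
    field_simp
    unfold Ap Am
    linear_combination (2 * θ) * h4
  · have e : Real.cosh x + θ * -1 * Real.sinh x = Am θ x := by unfold Am; ring
    rw [e]
    field_simp
    unfold Ap Am
    linear_combination (-2 * θ) * h4

section leaf

variable {G : SimpleGraph V} {θ : ℝ} {S : Finset V} {l p : V}

lemma wt_pair (hθ : |θ| < 1) (hl : l ∉ S) (hp : p ∈ S) (hadj : G.Adj l p)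
    (huniq : ∀ q ∈ S, G.Adj l q → q = p) (f : V → ℝ) {T : Finset V} (hT : T ⊆ S) :
    wt G θ (insert l S) f T + wt G θ (insert l S) f (insert l T)
      = Cc θ (f l) * wt G θ S (shift f p (cav θ (f l))) T := by
  have hlT : l ∉ T := fun h => hl (hT h)
  have hpl : p ≠ l := fun h => hl (h ▸ hp)
  set σ := spin T p with hσ
  have hσ' : σ = 1 ∨ σ = -1 := spin_eq T p
  have hs1 : spin T l = -1 := spin_of_not_mem hlT
  have hs2 : spin (insert l T) l = 1 := spin_insert_self T l
  have hs3 : spin (insert l T) p = σ := spin_insert_of_ne hpl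
  have hW : W G θ S (insert l T) = W G θ S T := W_congr (fun v hv => by
    exact spin_insert_of_ne (fun h => hl (h ▸ hv)))
  have hd : dot S f (insert l T) = dot S f T := dot_congr (fun _ _ => rfl) (fun v hv => by
    exact spin_insert_of_ne (fun h => hl (h ▸ hv)))
  unfold wt
  rw [W_insert hl hp hadj huniq, W_insert hl hp hadj huniq, dot_insert hl, dot_insert hl, hs1, hs2,
    hs3, hW, hd, dot_shift hp, ← hσ, Real.exp_add, Real.exp_add, Real.exp_add]
  have hb := bracket_eq hθ (f l) σ hσ'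
  have e1 : f l * -1 = -f l := by ring
  have e2 : f l * 1 = f l := by ring
  rw [e1, e2]
  calc (1 + θ * -1 * σ) / 2 * W G θ S T * (Real.exp (-f l) * Real.exp (dot S f T))
        + (1 + θ * 1 * σ) / 2 * W G θ S T * (Real.exp (f l) * Real.exp (dot S f T))
      = ((1 - θ * σ) / 2 * Real.exp (-f l) + (1 + θ * σ) / 2 * Real.exp (f l))
        * (W G θ S T * Real.exp (dot S f T)) := by ring
    _ = _ := by rw [hb]; ring

lemma sum_insert_split (hl : l ∉ S) (F : Finset V → ℝ) :
    ∑ T ∈ (insert l S).powerset, F T = ∑ T ∈ S.powerset, (F T + F (insert l T)) := by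
  rw [Finset.sum_powerset_insert hl, Finset.sum_add_distrib]

lemma ZZ_insert (hθ : |θ| < 1) (hl : l ∉ S) (hp : p ∈ S) (hadj : G.Adj l p)
    (huniq : ∀ q ∈ S, G.Adj l q → q = p) (f : V → ℝ) :
    ZZ G θ (insert l S) f = Cc θ (f l) * ZZ G θ S (shift f p (cav θ (f l))) := by
  unfold ZZ
  rw [sum_insert_split hl, Finset.mul_sum]
  exact Finset.sum_congr rfl (fun T hT => wt_pair hθ hl hp hadj huniq f (Finset.mem_powerset.mp hT))

/-- Summing out a leaf. -/
theorem avg_insert (hθ : |θ| < 1) (hl : l ∉ S) (hp : p ∈ S) (hadj : G.Adj l p)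
    (huniq : ∀ q ∈ S, G.Adj l q → q = p) (f : V → ℝ) (g : Finset V → ℝ)
    (hg : ∀ T, T ⊆ S → g (insert l T) = g T) :
    avg G θ (insert l S) f g = avg G θ S (shift f p (cav θ (f l))) g := by
  unfold avg
  rw [ZZ_insert hθ hl hp hadj huniq, sum_insert_split hl]
  have : ∑ T ∈ S.powerset, (wt G θ (insert l S) f T * g T
        + wt G θ (insert l S) f (insert l T) * g (insert l T))
      = Cc θ (f l) * ∑ T ∈ S.powerset, wt G θ S (shift f p (cav θ (f l))) T * g T := by
    rw [Finset.mul_sum]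
    refine Finset.sum_congr rfl (fun T hT => ?_)
    have hT' := Finset.mem_powerset.mp hT
    rw [hg T hT', ← add_mul, wt_pair hθ hl hp hadj huniq f hT']
    ring
  rw [this]
  exact mul_div_mul_left _ _ (Cc_pos θ (f l)).ne'

lemma mag_insert (hθ : |θ| < 1) (hl : l ∉ S) (hp : p ∈ S) (hadj : G.Adj l p)
    (huniq : ∀ q ∈ S, G.Adj l q → q = p) (f : V → ℝ) {u : V} (hu : u ≠ l) :
    mag G θ (insert l S) f u = mag G θ S (shift f p (cav θ (f l))) u :=
  avg_insert hθ hl hp hadj huniq f _ (fun _ _ => spin_insert_of_ne hu)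

/-- The magnetisation at a leaf in terms of the magnetisation at its parent. -/
theorem mag_leaf (hθ : |θ| < 1) (hl : l ∉ S) (hp : p ∈ S) (hadj : G.Adj l p)
    (huniq : ∀ q ∈ S, G.Adj l q → q = p) (f : V → ℝ) :
    mag G θ (insert l S) f l
      = AA θ (f l) + BB θ (f l) * mag G θ (insert l S) f p := by
  have hpl : p ≠ l := fun h => hl (h ▸ hp)
  have hZ : ZZ G θ (insert l S) f ≠ 0 := (ZZ_pos hθ _ f).ne'
  unfold mag avg
  rw [sum_insert_split hl, sum_insert_split hl]
  have key : ∀ T ∈ S.powerset,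
      wt G θ (insert l S) f T * spin T l
        + wt G θ (insert l S) f (insert l T) * spin (insert l T) l
      = AA θ (f l) * (wt G θ (insert l S) f T + wt G θ (insert l S) f (insert l T))
        + BB θ (f l) * (wt G θ (insert l S) f T * spin T p
          + wt G θ (insert l S) f (insert l T) * spin (insert l T) p) := by
    intro T hT
    have hT' := Finset.mem_powerset.mp hT
    have hlT : l ∉ T := fun h => hl (hT' h)
    set σ := spin T p with hσ
    have hσ' : σ = 1 ∨ σ = -1 := spin_eq T p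
    have hs1 : spin T l = -1 := spin_of_not_mem hlT
    have hs2 : spin (insert l T) l = 1 := spin_insert_self T l
    have hs3 : spin (insert l T) p = σ := spin_insert_of_ne hpl
    have hW : W G θ S (insert l T) = W G θ S T := W_congr (fun v hv => by
      exact spin_insert_of_ne (fun h => hl (h ▸ hv)))
    have hd : dot S f (insert l T) = dot S f T := dot_congr (fun _ _ => rfl) (fun v hv => by
      exact spin_insert_of_ne (fun h => hl (h ▸ hv)))
    have hr := leaf_regress hθ (f l) σ hσ'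
    rw [hs1, hs2, hs3]
    unfold wt
    rw [W_insert hl hp hadj huniq, W_insert hl hp hadj huniq, dot_insert hl, dot_insert hl, hs1, hs2,
      hs3, hW, hd, ← hσ, Real.exp_add, Real.exp_add]
    have e1 : f l * -1 = -f l := by ring
    have e2 : f l * 1 = f l := by ring
    rw [e1, e2]
    have hc : Real.cosh (f l) = (Real.exp (f l) + Real.exp (-f l)) / 2 := Real.cosh_eq _
    have hs : Real.sinh (f l) = (Real.exp (f l) - Real.exp (-f l)) / 2 := Real.sinh_eq _
    set E1 := Real.exp (f l)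
    set E2 := Real.exp (-f l)
    set A := W G θ S T * Real.exp (dot S f T)
    have hA : W G θ S T * (E2 * Real.exp (dot S f T)) = A * E2 := by simp only [A]; ring
    have hB : W G θ S T * (E1 * Real.exp (dot S f T)) = A * E1 := by simp only [A]; ring
    have lhs : (1 + θ * -1 * σ) / 2 * W G θ S T * (E2 * Real.exp (dot S f T)) * -1
        + (1 + θ * 1 * σ) / 2 * W G θ S T * (E1 * Real.exp (dot S f T)) * 1
        = A * (Real.sinh (f l) + θ * σ * Real.cosh (f l)) := by
      rw [hc, hs]; simp only [A]; ring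
    have rhs : AA θ (f l) * ((1 + θ * -1 * σ) / 2 * W G θ S T * (E2 * Real.exp (dot S f T))
          + (1 + θ * 1 * σ) / 2 * W G θ S T * (E1 * Real.exp (dot S f T)))
        + BB θ (f l) * ((1 + θ * -1 * σ) / 2 * W G θ S T * (E2 * Real.exp (dot S f T)) * σ
          + (1 + θ * 1 * σ) / 2 * W G θ S T * (E1 * Real.exp (dot S f T)) * σ)
        = A * ((AA θ (f l) + BB θ (f l) * σ) * (Real.cosh (f l) + θ * σ * Real.sinh (f l))) := by
      rw [hc, hs]; simp only [A]; ring
    rw [lhs, rhs, hr]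
  rw [Finset.sum_congr rfl key, Finset.sum_add_distrib, ← Finset.mul_sum, ← Finset.mul_sum]
  unfold ZZ at hZ ⊢
  rw [sum_insert_split hl] at hZ ⊢
  field_simp

end leaf

/-- A real lemma: the magnetisation as a function of the field at the site. -/
lemma own_site_real {P Q : ℝ} (hP : 0 < P) (hQ : 0 < Q) (a b : ℝ) :
    |(P * Real.exp a - Q * Real.exp (-a)) / (P * Real.exp a + Q * Real.exp (-a))
      - (P * Real.exp b - Q * Real.exp (-b)) / (P * Real.exp b + Q * Real.exp (-b))| ≤ |a - b| := by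
  set M : ℝ → ℝ := fun a => (P * Real.exp a - Q * Real.exp (-a)) / (P * Real.exp a + Q * Real.exp (-a))
    with hM
  have hden : ∀ x, 0 < P * Real.exp x + Q * Real.exp (-x) := fun x => by positivity
  have hder : ∀ x, HasDerivAt M
      (((P * Real.exp x + Q * Real.exp (-x)) * (P * Real.exp x + Q * Real.exp (-x))
        - (P * Real.exp x - Q * Real.exp (-x)) * (P * Real.exp x - Q * Real.exp (-x)))
        / (P * Real.exp x + Q * Real.exp (-x)) ^ 2) x := by
    intro x
    have h1 : HasDerivAt (fun x => Real.exp x) (Real.exp x) x := Real.hasDerivAt_exp x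
    have h2 : HasDerivAt (fun x => Real.exp (-x)) (-Real.exp (-x)) x := by
      have := (hasDerivAt_neg x).exp
      simpa using this
    have hn : HasDerivAt (fun x => P * Real.exp x - Q * Real.exp (-x))
        (P * Real.exp x + Q * Real.exp (-x)) x :=
      ((h1.const_mul P).sub (h2.const_mul Q)).congr_deriv (by ring)
    have hd : HasDerivAt (fun x => P * Real.exp x + Q * Real.exp (-x))
        (P * Real.exp x - Q * Real.exp (-x)) x :=
      ((h1.const_mul P).add (h2.const_mul Q)).congr_deriv (by ring)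
    exact hn.div hd (hden x).ne'
  have := Convex.norm_image_sub_le_of_norm_hasDerivWithin_le (f := M) (s := Set.univ) (C := 1)
    (x := b) (y := a) (fun z _ => (hder z).hasDerivWithinAt)
    (fun z _ => by
      have hz := hden z
      rw [Real.norm_eq_abs, abs_of_nonneg (by
        apply div_nonneg _ (by positivity)
        have : 0 < P * Real.exp z := by positivity
        have : 0 < Q * Real.exp (-z) := by positivity
        nlinarith)]
      rw [div_le_one (by positivity)]
      have h3 : 0 < P * Real.exp z := by positivity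
      have h4 : 0 < Q * Real.exp (-z) := by positivity
      nlinarith [mul_pos h3 h4])
    convex_univ (Set.mem_univ _) (Set.mem_univ _)
  simpa [Real.norm_eq_abs, hM] using this

end Vale.Agent.P161
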