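import Vale.Agent.P161.Prm

set_option autoImplicit false

noncomputable section
open scoped Classical
open Finset MeasureTheory

namespace Vale.Agent.P161

variable {V : Type*} {G : SimpleGraph V} {θ : ℝ}

section lists

lemma sweep_filter_gen (o : List V) (j : ℕ) (P : V → Bool) :
    (sweep o j).filter (fun c => P c.1) = sweep (o.filter P) j := by
  unfold sweep
  rw [List.filter_map]
  congr 1

lemma Cs_filter_gen (o : List V) (n : ℕ) (P : V → Bool) :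
    (Cs o n).filter (fun c => P c.1) = Cs (o.filter P) n := by
  induction n with
  | zero => simp [Cs]
  | succ n ih => simp only [Cs, List.filter_append, ih, sweep_filter_gen]

lemma sum_sweep (o : List V) (j : ℕ) (g : V → ℝ) :
    ((sweep o j).map (fun c => g c.1)).sum = (o.map g).sum := by
  unfold sweep
  rw [List.map_map]
  rfl

lemma sum_Cs (o : List V) (n : ℕ) (g : V → ℝ) :
    ((Cs o n).map (fun c => g c.1)).sum = n * (o.map g).sum := by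
  induction n with
  | zero => simp [Cs]
  | succ n ih =>
    simp only [Cs, List.map_append, List.sum_append, ih, sum_sweep]
    push_cast
    ring

end lists

section fiber

variable [Countable V]

theorem fiber_bound (hT : G.IsTree) (hG : G.Connected) (P : Prm G θ) {enc : V → ℕ} (henc : Function.Injective enc)
    (ℓ : V → ℝ) {Λ₁ Λ₂ : Finset V} (h₁ : IsConvexSet G Λ₁) (h₂ : IsConvexSet G Λ₂)
    (hne : Λ₁.Nonempty) (hsub : Λ₁ ⊆ Λ₂) (n : ℕ) {v : V} (hv : v ∈ Λ₁) (R : ℕ)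
    {B : Finset V} (hB : ∀ w, w ∈ B ↔ G.dist v w ≤ R) (hball : B ⊆ Λ₁) {K : ℝ} (hK : 0 ≤ K) :
    ∫ z, (tau G θ P.δ K Λ₂ (Cs (ord enc ℓ Λ₂) n) v z - tau G θ P.δ K Λ₁ (Cs (ord enc ℓ Λ₁) n) v z) ^ 2
        ∂(PP (V × ℕ))
      ≤ 6 * (n * ((K * KK P.δ P.μ n) ^ 2 * (P.ρ ^ R * P.E₁)))
        + 3 * (n * ((K * KK P.δ P.μ n) ^ 2 * P.E₁)) * (P.δ / 4) ^ 2
          * ∑ c ∈ B ×ˢ Finset.range n, (qq G θ P.δ Λ₂ (Cs (ord enc ℓ Λ₂) n) c
              - qq G θ P.δ Λ₁ (Cs (ord enc ℓ Λ₁) n) c) := by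
  have hθ' : |θ| < 1 := by rw [abs_of_nonneg P.hθ0]; exact P.hθ1
  have hδ0 := P.hδ0.le
  have hδ1 := P.hδ1
  set o₂ := ord enc ℓ Λ₂ with ho₂
  set o₁ := ord enc ℓ Λ₁ with ho₁
  have ho₁nd : o₁.Nodup := ord_nodup enc ℓ Λ₁
  have hmem₁ : ∀ u, u ∈ o₁ ↔ u ∈ Λ₁ := mem_ord enc ℓ Λ₁
  have hL : (Cs o₂ n).Nodup := Cs_nodup (ord_nodup enc ℓ Λ₂) n
  have hLΛ : ∀ c ∈ Cs o₂ n, c.1 ∈ Λ₂ := fun c hc => (mem_ord enc ℓ Λ₂ c.1).mp (mem_Cs.mp hc).1
  have hfilter : (Cs o₂ n).filter (fun c => c.1 ∈ Λ₁) = Cs o₁ n := by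
    rw [Cs_filter, ho₂, ord_filter henc ℓ hsub]
  set b : V × ℕ → ℝ := fun c => K * KK P.δ P.μ n * P.s ^ G.dist v c.1 with hb_def
  have hKK : 0 ≤ KK P.δ P.μ n := KK_nonneg hδ0 (by linarith [P.hμ1]) n
  have hb : ∀ c, 0 ≤ b c := fun c => by
    simp only [hb_def]
    have := P.hs
    positivity
  have hΛ₁ : TreeSet G Λ₁ := treeSet_of_convex hT h₁ hne
  have hosc : ∀ c ∈ (Cs o₂ n).filter (fun c => c.1 ∈ Λ₁), ∀ ω t t',
      |tau G θ P.δ K Λ₁ ((Cs o₂ n).filter (fun c => c.1 ∈ Λ₁)) v (Function.update ω c t)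
        - tau G θ P.δ K Λ₁ ((Cs o₂ n).filter (fun c => c.1 ∈ Λ₁)) v (Function.update ω c t')|
      ≤ b c * |proj t - proj t'| := by
    intro c _ ω t t'
    rw [hfilter]
    exact tau_osc hG P.hθ0 P.hθ1 hδ0 hδ1 hK hΛ₁ P.hs (fun x u _ => P.hLy Λ₁ x u) P.hμ P.hμ1
      ho₁nd (fun u hu => (hmem₁ u).mp hu) n hv c ω t t'
  let pp : V → Bool := fun u => decide (R < G.dist v u)
  have key := cauchy_general (G := G) (δ := P.δ) hT hθ' hδ0 hδ1 K h₁ h₂ hne hsub hL hLΛ hv b hb hosc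
    (fun c => pp c.1)
  rw [hfilter] at key
  refine key.trans ?_
  -- the function `g`
  set g : V → ℝ := fun u => (K * KK P.δ P.μ n * P.s ^ G.dist v u) ^ 2 with hg_def
  have hgform : ∀ u, g u = (K * KK P.δ P.μ n) ^ 2 * (P.s ^ 2) ^ G.dist v u := fun u => by
    simp only [hg_def]
    ring
  have hbg : (fun c => b c ^ 2) = fun c : V × ℕ => g c.1 := rfl
  rw [hbg]
  have hO' : (Cs o₁ n).filter (fun c => pp c.1) = Cs (o₁.filter pp) n := Cs_filter_gen o₁ n pp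
  have hW' : (Cs o₁ n).filter (fun c => !pp c.1) = Cs (o₁.filter (fun u => !pp u)) n :=
    Cs_filter_gen o₁ n (fun u => !pp u)
  rw [hO', hW', sum_Cs, sum_Cs]
  have hsum1 : ((o₁.filter pp).map g).sum ≤ (K * KK P.δ P.μ n) ^ 2 * (P.ρ ^ R * P.E₁) := by
    rw [← List.sum_toFinset _ (ho₁nd.filter _)]
    have e : (o₁.filter pp).toFinset = Λ₁.filter (fun w => R < G.dist v w) := by
      ext w
      simp [hmem₁, pp]
    rw [e]
    simp only [hgform]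
    rw [← Finset.mul_sum]
    exact mul_le_mul_of_nonneg_left (P.hTail Λ₁ v R) (sq_nonneg _)
  have hsum2 : ((o₁.filter (fun u => !pp u)).map g).sum ≤ (K * KK P.δ P.μ n) ^ 2 * P.E₁ := by
    rw [← List.sum_toFinset _ (ho₁nd.filter _)]
    simp only [hgform]
    rw [← Finset.mul_sum]
    exact mul_le_mul_of_nonneg_left (P.hSum _ v) (sq_nonneg _)
  have hsum2nn : 0 ≤ ((o₁.filter (fun u => !pp u)).map g).sum := by
    refine List.sum_nonneg (fun x hx => ?_)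
    obtain ⟨u, _, rfl⟩ := List.mem_map.mp hx
    exact sq_nonneg _
  -- the sum of the overlaps
  set W := Cs (o₁.filter (fun u => !pp u)) n with hW
  have hWnd : W.Nodup := Cs_nodup (ho₁nd.filter _) n
  have hWfin : W.toFinset = B ×ˢ Finset.range n := by
    ext c
    simp only [List.mem_toFinset, hW, mem_Cs, List.mem_filter, hmem₁, Finset.mem_product,
      Finset.mem_range, hB, pp]
    simp only [Bool.not_eq_true', decide_eq_false_iff_not, not_lt]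
    constructor
    · rintro ⟨⟨_, h2⟩, h3⟩
      exact ⟨h2, h3⟩
    · rintro ⟨h2, h3⟩
      exact ⟨⟨hball ((hB c.1).mpr h2), h2⟩, h3⟩
  have hWsum : (W.map (fun c => qq G θ P.δ Λ₂ (Cs o₂ n) c - qq G θ P.δ Λ₁ (Cs o₁ n) c)).sum
      = ∑ c ∈ B ×ˢ Finset.range n, (qq G θ P.δ Λ₂ (Cs o₂ n) c - qq G θ P.δ Λ₁ (Cs o₁ n) c) := by
    rw [← List.sum_toFinset _ hWnd, hWfin]
  rw [hWsum]
  have hT3 : 0 ≤ ∑ c ∈ B ×ˢ Finset.range n, (qq G θ P.δ Λ₂ (Cs o₂ n) c - qq G θ P.δ Λ₁ (Cs o₁ n) c) := by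
    refine Finset.sum_nonneg (fun c hc => ?_)
    have hcB := (Finset.mem_product.mp hc).1
    have := qq_mono (G := G) (δ := P.δ) hT hθ' hδ0 hδ1 h₁ h₂ hne hsub hL hLΛ (c := c) (hball hcB)
    rw [hfilter] at this
    linarith
  have hn : (0 : ℝ) ≤ n := Nat.cast_nonneg n
  have e1 := mul_le_mul_of_nonneg_left hsum1 hn
  have e2 := mul_le_mul_of_nonneg_left hsum2 hn
  have e3 : 0 ≤ (n : ℝ) * ((o₁.filter (fun u => !pp u)).map g).sum := mul_nonneg hn hsum2nn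
  refine add_le_add (by linarith) ?_
  refine mul_le_mul_of_nonneg_right ?_ hT3
  refine mul_le_mul_of_nonneg_right ?_ (sq_nonneg _)
  linarith

end fiber

section joint

variable [Countable V]

/-- The joint law of labels and noise. -/
def Pr (V : Type*) : Measure ((V → ℝ) × (V × ℕ → ℝ)) := (PP V).prod (PP (V × ℕ))

instance : IsProbabilityMeasure (Pr V) := by
  unfold Pr; infer_instance

/-- The decoded spin estimate, as a function of labels and noise. -/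
def TT (P : Prm G θ) (enc : V → ℕ) (Λ : Finset V) (n : ℕ) (v : V)
    (ω : (V → ℝ) × (V × ℕ → ℝ)) : ℝ :=
  tau G θ P.δ (1 / (n * kapD P.δ)) Λ (Cs (ord enc ω.1 Λ) n) v ω.2

lemma abs_TT_le (P : Prm G θ) (enc : V → ℕ) (Λ : Finset V) (n : ℕ) (v : V)
    (ω : (V → ℝ) × (V × ℕ → ℝ)) : |TT P enc Λ n v ω| ≤ 1 := abs_tau_le _ _ _ _ _

lemma hθabs (P : Prm G θ) : |θ| < 1 := by rw [abs_of_nonneg P.hθ0]; exact P.hθ1

lemma measurable_TT (P : Prm G θ) (enc : V → ℕ) (Λ : Finset V) (n : ℕ) (v : V) :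
    Measurable (TT P enc Λ n v) := by
  unfold TT
  exact measurable_ord_comp enc Λ
    (fun o z => tau G θ P.δ (1 / (n * kapD P.δ)) Λ (Cs o n) v z)
    (fun o => (continuous_tau (hθabs P) P.hδ0.le P.hδ1 _ Λ _ v).measurable)

/-- The averaged overlap. -/
def QQ (P : Prm G θ) (enc : V → ℕ) (Λ : Finset V) (n : ℕ) (c : V × ℕ) : ℝ :=
  ∫ ℓ, qq G θ P.δ Λ (Cs (ord enc ℓ Λ) n) c ∂(PP V)

lemma measurable_ord_fun (enc : V → ℕ) (Λ : Finset V) (F : List V → ℝ) :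
    Measurable (fun ℓ : V → ℝ => F (ord enc ℓ Λ)) := by
  have h := measurable_ord_comp (X := Unit) enc Λ (fun o _ => F o) (fun _ => measurable_const)
  exact h.comp (measurable_id.prodMk (measurable_const (a := ())))

lemma measurable_qq (P : Prm G θ) (enc : V → ℕ) (Λ : Finset V) (n : ℕ) (c : V × ℕ) :
    Measurable (fun ℓ : V → ℝ => qq G θ P.δ Λ (Cs (ord enc ℓ Λ) n) c) :=
  measurable_ord_fun enc Λ (fun o => qq G θ P.δ Λ (Cs o n) c)

lemma qq_nonneg (Λ : Finset V) (L : List (V × ℕ)) (c : V × ℕ) (δ : ℝ) :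
    0 ≤ qq G θ δ Λ L c := integral_nonneg (fun _ => sq_nonneg _)

lemma integrable_qq (P : Prm G θ) (enc : V → ℕ) (Λ : Finset V) (n : ℕ) (c : V × ℕ) :
    Integrable (fun ℓ : V → ℝ => qq G θ P.δ Λ (Cs (ord enc ℓ Λ) n) c) (PP V) := by
  refine Integrable.of_bound (measurable_qq P enc Λ n c).aestronglyMeasurable 1
    (Filter.Eventually.of_forall (fun ℓ => ?_))
  rw [Real.norm_eq_abs, abs_of_nonneg (qq_nonneg _ _ _ _)]
  exact qq_le_one (hθabs P) _ _ _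

lemma QQ_le_one (P : Prm G θ) (enc : V → ℕ) (Λ : Finset V) (n : ℕ) (c : V × ℕ) :
    QQ P enc Λ n c ≤ 1 := by
  unfold QQ
  have := integral_mono_of_nonneg (μ := PP V)
    (Filter.Eventually.of_forall (fun ℓ => qq_nonneg Λ (Cs (ord enc ℓ Λ) n) c P.δ))
    (integrable_const (1 : ℝ))
    (Filter.Eventually.of_forall (fun ℓ => qq_le_one (G := G) (δ := P.δ) (hθabs P) Λ
      (Cs (ord enc ℓ Λ) n) c))
  simpa using this

lemma QQ_mono (hT : G.IsTree) (P : Prm G θ) {enc : V → ℕ} (henc : Function.Injective enc)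
    {Λ₁ Λ₂ : Finset V} (h₁ : IsConvexSet G Λ₁) (h₂ : IsConvexSet G Λ₂) (hne : Λ₁.Nonempty)
    (hsub : Λ₁ ⊆ Λ₂) (n : ℕ) {c : V × ℕ} (hc : c.1 ∈ Λ₁) :
    QQ P enc Λ₁ n c ≤ QQ P enc Λ₂ n c := by
  unfold QQ
  refine integral_mono (integrable_qq P enc Λ₁ n c) (integrable_qq P enc Λ₂ n c) (fun ℓ => ?_)
  have hL : (Cs (ord enc ℓ Λ₂) n).Nodup := Cs_nodup (ord_nodup enc ℓ Λ₂) n
  have hLΛ : ∀ c ∈ Cs (ord enc ℓ Λ₂) n, c.1 ∈ Λ₂ := fun c hc =>
    (mem_ord enc ℓ Λ₂ c.1).mp (mem_Cs.mp hc).1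
  have := qq_mono (G := G) (δ := P.δ) hT (hθabs P) P.hδ0.le P.hδ1 h₁ h₂ hne hsub hL hLΛ hc
  rw [Cs_filter, ord_filter henc ℓ hsub] at this
  exact this

lemma integrable_sq_of_bdd {Ω : Type*} [MeasurableSpace Ω] {Q : Measure Ω} [IsProbabilityMeasure Q]
    {F F' : Ω → ℝ} (hF : Measurable F) (hF' : Measurable F') (hb : ∀ ω, |F ω| ≤ 1)
    (hb' : ∀ ω, |F' ω| ≤ 1) : Integrable (fun ω => (F ω - F' ω) ^ 2) Q := by
  refine Integrable.of_bound ((hF.sub hF').pow_const 2).aestronglyMeasurable 4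
    (Filter.Eventually.of_forall (fun ω => ?_))
  rw [Real.norm_eq_abs, abs_pow]
  have h1 := abs_sub (F ω) (F' ω)
  have h2 := hb ω
  have h3 := hb' ω
  have : |F ω - F' ω| ≤ 2 := by linarith
  nlinarith [abs_nonneg (F ω - F' ω)]

/-- The joint estimate. -/
theorem TT_bound (hT : G.IsTree) (hG : G.Connected) (P : Prm G θ) {enc : V → ℕ}
    (henc : Function.Injective enc) {Λ₁ Λ₂ : Finset V} (h₁ : IsConvexSet G Λ₁)
    (h₂ : IsConvexSet G Λ₂) (hne : Λ₁.Nonempty) (hsub : Λ₁ ⊆ Λ₂) (n : ℕ) (hκ : 0 ≤ 1 / (n * kapD P.δ))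
    {v : V} (hv : v ∈ Λ₁) (R : ℕ) {B : Finset V} (hB : ∀ w, w ∈ B ↔ G.dist v w ≤ R)
    (hball : B ⊆ Λ₁) :
    ∫ ω, (TT P enc Λ₂ n v ω - TT P enc Λ₁ n v ω) ^ 2 ∂(Pr V)
      ≤ 6 * (n * ((1 / (n * kapD P.δ) * KK P.δ P.μ n) ^ 2 * (P.ρ ^ R * P.E₁)))
        + 3 * (n * ((1 / (n * kapD P.δ) * KK P.δ P.μ n) ^ 2 * P.E₁)) * (P.δ / 4) ^ 2
          * ∑ c ∈ B ×ˢ Finset.range n, (QQ P enc Λ₂ n c - QQ P enc Λ₁ n c) := by
  have hint : Integrable (fun ω => (TT P enc Λ₂ n v ω - TT P enc Λ₁ n v ω) ^ 2) (Pr V) :=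
    integrable_sq_of_bdd (measurable_TT P enc Λ₂ n v) (measurable_TT P enc Λ₁ n v)
      (abs_TT_le P enc Λ₂ n v) (abs_TT_le P enc Λ₁ n v)
  unfold Pr at hint ⊢
  rw [integral_prod _ hint]
  simp only [TT]
  set a := 6 * (n * ((1 / (n * kapD P.δ) * KK P.δ P.μ n) ^ 2 * (P.ρ ^ R * P.E₁))) with ha
  set b := 3 * (n * ((1 / (n * kapD P.δ) * KK P.δ P.μ n) ^ 2 * P.E₁)) * (P.δ / 4) ^ 2 with hb
  have hbound : ∀ ℓ : V → ℝ, ∫ z, (tau G θ P.δ (1 / (n * kapD P.δ)) Λ₂ (Cs (ord enc ℓ Λ₂) n) v z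
      - tau G θ P.δ (1 / (n * kapD P.δ)) Λ₁ (Cs (ord enc ℓ Λ₁) n) v z) ^ 2 ∂(PP (V × ℕ))
      ≤ a + b * ∑ c ∈ B ×ˢ Finset.range n, (qq G θ P.δ Λ₂ (Cs (ord enc ℓ Λ₂) n) c
          - qq G θ P.δ Λ₁ (Cs (ord enc ℓ Λ₁) n) c) := fun ℓ =>
    fiber_bound hT hG P henc ℓ h₁ h₂ hne hsub n hv R hB hball hκ
  have hint2 : Integrable (fun ℓ : V → ℝ => ∑ c ∈ B ×ˢ Finset.range n,
      (qq G θ P.δ Λ₂ (Cs (ord enc ℓ Λ₂) n) c - qq G θ P.δ Λ₁ (Cs (ord enc ℓ Λ₁) n) c)) (PP V) :=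
    integrable_finsetSum _ (fun c _ => (integrable_qq P enc Λ₂ n c).sub (integrable_qq P enc Λ₁ n c))
  have hi3 : Integrable (fun ℓ : V → ℝ => a + b * ∑ c ∈ B ×ˢ Finset.range n,
      (qq G θ P.δ Λ₂ (Cs (ord enc ℓ Λ₂) n) c - qq G θ P.δ Λ₁ (Cs (ord enc ℓ Λ₁) n) c)) (PP V) :=
    (integrable_const a).add (hint2.const_mul b)
  have hmono := integral_mono_of_nonneg (μ := PP V)
    (Filter.Eventually.of_forall (fun ℓ => integral_nonneg (fun z => sq_nonneg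
      (tau G θ P.δ (1 / (n * kapD P.δ)) Λ₂ (Cs (ord enc ℓ Λ₂) n) v z
      - tau G θ P.δ (1 / (n * kapD P.δ)) Λ₁ (Cs (ord enc ℓ Λ₁) n) v z))))
    hi3 (Filter.Eventually.of_forall hbound)
  refine hmono.trans (le_of_eq ?_)
  rw [integral_add (integrable_const a) (hint2.const_mul b), integral_const, integral_const_mul b,
    integral_finsetSum]
  · simp only [probReal_univ, one_smul]
    congr 2
    refine Finset.sum_congr rfl (fun c _ => ?_)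
    rw [integral_sub (integrable_qq P enc Λ₂ n c) (integrable_qq P enc Λ₁ n c)]
    rfl
  · exact fun c _ => (integrable_qq P enc Λ₂ n c).sub (integrable_qq P enc Λ₁ n c)

end joint

end Vale.Agent.P161
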