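import Vale.Agent.P161.Limit1

set_option autoImplicit false

noncomputable section
open scoped Classical
open Finset MeasureTheory Filter Topology

namespace Vale.Agent.P161

variable {V : Type*} {G : SimpleGraph V} {θ : ℝ}

section d2

variable {Ω : Type*} [MeasurableSpace Ω] (Q : Measure Ω) [IsProbabilityMeasure Q]

/-- Squared `L²` distance. -/
def d2 (F F' : Ω → ℝ) : ℝ := ∫ ω, (F ω - F' ω) ^ 2 ∂Q

/-- Bounded measurable functions. -/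
def BM (F : Ω → ℝ) : Prop := Measurable F ∧ ∀ ω, |F ω| ≤ 1

variable {Q}

lemma d2_nonneg (F F' : Ω → ℝ) : 0 ≤ d2 Q F F' := integral_nonneg (fun _ => sq_nonneg _)

lemma d2_comm (F F' : Ω → ℝ) : d2 Q F F' = d2 Q F' F := by
  unfold d2
  congr 1
  funext ω
  ring

lemma integrable_sq_sub {F F' : Ω → ℝ} (hF : BM F) (hF' : BM F') :
    Integrable (fun ω => (F ω - F' ω) ^ 2) Q :=
  integrable_sq_of_bdd hF.1 hF'.1 hF.2 hF'.2

lemma d2_tri {F G' H : Ω → ℝ} (hF : BM F) (hG : BM G') (hH : BM H) :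
    d2 Q F H ≤ 2 * d2 Q F G' + 2 * d2 Q G' H := by
  unfold d2
  rw [← integral_const_mul, ← integral_const_mul, ← integral_add
    ((integrable_sq_sub hF hG).const_mul 2) ((integrable_sq_sub hG hH).const_mul 2)]
  refine integral_mono (integrable_sq_sub hF hH)
    (((integrable_sq_sub hF hG).const_mul 2).add ((integrable_sq_sub hG hH).const_mul 2))
    (fun ω => ?_)
  simp only
  nlinarith [sq_nonneg ((F ω - G' ω) - (G' ω - H ω))]

/-- `L¹` is controlled by `L²`. -/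
lemma integral_abs_le_sqrt {f : Ω → ℝ} (hm : Measurable f) {M : ℝ} (hb : ∀ ω, |f ω| ≤ M) :
    ∫ ω, |f ω| ∂Q ≤ Real.sqrt (∫ ω, f ω ^ 2 ∂Q) := by
  have hi1 : Integrable (fun ω => |f ω|) Q :=
    Integrable.of_bound hm.abs.aestronglyMeasurable M
      (Eventually.of_forall (fun ω => by simpa using hb ω))
  have hi2 : Integrable (fun ω => f ω ^ 2) Q := by
    refine Integrable.of_bound (hm.pow_const 2).aestronglyMeasurable (M ^ 2)
      (Eventually.of_forall (fun ω => ?_))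
    rw [Real.norm_eq_abs, abs_pow]
    exact pow_le_pow_left₀ (abs_nonneg _) (hb ω) 2
  set c := ∫ ω, |f ω| ∂Q with hc
  have h0 : 0 ≤ c := integral_nonneg (fun _ => abs_nonneg _)
  refine Real.le_sqrt_of_sq_le ?_
  have hpos : 0 ≤ ∫ ω, (|f ω| - c) ^ 2 ∂Q := integral_nonneg (fun _ => sq_nonneg _)
  have hexp : ∀ ω, (|f ω| - c) ^ 2 = f ω ^ 2 - 2 * c * |f ω| + c ^ 2 := by
    intro ω
    rw [sub_sq, sq_abs]
    ring
  simp only [hexp] at hpos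
  have hi3 : Integrable (fun ω => f ω ^ 2 - 2 * c * |f ω|) Q := hi2.sub (hi1.const_mul _)
  rw [integral_add hi3 (integrable_const _), integral_sub hi2 (hi1.const_mul _),
    integral_const_mul, integral_const, ← hc] at hpos
  simp only [probReal_univ, one_smul] at hpos
  nlinarith

lemma integral_abs_sub_le {F F' : Ω → ℝ} (hF : BM F) (hF' : BM F') :
    ∫ ω, |F ω - F' ω| ∂Q ≤ Real.sqrt (d2 Q F F') := by
  refine integral_abs_le_sqrt (M := 2) (hF.1.sub hF'.1) (fun ω => ?_)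
  have h1 := abs_sub (F ω) (F' ω)
  linarith [hF.2 ω, hF'.2 ω]

end d2

section exhaustion

/-- An increasing exhaustion by convex sets. -/
theorem exists_exhaustion [Countable V] (hT : G.IsTree) :
    ∃ Λk : ℕ → Finset V, (∀ k, IsConvexSet G (Λk k)) ∧ (∀ k, (Λk k).Nonempty) ∧ Monotone Λk ∧
      ∀ A : Finset V, ∃ k, A ⊆ Λk k := by
  have hne : Nonempty V := hT.connected.nonempty
  obtain ⟨e, he⟩ := exists_surjective_nat V
  have hstep : ∀ (S : {S : Finset V // IsConvexSet G S ∧ S.Nonempty}) (k : ℕ),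
      ∃ S' : {S : Finset V // IsConvexSet G S ∧ S.Nonempty}, S.1 ⊆ S'.1 ∧ e k ∈ S'.1 := by
    intro S k
    obtain ⟨S', h1, h2, h3⟩ := exists_convex_superset hT S.2.1 S.2.2 {e k}
    exact ⟨⟨S', h1, S.2.2.mono h2⟩, h2, h3 (Finset.mem_singleton_self _)⟩
  choose next h1 h2 using hstep
  let seq : ℕ → {S : Finset V // IsConvexSet G S ∧ S.Nonempty} := fun k =>
    Nat.rec ⟨{e 0}, isConvexSet_singleton hT _, Finset.singleton_nonempty _⟩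
      (fun k S => next S k) k
  have hseq : ∀ k, seq (k + 1) = next (seq k) k := fun k => rfl
  have hmono : Monotone (fun k => (seq k).1) :=
    monotone_nat_of_le_succ (fun k => by
      simp only [hseq]
      exact h1 _ _)
  have hmem : ∀ k, e k ∈ (seq (k + 1)).1 := fun k => by
    rw [hseq]
    exact h2 _ _
  refine ⟨fun k => (seq k).1, fun k => (seq k).2.1, fun k => (seq k).2.2, hmono, ?_⟩
  intro A
  induction A using Finset.induction_on with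
  | empty => exact ⟨0, Finset.empty_subset _⟩
  | insert a A _ ih =>
    obtain ⟨k, hk⟩ := ih
    obtain ⟨i, rfl⟩ := he a
    refine ⟨max k (i + 1), Finset.insert_subset ?_ (hk.trans (hmono (le_max_left _ _)))⟩
    exact hmono (le_max_right _ _) (hmem i)

end exhaustion

section netlim

variable {Ω : Type*} [MeasurableSpace Ω] {Q : Measure Ω} [IsProbabilityMeasure Q]

/-- The Cauchy property of a family indexed by convex sets. -/
def NetCauchy (G : SimpleGraph V) (Q : Measure Ω) (F : Finset V → Ω → ℝ) : Prop :=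
  ∀ ε > 0, ∃ Λ₀, IsConvexSet G Λ₀ ∧ Λ₀.Nonempty ∧ ∀ Λ₁ Λ₂, IsConvexSet G Λ₁ → IsConvexSet G Λ₂ →
    Λ₀ ⊆ Λ₁ → Λ₁ ⊆ Λ₂ → d2 Q (F Λ₂) (F Λ₁) ≤ ε

/-- Convergence of a family indexed by convex sets. -/
def NetTendsto (G : SimpleGraph V) (Q : Measure Ω) (F : Finset V → Ω → ℝ) (X : Ω → ℝ) : Prop :=
  ∀ ε > 0, ∃ Λ₀, IsConvexSet G Λ₀ ∧ Λ₀.Nonempty ∧ ∀ Λ, IsConvexSet G Λ → Λ₀ ⊆ Λ →
    d2 Q (F Λ) X ≤ ε

/-- A Cauchy family has a limit. -/
theorem net_limit [Countable V] (hT : G.IsTree) {F : Finset V → Ω → ℝ} (hF : ∀ Λ, BM (F Λ))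
    (hC : NetCauchy G Q F) : ∃ X, BM X ∧ NetTendsto G Q F X := by
  obtain ⟨Λk, hconv, hne, hmono, hexh⟩ := exists_exhaustion (V := V) hT
  -- two convex supersets are comparable through a third one
  have hCC : ∀ ε > 0, ∃ Λ₀, IsConvexSet G Λ₀ ∧ Λ₀.Nonempty ∧ ∀ Λ₁ Λ₂, IsConvexSet G Λ₁ →
      IsConvexSet G Λ₂ → Λ₀ ⊆ Λ₁ → Λ₀ ⊆ Λ₂ → d2 Q (F Λ₁) (F Λ₂) ≤ ε := by
    intro ε hε
    obtain ⟨Λ₀, h1, h2, h3⟩ := hC (ε / 4) (by positivity)
    refine ⟨Λ₀, h1, h2, fun Λ₁ Λ₂ hΛ₁ hΛ₂ h₁ h₂ => ?_⟩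
    obtain ⟨Λ₃, hΛ₃, h31, h32⟩ := exists_convex_superset hT hΛ₁ (h2.mono h₁) Λ₂
    have e1 := h3 Λ₁ Λ₃ hΛ₁ hΛ₃ h₁ h31
    have e2 := h3 Λ₂ Λ₃ hΛ₂ hΛ₃ h₂ h32
    rw [d2_comm] at e1
    have := d2_tri (Q := Q) (hF Λ₁) (hF Λ₃) (hF Λ₂)
    linarith
  obtain ⟨X, hXm, hXb, hXlim⟩ := exists_L2_limit (P := Q) (fun k => F (Λk k))
    (fun k => (hF _).1) (fun k => (hF _).2) (by
      intro ε hε
      obtain ⟨Λ₀, h1, _, h3⟩ := hCC ε hε
      obtain ⟨N, hN⟩ := hexh Λ₀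
      exact ⟨N, fun m hm m' hm' => h3 _ _ (hconv m) (hconv m') (hN.trans (hmono hm))
        (hN.trans (hmono hm'))⟩)
  have hXBM : BM X := ⟨hXm, hXb⟩
  refine ⟨X, hXBM, fun ε hε => ?_⟩
  obtain ⟨Λ₀, h1, h2, h3⟩ := hCC (ε / 4) (by positivity)
  refine ⟨Λ₀, h1, h2, fun Λ hΛ hsub => ?_⟩
  have hev := hXlim.eventually (gt_mem_nhds (show (0 : ℝ) < ε / 4 by positivity))
  obtain ⟨N, hN⟩ := hexh Λ₀
  obtain ⟨k, hk1, hk2⟩ := (hev.and (eventually_ge_atTop N)).exists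
  have e1 := h3 Λ (Λk k) hΛ (hconv k) hsub (hN.trans (hmono hk2))
  have e2 : d2 Q (F (Λk k)) X ≤ ε / 4 := le_of_lt hk1
  have := d2_tri (Q := Q) (hF Λ) (hF (Λk k)) hXBM
  linarith

end netlim

section netcauchy

variable [Countable V]

lemma BM_TT (P : Prm G θ) (enc : V → ℕ) (Λ : Finset V) (n : ℕ) (v : V) :
    BM (TT P enc Λ n v) := ⟨measurable_TT P enc Λ n v, abs_TT_le P enc Λ n v⟩

/-- The decoded spins converge along convex sets, at each fixed number of sweeps. -/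
theorem net_cauchy (hT : G.IsTree) (P : Prm G θ) {enc : V → ℕ} (henc : Function.Injective enc)
    (n : ℕ) (v : V) : NetCauchy G (Pr V) (fun Λ => TT P enc Λ n v) := by
  intro ε hε
  have hκ : 0 ≤ 1 / (n * kapD P.δ) := by
    have := kapD_pos P.hδ0 P.hδ1
    positivity
  set a₀ := 6 * (n * ((1 / (n * kapD P.δ) * KK P.δ P.μ n) ^ 2 * P.E₁)) with ha₀
  set b₀ := 3 * (n * ((1 / (n * kapD P.δ) * KK P.δ P.μ n) ^ 2 * P.E₁)) * (P.δ / 4) ^ 2 with hb₀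
  have hE₁ := P.hE₁
  have ha₀nn : 0 ≤ a₀ := by rw [ha₀]; positivity
  have hb₀nn : 0 ≤ b₀ := by rw [hb₀]; positivity
  -- the far part
  obtain ⟨R, hR⟩ := exists_pow_lt_of_lt_one (show 0 < ε / (2 * (a₀ + 1)) by positivity) P.hρ1
  have hfar : a₀ * P.ρ ^ R ≤ ε / 2 := by
    have h1 : a₀ * P.ρ ^ R ≤ (a₀ + 1) * (ε / (2 * (a₀ + 1))) := by
      refine mul_le_mul (by linarith) hR.le (pow_nonneg P.hρ0 _) (by linarith)
    refine h1.trans (le_of_eq ?_)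
    field_simp
  -- the near part
  obtain ⟨B, hB⟩ := P.hBall v R
  set S := B ×ˢ Finset.range n with hS
  have hvB : v ∈ B := (hB v).mpr (by simp)
  let A : Finset V → ℝ := fun Λ => ∑ c ∈ S, QQ P enc Λ n c
  let 𝓐 : Set ℝ := {x | ∃ Λ, IsConvexSet G Λ ∧ B ⊆ Λ ∧ A Λ = x}
  have hne𝓐 : 𝓐.Nonempty := by
    obtain ⟨Λ, h1, _, h3⟩ := exists_convex_superset hT (isConvexSet_singleton hT v)
      (Finset.singleton_nonempty v) B
    exact ⟨A Λ, Λ, h1, h3, rfl⟩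
  have hbdd : BddAbove 𝓐 := by
    refine ⟨(S.card : ℝ), ?_⟩
    rintro x ⟨Λ, _, _, rfl⟩
    calc A Λ ≤ ∑ _c ∈ S, (1 : ℝ) := Finset.sum_le_sum (fun c _ => QQ_le_one P enc Λ n c)
      _ = (S.card : ℝ) := by simp
  have hε' : 0 < ε / (2 * (b₀ + 1)) := by positivity
  obtain ⟨x, ⟨Λ₀, hΛ₀, hBΛ₀, rfl⟩, hx⟩ := exists_lt_of_lt_csSup hne𝓐
    (show sSup 𝓐 - ε / (2 * (b₀ + 1)) < sSup 𝓐 by linarith)
  have hΛ₀ne : Λ₀.Nonempty := ⟨v, hBΛ₀ hvB⟩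
  refine ⟨Λ₀, hΛ₀, hΛ₀ne, fun Λ₁ Λ₂ h₁ h₂ h01 h12 => ?_⟩
  have hbound := TT_bound hT hT.connected P henc h₁ h₂ (hΛ₀ne.mono h01) h12 n hκ (hBΛ₀.trans h01 hvB) R
    hB (hBΛ₀.trans h01)
  have hA2 : A Λ₂ ≤ sSup 𝓐 := le_csSup hbdd ⟨Λ₂, h₂, hBΛ₀.trans (h01.trans h12), rfl⟩
  have hA1 : A Λ₀ ≤ A Λ₁ := Finset.sum_le_sum (fun c hc =>
    QQ_mono hT P henc hΛ₀ h₁ hΛ₀ne h01 n (hBΛ₀ (Finset.mem_product.mp hc).1))
  have hdiff : ∑ c ∈ S, (QQ P enc Λ₂ n c - QQ P enc Λ₁ n c) ≤ ε / (2 * (b₀ + 1)) := by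
    rw [Finset.sum_sub_distrib]
    show A Λ₂ - A Λ₁ ≤ _
    linarith
  have hnear : b₀ * ∑ c ∈ S, (QQ P enc Λ₂ n c - QQ P enc Λ₁ n c) ≤ ε / 2 := by
    have h1 : b₀ * ∑ c ∈ S, (QQ P enc Λ₂ n c - QQ P enc Λ₁ n c)
        ≤ (b₀ + 1) * (ε / (2 * (b₀ + 1))) := by
      have hnn : 0 ≤ ε / (2 * (b₀ + 1)) := hε'.le
      calc _ ≤ b₀ * (ε / (2 * (b₀ + 1))) := mul_le_mul_of_nonneg_left hdiff hb₀nn
        _ ≤ _ := mul_le_mul_of_nonneg_right (by linarith) hnn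
    refine h1.trans (le_of_eq ?_)
    field_simp
  have hfar' : 6 * (n * ((1 / (n * kapD P.δ) * KK P.δ P.μ n) ^ 2 * (P.ρ ^ R * P.E₁)))
      = a₀ * P.ρ ^ R := by
    rw [ha₀]; ring
  show ∫ ω, (TT P enc Λ₂ n v ω - TT P enc Λ₁ n v ω) ^ 2 ∂(Pr V) ≤ ε
  rw [hfar', ← hb₀, ← hS] at hbound
  linarith

end netcauchy

end Vale.Agent.P161
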