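import Vale.Agent.P161.Limit2

set_option autoImplicit false

noncomputable section
open scoped Classical
open Finset MeasureTheory Filter Topology

namespace Vale.Agent.P161

variable {V : Type*} {G : SimpleGraph V} {θ δ : ℝ}

section psi

/-- The decoded spin as a function of the observation array. -/
def psi (δ K : ℝ) (n : ℕ) (v : V) (y : V × ℕ → ℝ) : ℝ :=
  clip (K * ∑ j ∈ Finset.range n, aa δ (y (v, j)))

lemma abs_psi_le (K : ℝ) (n : ℕ) (v : V) (y : V × ℕ → ℝ) : |psi δ K n v y| ≤ 1 := abs_clip_le _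

lemma continuous_psi (hδ0 : 0 ≤ δ) (hδ1 : δ ≤ 1 / 2) (K : ℝ) (n : ℕ) (v : V) :
    Continuous (psi (V := V) δ K n v) := by
  unfold psi
  refine continuous_clip.comp (continuous_const.mul ?_)
  exact continuous_finsetSum _ (fun j _ =>
    (continuous_aa hδ0 hδ1).comp (continuous_apply (v, j)))

lemma Cs_le_append (o : List V) {n N : ℕ} (h : n ≤ N) : ∃ rest, Cs o N = Cs o n ++ rest := by
  induction N, h using Nat.le_induction with
  | base => exact ⟨[], by simp⟩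
  | succ N _ ih =>
    obtain ⟨rest, hr⟩ := ih
    exact ⟨rest ++ sweep o N, by simp only [Cs]; rw [hr, List.append_assoc]⟩

lemma stat_eq_sum {o : List V} (ho : o.Nodup) {v : V} (hv : v ∈ o) {n N : ℕ} (hn : n ≤ N)
    (Λ : Finset V) (z : V × ℕ → ℝ) :
    stat G θ δ Λ (Cs o n) v z
      = ∑ j ∈ Finset.range n, aa δ ((run G θ δ Λ (Cs o N) (0, 0) z).2 (v, j)) := by
  obtain ⟨rest, hr⟩ := Cs_le_append o hn
  have hnd : (Cs o N).Nodup := Cs_nodup ho N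
  have hnd' : (Cs o n ++ rest).Nodup := hr ▸ hnd
  have hnd2 : (Cs o n).Nodup := Cs_nodup ho n
  unfold stat
  rw [run_fst G θ δ Λ hnd2 (0, 0) z]
  have h1 : fieldsFrom δ ((0, 0) : St V).1 (Cs o n) (run G θ δ Λ (Cs o n) (0, 0) z).2
      = fieldsFrom δ 0 (Cs o n) (run G θ δ Λ (Cs o N) (0, 0) z).2 := by
    refine fieldsFrom_congr δ _ (fun c hc => ?_)
    rw [hr]
    exact (run_snd_append_of_mem G θ δ Λ hnd' (0, 0) z hc).symm
  rw [h1, fieldsFrom_Cs δ ho n _ hv]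

lemma tau_eq_psi {o : List V} (ho : o.Nodup) {v : V} (hv : v ∈ o) {n N : ℕ} (hn : n ≤ N)
    (K : ℝ) (Λ : Finset V) (z : V × ℕ → ℝ) :
    tau G θ δ K Λ (Cs o n) v z = psi δ K n v (run G θ δ Λ (Cs o N) (0, 0) z).2 := by
  unfold tau psi
  rw [stat_eq_sum ho hv hn]

lemma psi_plant {o : List V} {v : V} (hv : v ∈ o) {n N : ℕ} (hn : n ≤ N) (K : ℝ) (T : Finset V)
    (z : V × ℕ → ℝ) :
    psi δ K n v (plantArr δ T (Cs o N) 0 z)
      = clip (K * ∑ j ∈ Finset.range n, aa δ (Tq δ (spin T v) (z (v, j)))) := by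
  unfold psi
  congr 2
  refine Finset.sum_congr rfl (fun j hj => ?_)
  unfold plantArr
  have hm : (v, j) ∈ Cs o N := mem_Cs.mpr ⟨hv, lt_of_lt_of_le (Finset.mem_range.mp hj) hn⟩
  rw [if_pos hm]

end psi

section lawone

variable [Countable V]

/-- The law of the observation array is the mixture of planted arrays. -/
lemma law_one (hθ : |θ| < 1) (hδ0 : 0 ≤ δ) (hδ1 : δ ≤ 1 / 2) (Λ : Finset V)
    {Ξ : (V × ℕ → ℝ) → ℝ} (hΞ : Continuous Ξ) {M : ℝ} (hΞb : ∀ y, |Ξ y| ≤ M) {L : List (V × ℕ)}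
    (hL : L.Nodup) (hLΛ : ∀ c ∈ L, c.1 ∈ Λ) :
    ∫ z, Ξ (run G θ δ Λ L (0, 0) z).2 ∂(PP (V × ℕ))
      = avg G θ Λ 0 (fun T => ∫ z, Ξ (plantArr δ T L 0 z) ∂(PP (V × ℕ))) := by
  have h := law_integrated (G := G) hθ hδ0 hδ1 Λ hΞ hΞb (ξ := fun _ => 1) (B := 1) (by simp) L hL hLΛ
    (0, 0)
  have hone : ∀ (f : V → ℝ), avg G θ Λ f (fun _ => (1 : ℝ)) = 1 := fun f => avg_const hθ Λ f 1
  simpa [hone] using h

lemma planted_close (hδ0 : 0 < δ) (hδ1 : δ ≤ 1 / 2) {o : List V} {v : V} (hv : v ∈ o) {n N : ℕ}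
    (hn : 1 ≤ n) (hnN : n ≤ N) (T : Finset V) :
    ∫ z, (psi δ (1 / (n * kapD δ)) n v (plantArr δ T (Cs o N) 0 z) - spin T v) ^ 2 ∂(PP (V × ℕ))
      ≤ 4 / (n * kapD δ ^ 2) := by
  simp only [psi_plant hv hnN]
  exact planted_variance hδ0 hδ1 (spin_eq T v) v hn

lemma continuous_plant_z (hδ0 : 0 ≤ δ) (hδ1 : δ ≤ 1 / 2) (T : Finset V) (L : List (V × ℕ)) :
    Continuous (fun z : V × ℕ → ℝ => plantArr δ T L 0 z) :=
  (continuous_plantArr hδ0 hδ1 T L).comp (continuous_const.prodMk continuous_id)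

/-- Comparing two numbers of sweeps, for a fixed order. -/
lemma fiber_level (hθ : |θ| < 1) (hδ0 : 0 < δ) (hδ1 : δ ≤ 1 / 2) (Λ : Finset V) {o : List V}
    (ho : o.Nodup) (hoΛ : ∀ u ∈ o, u ∈ Λ) {v : V} (hv : v ∈ o) {n m : ℕ} (hn : 1 ≤ n) (hm : 1 ≤ m) :
    ∫ z, (tau G θ δ (1 / (n * kapD δ)) Λ (Cs o n) v z - tau G θ δ (1 / (m * kapD δ)) Λ (Cs o m) v z) ^ 2
        ∂(PP (V × ℕ))
      ≤ 8 / (n * kapD δ ^ 2) + 8 / (m * kapD δ ^ 2) := by
  set N := max n m with hN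
  have hnN : n ≤ N := le_max_left _ _
  have hmN : m ≤ N := le_max_right _ _
  have hL : (Cs o N).Nodup := Cs_nodup ho N
  have hLΛ : ∀ c ∈ Cs o N, c.1 ∈ Λ := fun c hc => hoΛ _ (mem_Cs.mp hc).1
  set Kn := 1 / ((n : ℝ) * kapD δ) with hKn
  set Km := 1 / ((m : ℝ) * kapD δ) with hKm
  let Ξ : (V × ℕ → ℝ) → ℝ := fun y => (psi δ Kn n v y - psi δ Km m v y) ^ 2
  have hΞc : Continuous Ξ :=
    ((continuous_psi hδ0.le hδ1 _ _ _).sub (continuous_psi hδ0.le hδ1 _ _ _)).pow 2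
  have hΞb : ∀ y, |Ξ y| ≤ 4 := by
    intro y
    simp only [Ξ]
    rw [abs_pow]
    have : |psi δ Kn n v y - psi δ Km m v y| ≤ 2 := by
      have := abs_sub (psi δ Kn n v y) (psi δ Km m v y)
      linarith [abs_psi_le (δ := δ) Kn n v y, abs_psi_le (δ := δ) Km m v y]
    nlinarith [abs_nonneg (psi δ Kn n v y - psi δ Km m v y)]
  have e : ∀ z, (tau G θ δ Kn Λ (Cs o n) v z - tau G θ δ Km Λ (Cs o m) v z) ^ 2
      = Ξ (run G θ δ Λ (Cs o N) (0, 0) z).2 := by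
    intro z
    rw [tau_eq_psi ho hv hnN, tau_eq_psi ho hv hmN]
  simp only [e]
  rw [law_one hθ hδ0.le hδ1 Λ hΞc hΞb hL hLΛ]
  have hbound : ∀ T, ∫ z, Ξ (plantArr δ T (Cs o N) 0 z) ∂(PP (V × ℕ))
      ≤ 8 / (n * kapD δ ^ 2) + 8 / (m * kapD δ ^ 2) := by
    intro T
    set σ := spin T v with hσ
    have hcp := continuous_plant_z hδ0.le hδ1 T (Cs o N)
    have cn : Continuous (fun z => psi δ Kn n v (plantArr δ T (Cs o N) 0 z)) :=
      (continuous_psi hδ0.le hδ1 _ _ _).comp hcp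
    have cm : Continuous (fun z => psi δ Km m v (plantArr δ T (Cs o N) 0 z)) :=
      (continuous_psi hδ0.le hδ1 _ _ _).comp hcp
    have hσb : |σ| ≤ 1 := by rw [hσ, spin_abs]
    have ibd : ∀ {f : (V × ℕ → ℝ) → ℝ}, Continuous f → (∀ z, |f z| ≤ 1) →
        Integrable (fun z => (f z - σ) ^ 2) (PP (V × ℕ)) := by
      intro f hf hb
      refine integrable_of_bdd ((hf.sub continuous_const).pow 2) (M := 4) (fun z => ?_)
      rw [abs_pow]
      have : |f z - σ| ≤ 2 := by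
        have := abs_sub (f z) σ
        linarith [hb z]
      nlinarith [abs_nonneg (f z - σ)]
    have i1 := ibd cn (fun z => abs_psi_le _ _ _ _)
    have i2 := ibd cm (fun z => abs_psi_le _ _ _ _)
    have hptw : ∀ z, Ξ (plantArr δ T (Cs o N) 0 z)
        ≤ 2 * (psi δ Kn n v (plantArr δ T (Cs o N) 0 z) - σ) ^ 2
          + 2 * (psi δ Km m v (plantArr δ T (Cs o N) 0 z) - σ) ^ 2 := by
      intro z
      simp only [Ξ]
      nlinarith [sq_nonneg ((psi δ Kn n v (plantArr δ T (Cs o N) 0 z) - σ)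
        + (psi δ Km m v (plantArr δ T (Cs o N) 0 z) - σ))]
    have h1 := planted_close (δ := δ) hδ0 hδ1 hv hn hnN T
    have h2 := planted_close (δ := δ) hδ0 hδ1 hv hm hmN T
    have i3 : Integrable (fun z => 2 * (psi δ Kn n v (plantArr δ T (Cs o N) 0 z) - σ) ^ 2)
        (PP (V × ℕ)) := i1.const_mul 2
    have i4 : Integrable (fun z => 2 * (psi δ Km m v (plantArr δ T (Cs o N) 0 z) - σ) ^ 2)
        (PP (V × ℕ)) := i2.const_mul 2
    have i5 : Integrable (fun z => 2 * (psi δ Kn n v (plantArr δ T (Cs o N) 0 z) - σ) ^ 2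
        + 2 * (psi δ Km m v (plantArr δ T (Cs o N) 0 z) - σ) ^ 2) (PP (V × ℕ)) := i3.add i4
    have hmono := integral_mono_of_nonneg (μ := PP (V × ℕ))
      (Eventually.of_forall (fun z => sq_nonneg
        (psi δ Kn n v (plantArr δ T (Cs o N) 0 z) - psi δ Km m v (plantArr δ T (Cs o N) 0 z))))
      i5 (Eventually.of_forall hptw)
    refine hmono.trans ?_
    rw [integral_add i3 i4, integral_const_mul, integral_const_mul]
    have e3 : (8 : ℝ) / (n * kapD δ ^ 2) = 2 * (4 / (n * kapD δ ^ 2)) := by ring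
    have e4 : (8 : ℝ) / (m * kapD δ ^ 2) = 2 * (4 / (m * kapD δ ^ 2)) := by ring
    rw [e3, e4]
    linarith
  have h := avg_mono (G := G) hθ Λ 0 hbound
  rwa [avg_const hθ] at h

/-- Comparing two numbers of sweeps, jointly. -/
lemma TT_level (P : Prm G θ) {enc : V → ℕ} {Λ : Finset V} {v : V} (hv : v ∈ Λ) {n m : ℕ}
    (hn : 1 ≤ n) (hm : 1 ≤ m) :
    d2 (Pr V) (TT P enc Λ n v) (TT P enc Λ m v)
      ≤ 8 / (n * kapD P.δ ^ 2) + 8 / (m * kapD P.δ ^ 2) := by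
  have hint := integrable_sq_sub (Q := Pr V) (BM_TT P enc Λ n v) (BM_TT P enc Λ m v)
  unfold d2
  unfold Pr at hint ⊢
  rw [integral_prod _ hint]
  have hb : ∀ ℓ : V → ℝ, ∫ z, (TT P enc Λ n v (ℓ, z) - TT P enc Λ m v (ℓ, z)) ^ 2 ∂(PP (V × ℕ))
      ≤ 8 / (n * kapD P.δ ^ 2) + 8 / (m * kapD P.δ ^ 2) := fun ℓ =>
    fiber_level (hθabs P) P.hδ0 P.hδ1 Λ (ord_nodup enc ℓ Λ)
      (fun u hu => (mem_ord enc ℓ Λ u).mp hu) ((mem_ord enc ℓ Λ v).mpr hv) hn hm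
  have := integral_mono_of_nonneg (μ := PP V)
    (Eventually.of_forall (fun ℓ => integral_nonneg (fun z => sq_nonneg
      (TT P enc Λ n v (ℓ, z) - TT P enc Λ m v (ℓ, z)))))
    (integrable_const (8 / ((n : ℝ) * kapD P.δ ^ 2) + 8 / ((m : ℝ) * kapD P.δ ^ 2)))
    (Eventually.of_forall hb)
  simpa using this

end lawone

section limits

variable [Countable V]

/-- The limiting estimates, at each fixed number of sweeps. -/
theorem exists_X (hT : G.IsTree) (P : Prm G θ) {enc : V → ℕ} (henc : Function.Injective enc) :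
    ∃ X : V → ℕ → (V → ℝ) × (V × ℕ → ℝ) → ℝ, (∀ v n, BM (X v n)) ∧
      ∀ v n, NetTendsto G (Pr V) (fun Λ => TT P enc Λ n v) (X v n) := by
  have h : ∀ v n, ∃ X, BM X ∧ NetTendsto G (Pr V) (fun Λ => TT P enc Λ n v) X := fun v n =>
    net_limit hT (fun Λ => BM_TT P enc Λ n v) (net_cauchy hT P henc n v)
  choose X hX1 hX2 using h
  exact ⟨X, hX1, hX2⟩

lemma X_level (hT : G.IsTree) (P : Prm G θ) {enc : V → ℕ} {X : V → ℕ → (V → ℝ) × (V × ℕ → ℝ) → ℝ}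
    (hX1 : ∀ v n, BM (X v n)) (hX2 : ∀ v n, NetTendsto G (Pr V) (fun Λ => TT P enc Λ n v) (X v n))
    (v : V) {n m : ℕ} (hn : 1 ≤ n) (hm : 1 ≤ m) :
    d2 (Pr V) (X v n) (X v m) ≤ 4 * (8 / (n * kapD P.δ ^ 2) + 8 / (m * kapD P.δ ^ 2)) := by
  refine le_of_forall_pos_le_add (fun ε hε => ?_)
  obtain ⟨Λ₁, h11, h12, h13⟩ := hX2 v n (ε / 6) (by positivity)
  obtain ⟨Λ₂, h21, h22, h23⟩ := hX2 v m (ε / 6) (by positivity)
  obtain ⟨Λ₃, h31, h32, h33⟩ := exists_convex_superset hT h11 h12 Λ₂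
  obtain ⟨Λ, hΛ, h41, h42⟩ := exists_convex_superset hT h31 (h12.mono h32) {v}
  have hv : v ∈ Λ := h42 (Finset.mem_singleton_self v)
  have e1 := h13 Λ hΛ (h32.trans h41)
  have e2 := h23 Λ hΛ (h33.trans h41)
  have e3 := TT_level P (enc := enc) hv hn hm
  simp only at e1 e2
  have t1 := d2_tri (Q := Pr V) (hX1 v n) (BM_TT P enc Λ n v) (hX1 v m)
  have t2 := d2_tri (Q := Pr V) (BM_TT P enc Λ n v) (BM_TT P enc Λ m v) (hX1 v m)
  rw [d2_comm] at e1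
  linarith

/-- The limit in the number of sweeps. -/
theorem exists_Y (hT : G.IsTree) (P : Prm G θ) {enc : V → ℕ} {X : V → ℕ → (V → ℝ) × (V × ℕ → ℝ) → ℝ}
    (hX1 : ∀ v n, BM (X v n)) (hX2 : ∀ v n, NetTendsto G (Pr V) (fun Λ => TT P enc Λ n v) (X v n)) :
    ∃ Y : V → (V → ℝ) × (V × ℕ → ℝ) → ℝ, (∀ v, BM (Y v)) ∧
      ∀ v, Tendsto (fun n => d2 (Pr V) (X v (n + 1)) (Y v)) atTop (𝓝 0) := by
  have hκ := kapD_pos P.hδ0 P.hδ1
  have h : ∀ v, ∃ Y, BM Y ∧ Tendsto (fun n => d2 (Pr V) (X v (n + 1)) Y) atTop (𝓝 0) := by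
    intro v
    obtain ⟨Y, h1, h2, h3⟩ := exists_L2_limit (P := Pr V) (fun k => X v (k + 1))
      (fun k => (hX1 v _).1) (fun k => (hX1 v _).2) (by
        intro ε hε
        obtain ⟨N, hN⟩ := exists_nat_gt (64 / (ε * kapD P.δ ^ 2))
        refine ⟨N, fun m hm m' hm' => ?_⟩
        have hb := X_level hT P hX1 hX2 v (Nat.succ_pos m) (Nat.succ_pos m')
        refine le_trans hb ?_
        have hNpos : (0 : ℝ) < N := lt_of_le_of_lt (by positivity) hN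
        have key : ∀ k : ℕ, N ≤ k → 8 / (((k + 1 : ℕ) : ℝ) * kapD P.δ ^ 2) ≤ ε / 8 := by
          intro k hk
          have hk' : (N : ℝ) ≤ k := by exact_mod_cast hk
          have h1 : 64 / (ε * kapD P.δ ^ 2) < (k + 1 : ℕ) := by
            push_cast
            linarith
          rw [div_lt_iff₀ (by positivity)] at h1
          rw [div_le_div_iff₀ (by positivity) (by norm_num)]
          nlinarith
        have k1 := key m hm
        have k2 := key m' hm'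
        linarith)
    exact ⟨Y, ⟨h1, h2⟩, h3⟩
  choose Y hY1 hY2 using h
  exact ⟨Y, hY1, hY2⟩

end limits

end Vale.Agent.P161
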