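import Vale.Agent.P161.Limit3

set_option autoImplicit false

noncomputable section
open scoped Classical
open Finset MeasureTheory Filter Topology

namespace Vale.Agent.P161

variable {V : Type*} {G : SimpleGraph V} {θ δ : ℝ}

section prodL

/-- The product of the events `x v = η`, written with the linear factors `(1 + η x) / 2`. -/
def prodL (l : List (V × ℝ)) (x : V → ℝ) : ℝ := (l.map (fun p => (1 + p.2 * x p.1) / 2)).prod

lemma factor_mem {η a : ℝ} (hη : |η| ≤ 1) (ha : |a| ≤ 1) : 0 ≤ (1 + η * a) / 2 ∧ (1 + η * a) / 2 ≤ 1 := by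
  have h : |η * a| ≤ 1 := by
    rw [abs_mul]
    exact mul_le_one₀ hη (abs_nonneg _) ha
  have := abs_le.mp h
  constructor <;> linarith [this.1, this.2]

lemma prodL_mem {l : List (V × ℝ)} (hl : ∀ p ∈ l, |p.2| ≤ 1) {x : V → ℝ} (hx : ∀ v, |x v| ≤ 1) :
    0 ≤ prodL l x ∧ prodL l x ≤ 1 := by
  induction l with
  | nil => simp [prodL]
  | cons p l ih =>
    have h1 := factor_mem (hl p (List.mem_cons_self ..)) (hx p.1)
    have h2 := ih (fun q hq => hl q (List.mem_cons_of_mem _ hq))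
    unfold prodL at h2 ⊢
    rw [List.map_cons, List.prod_cons]
    exact ⟨mul_nonneg h1.1 h2.1, mul_le_one₀ h1.2 h2.1 h2.2⟩

lemma prodL_congr {l : List (V × ℝ)} {x x' : V → ℝ} (h : ∀ p ∈ l, x p.1 = x' p.1) :
    prodL l x = prodL l x' := by
  unfold prodL
  congr 1
  exact List.map_congr_left (fun p hp => by rw [h p hp])

lemma prodL_diff {l : List (V × ℝ)} (hl : ∀ p ∈ l, |p.2| ≤ 1) {x x' : V → ℝ} (hx : ∀ v, |x v| ≤ 1)
    (hx' : ∀ v, |x' v| ≤ 1) :
    |prodL l x - prodL l x'| ≤ (l.map (fun p => |x p.1 - x' p.1|)).sum := by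
  induction l with
  | nil => simp [prodL]
  | cons p l ih =>
    have hη := hl p (List.mem_cons_self ..)
    have h1 := factor_mem hη (hx p.1)
    have h1' := factor_mem hη (hx' p.1)
    have hl' : ∀ q ∈ l, |q.2| ≤ 1 := fun q hq => hl q (List.mem_cons_of_mem _ hq)
    have h2 := prodL_mem hl' hx
    have h2' := prodL_mem hl' hx'
    have h3 := ih hl'
    have e : prodL (p :: l) x - prodL (p :: l) x'
        = ((1 + p.2 * x p.1) / 2 - (1 + p.2 * x' p.1) / 2) * prodL l x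
          + (1 + p.2 * x' p.1) / 2 * (prodL l x - prodL l x') := by
      unfold prodL
      simp only [List.map_cons, List.prod_cons]
      ring
    rw [e, List.map_cons, List.sum_cons]
    refine (abs_add_le _ _).trans ?_
    have e1 : |((1 + p.2 * x p.1) / 2 - (1 + p.2 * x' p.1) / 2) * prodL l x|
        ≤ |x p.1 - x' p.1| := by
      have e2 : (1 + p.2 * x p.1) / 2 - (1 + p.2 * x' p.1) / 2 = p.2 / 2 * (x p.1 - x' p.1) := by ring
      rw [e2, abs_mul, abs_mul]
      have h4 : |p.2 / 2| ≤ 1 := by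
        rw [abs_div, abs_of_pos (by norm_num : (0 : ℝ) < 2)]
        linarith [abs_nonneg p.2]
      have h5 : |prodL l x| ≤ 1 := by
        rw [abs_of_nonneg h2.1]
        exact h2.2
      calc |p.2 / 2| * |x p.1 - x' p.1| * |prodL l x| ≤ 1 * |x p.1 - x' p.1| * 1 :=
            mul_le_mul (mul_le_mul_of_nonneg_right h4 (abs_nonneg _)) h5 (abs_nonneg _) (by positivity)
        _ = |x p.1 - x' p.1| := by ring
    have e3 : |(1 + p.2 * x' p.1) / 2 * (prodL l x - prodL l x')|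
        ≤ (l.map (fun p => |x p.1 - x' p.1|)).sum := by
      rw [abs_mul, abs_of_nonneg h1'.1]
      calc _ ≤ 1 * |prodL l x - prodL l x'| := mul_le_mul_of_nonneg_right h1'.2 (abs_nonneg _)
        _ ≤ _ := by rw [one_mul]; exact h3
    linarith

lemma continuous_prodL {Y : Type*} [TopologicalSpace Y] (l : List (V × ℝ)) {x : V → Y → ℝ}
    (hx : ∀ v, Continuous (x v)) : Continuous (fun y => prodL l (fun v => x v y)) := by
  induction l with
  | nil => simpa [prodL] using continuous_const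
  | cons p l ih =>
    unfold prodL at ih ⊢
    simp only [List.map_cons, List.prod_cons]
    exact ((continuous_const.add (continuous_const.mul (hx p.1))).div_const 2).mul ih

lemma measurable_prodL {Y : Type*} [MeasurableSpace Y] (l : List (V × ℝ)) {x : V → Y → ℝ}
    (hx : ∀ v, Measurable (x v)) : Measurable (fun y => prodL l (fun v => x v y)) := by
  induction l with
  | nil => simpa [prodL] using measurable_const
  | cons p l ih =>
    unfold prodL at ih ⊢
    simp only [List.map_cons, List.prod_cons]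
    exact ((measurable_const.add (measurable_const.mul (hx p.1))).div_const 2).mul ih

variable {Ω : Type*} [MeasurableSpace Ω] {Q : Measure Ω} [IsProbabilityMeasure Q]

lemma BM_prodL {l : List (V × ℝ)} (hl : ∀ p ∈ l, |p.2| ≤ 1) {x : V → Ω → ℝ} (hx : ∀ v, BM (x v)) :
    BM (fun ω => prodL l (fun v => x v ω)) := by
  refine ⟨measurable_prodL l (fun v => (hx v).1), fun ω => ?_⟩
  have := prodL_mem hl (x := fun v => x v ω) (fun v => (hx v).2 ω)
  rw [abs_of_nonneg this.1]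
  exact this.2

lemma BM_integrable {F : Ω → ℝ} (hF : BM F) : Integrable F Q :=
  Integrable.of_bound hF.1.aestronglyMeasurable 1 (Eventually.of_forall hF.2)

lemma integral_list_sum_le {l : List (V × ℝ)} {g : V × ℝ → Ω → ℝ} (hg : ∀ p, Measurable (g p))
    (hgb : ∀ p ω, |g p ω| ≤ 2) :
    ∫ ω, (l.map (fun p => g p ω)).sum ∂Q = (l.map (fun p => ∫ ω, g p ω ∂Q)).sum := by
  have hint : ∀ (p : V × ℝ), Integrable (g p) Q := fun p =>
    Integrable.of_bound (hg p).aestronglyMeasurable 2 (Eventually.of_forall (hgb p))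
  have hintS : ∀ l : List (V × ℝ), Integrable (fun ω => (l.map (fun p => g p ω)).sum) Q := by
    intro l
    induction l with
    | nil => simp
    | cons p l ih =>
      simp only [List.map_cons, List.sum_cons]
      exact (hint p).add ih
  induction l with
  | nil => simp
  | cons p l ih =>
    simp only [List.map_cons, List.sum_cons]
    rw [integral_add (hint p) (hintS l), ih]

/-- Expectations of products are controlled in `L²`. -/
lemma integral_prodL_diff {l : List (V × ℝ)} (hl : ∀ p ∈ l, |p.2| ≤ 1) {x x' : V → Ω → ℝ}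
    (hx : ∀ v, BM (x v)) (hx' : ∀ v, BM (x' v)) :
    |∫ ω, prodL l (fun v => x v ω) ∂Q - ∫ ω, prodL l (fun v => x' v ω) ∂Q|
      ≤ (l.map (fun p => Real.sqrt (d2 Q (x p.1) (x' p.1)))).sum := by
  have i1 := BM_integrable (Q := Q) (BM_prodL hl hx)
  have i2 := BM_integrable (Q := Q) (BM_prodL hl hx')
  rw [← integral_sub i1 i2]
  refine (abs_integral_le_integral_abs).trans ?_
  have hm : ∀ p : V × ℝ, Measurable (fun ω => |x p.1 ω - x' p.1 ω|) := fun p =>
    ((hx p.1).1.sub (hx' p.1).1).abs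
  have hb : ∀ (p : V × ℝ) ω, |(fun ω => |x p.1 ω - x' p.1 ω|) ω| ≤ 2 := by
    intro p ω
    simp only [abs_abs]
    have := abs_sub (x p.1 ω) (x' p.1 ω)
    linarith [(hx p.1).2 ω, (hx' p.1).2 ω]
  have hbound : ∀ ω, |prodL l (fun v => x v ω) - prodL l (fun v => x' v ω)|
      ≤ (l.map (fun p => |x p.1 ω - x' p.1 ω|)).sum := fun ω =>
    prodL_diff hl (fun v => (hx v).2 ω) (fun v => (hx' v).2 ω)
  have hintS : ∀ l : List (V × ℝ), Integrable (fun ω => (l.map (fun p => |x p.1 ω - x' p.1 ω|)).sum) Q := by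
    intro l
    induction l with
    | nil => simp
    | cons p l ih =>
      simp only [List.map_cons, List.sum_cons]
      exact (Integrable.of_bound (hm p).aestronglyMeasurable 2
        (Eventually.of_forall (fun ω => hb p ω))).add ih
  have h1 := integral_mono_of_nonneg (μ := Q) (Eventually.of_forall (fun ω => abs_nonneg
    (prodL l (fun v => x v ω) - prodL l (fun v => x' v ω)))) (hintS l) (Eventually.of_forall hbound)
  refine h1.trans ?_
  rw [integral_list_sum_le hm hb]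
  refine List.sum_le_sum (fun p _ => ?_)
  exact integral_abs_sub_le (hx p.1) (hx' p.1)

end prodL

section fiberlaw

variable [Countable V]

/-- The law of the decoded spins, for a fixed order. -/
theorem fiber_law (hθ : |θ| < 1) (hδ0 : 0 < δ) (hδ1 : δ ≤ 1 / 2) (Λ : Finset V) {o : List V}
    (ho : o.Nodup) (hoΛ : ∀ u ∈ o, u ∈ Λ) {l : List (V × ℝ)} (hl : ∀ p ∈ l, |p.2| ≤ 1)
    (hlo : ∀ p ∈ l, p.1 ∈ o) {n : ℕ} (hn : 1 ≤ n) :
    |∫ z, prodL l (fun v => tau G θ δ (1 / (n * kapD δ)) Λ (Cs o n) v z) ∂(PP (V × ℕ))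
        - avg G θ Λ 0 (fun T => prodL l (spin T))|
      ≤ l.length * Real.sqrt (4 / (n * kapD δ ^ 2)) := by
  set K := 1 / ((n : ℝ) * kapD δ) with hK
  have hL : (Cs o n).Nodup := Cs_nodup ho n
  have hLΛ : ∀ c ∈ Cs o n, c.1 ∈ Λ := fun c hc => hoΛ _ (mem_Cs.mp hc).1
  let Ξ : (V × ℕ → ℝ) → ℝ := fun y => prodL l (fun v => psi δ K n v y)
  have hΞc : Continuous Ξ := continuous_prodL l (fun v => continuous_psi hδ0.le hδ1 K n v)
  have hΞb : ∀ y, |Ξ y| ≤ 1 := by
    intro y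
    have := prodL_mem hl (x := fun v => psi δ K n v y) (fun v => abs_psi_le K n v y)
    simp only [Ξ]
    rw [abs_of_nonneg this.1]
    exact this.2
  have e : ∀ z, prodL l (fun v => tau G θ δ K Λ (Cs o n) v z)
      = Ξ (run G θ δ Λ (Cs o n) (0, 0) z).2 := by
    intro z
    refine prodL_congr (fun p hp => ?_)
    exact tau_eq_psi ho (hlo p hp) le_rfl K Λ z
  simp only [e]
  rw [law_one hθ hδ0.le hδ1 Λ hΞc hΞb hL hLΛ]
  have hsub : avg G θ Λ 0 (fun T => ∫ z, Ξ (plantArr δ T (Cs o n) 0 z) ∂(PP (V × ℕ)))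
      - avg G θ Λ 0 (fun T => prodL l (spin T))
      = avg G θ Λ 0 (fun T => ∫ z, Ξ (plantArr δ T (Cs o n) 0 z) ∂(PP (V × ℕ)) - prodL l (spin T)) := by
    have h1 := avg_add (G := G) (θ := θ) Λ 0 (fun T => ∫ z, Ξ (plantArr δ T (Cs o n) 0 z) ∂(PP (V × ℕ)))
      (fun T => (-1) * prodL l (spin T))
    have h2 : (fun T => ∫ z, Ξ (plantArr δ T (Cs o n) 0 z) ∂(PP (V × ℕ)) - prodL l (spin T))
        = (fun T => ∫ z, Ξ (plantArr δ T (Cs o n) 0 z) ∂(PP (V × ℕ)) + (-1) * prodL l (spin T)) := by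
      funext T
      ring
    rw [h2, h1, avg_mul_const]
    ring
  rw [hsub]
  refine abs_avg_le hθ Λ 0 (fun T => ?_)
  -- a fixed planted configuration
  have hx : ∀ v, BM (fun z => psi δ K n v (plantArr δ T (Cs o n) 0 z)) := fun v =>
    ⟨((continuous_psi hδ0.le hδ1 K n v).comp (continuous_plant_z hδ0.le hδ1 T _)).measurable,
      fun z => abs_psi_le _ _ _ _⟩
  have hx' : ∀ v, BM (fun _ : V × ℕ → ℝ => spin T v) := fun v =>
    ⟨measurable_const, fun _ => by rw [spin_abs]⟩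
  have h := integral_prodL_diff (Q := PP (V × ℕ)) hl hx hx'
  have hconst : ∫ _z : V × ℕ → ℝ, prodL l (fun v => spin T v) ∂(PP (V × ℕ)) = prodL l (spin T) := by
    simp
  rw [hconst] at h
  refine h.trans ?_
  have hterm : ∀ p ∈ l, Real.sqrt (d2 (PP (V × ℕ))
      (fun z => psi δ K n p.1 (plantArr δ T (Cs o n) 0 z)) (fun _ => spin T p.1))
      ≤ Real.sqrt (4 / (n * kapD δ ^ 2)) := by
    intro p hp
    refine Real.sqrt_le_sqrt ?_
    exact planted_close hδ0 hδ1 (hlo p hp) hn le_rfl T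
  have hsum : (l.map (fun p => Real.sqrt (d2 (PP (V × ℕ))
      (fun z => psi δ K n p.1 (plantArr δ T (Cs o n) 0 z)) (fun _ => spin T p.1)))).sum
      ≤ l.length * Real.sqrt (4 / (n * kapD δ ^ 2)) := by
    have := List.sum_le_card_nsmul (l.map (fun p => Real.sqrt (d2 (PP (V × ℕ))
      (fun z => psi δ K n p.1 (plantArr δ T (Cs o n) 0 z)) (fun _ => spin T p.1))))
      (Real.sqrt (4 / (n * kapD δ ^ 2))) (by
        intro x hx
        obtain ⟨p, hp, rfl⟩ := List.mem_map.mp hx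
        exact hterm p hp)
    simpa using this
  exact hsum

/-- The law of the decoded spins, averaging over the labels. -/
theorem TT_law (P : Prm G θ) (enc : V → ℕ) (Λ : Finset V) {l : List (V × ℝ)}
    (hl : ∀ p ∈ l, |p.2| ≤ 1) (hlΛ : ∀ p ∈ l, p.1 ∈ Λ) {n : ℕ} (hn : 1 ≤ n) :
    |∫ ω, prodL l (fun v => TT P enc Λ n v ω) ∂(Pr V) - avg G θ Λ 0 (fun T => prodL l (spin T))|
      ≤ l.length * Real.sqrt (4 / (n * kapD P.δ ^ 2)) := by
  have hBM := BM_prodL (Ω := (V → ℝ) × (V × ℕ → ℝ)) hl (x := fun v => TT P enc Λ n v)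
    (fun v => BM_TT P enc Λ n v)
  have hint : Integrable (fun ω => prodL l (fun v => TT P enc Λ n v ω)) (Pr V) := BM_integrable hBM
  unfold Pr at hint ⊢
  rw [integral_prod _ hint]
  set c := avg G θ Λ 0 (fun T => prodL l (spin T)) with hc
  have hi := hint.integral_prod_left
  have h0 : ∫ ℓ, ∫ z, prodL l (fun v => TT P enc Λ n v (ℓ, z)) ∂(PP (V × ℕ)) ∂(PP V) - c
      = ∫ ℓ, (∫ z, prodL l (fun v => TT P enc Λ n v (ℓ, z)) ∂(PP (V × ℕ)) - c) ∂(PP V) := by
    rw [integral_sub hi (integrable_const c)]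
    simp
  rw [h0]
  have hb : ∀ ℓ : V → ℝ, ‖∫ z, prodL l (fun v => TT P enc Λ n v (ℓ, z)) ∂(PP (V × ℕ)) - c‖
      ≤ l.length * Real.sqrt (4 / (n * kapD P.δ ^ 2)) := by
    intro ℓ
    rw [Real.norm_eq_abs]
    exact fiber_law (hθabs P) P.hδ0 P.hδ1 Λ (ord_nodup enc ℓ Λ)
      (fun u hu => (mem_ord enc ℓ Λ u).mp hu) hl
      (fun p hp => (mem_ord enc ℓ Λ p.1).mpr (hlΛ p hp)) hn
  have key := norm_integral_le_of_norm_le_const (μ := PP V)
    (f := fun ℓ : V → ℝ => ∫ z, prodL l (fun v => TT P enc Λ n v (ℓ, z)) ∂(PP (V × ℕ)) - c)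
    (Eventually.of_forall hb)
  simpa [Real.norm_eq_abs] using key

end fiberlaw

section limitlaw

variable [Countable V]

lemma exists_uniform_net {Ω : Type*} [MeasurableSpace Ω] {Q : Measure Ω} (hT : G.IsTree)
    {F : V → Finset V → Ω → ℝ} {X : V → Ω → ℝ}
    (hX : ∀ v, NetTendsto G Q (F v) (X v)) {ε : ℝ} (hε : 0 < ε) {Λl : Finset V}
    (hΛl : IsConvexSet G Λl) (hne : Λl.Nonempty) (l : List (V × ℝ)) :
    ∃ Λ₀, IsConvexSet G Λ₀ ∧ Λl ⊆ Λ₀ ∧ ∀ Λ, IsConvexSet G Λ → Λ₀ ⊆ Λ →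
      ∀ p ∈ l, d2 Q (F p.1 Λ) (X p.1) ≤ ε := by
  induction l with
  | nil => exact ⟨Λl, hΛl, Finset.Subset.refl _, fun _ _ _ p hp => by simp at hp⟩
  | cons q l ih =>
    obtain ⟨Λ₁, h1, h2, h3⟩ := ih
    obtain ⟨Λ₂, h4, h5, h6⟩ := hX q.1 ε hε
    obtain ⟨Λ₃, h7, h8, h9⟩ := exists_convex_superset hT h1 (hne.mono h2) Λ₂
    refine ⟨Λ₃, h7, h2.trans h8, fun Λ hΛ hsub p hp => ?_⟩
    rcases List.mem_cons.mp hp with rfl | hp'
    · exact h6 Λ hΛ (h9.trans hsub)
    · exact h3 Λ hΛ (h8.trans hsub) p hp'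

/-- The law of the limiting estimates. -/
theorem X_law (hT : G.IsTree) (P : Prm G θ) {enc : V → ℕ} {X : V → ℕ → (V → ℝ) × (V × ℕ → ℝ) → ℝ}
    (hX1 : ∀ v n, BM (X v n)) (hX2 : ∀ v n, NetTendsto G (Pr V) (fun Λ => TT P enc Λ n v) (X v n))
    {l : List (V × ℝ)} (hl : ∀ p ∈ l, |p.2| ≤ 1) {Λl : Finset V} (hΛl : IsConvexSet G Λl)
    (hne : Λl.Nonempty) (hlΛ : ∀ p ∈ l, p.1 ∈ Λl) {n : ℕ} (hn : 1 ≤ n) :
    |∫ ω, prodL l (fun v => X v n ω) ∂(Pr V) - avg G θ Λl 0 (fun T => prodL l (spin T))|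
      ≤ l.length * Real.sqrt (4 / (n * kapD P.δ ^ 2)) := by
  refine le_of_forall_pos_le_add (fun ε hε => ?_)
  set L : ℝ := (l.length : ℝ) with hLdef
  have hε' : 0 < ε / (L + 1) := by positivity
  obtain ⟨Λ₀, h1, h2, h3⟩ := exists_uniform_net (Q := Pr V) hT (F := fun v Λ => TT P enc Λ n v)
    (X := fun v => X v n) (fun v => hX2 v n) (ε := (ε / (L + 1)) ^ 2) (by positivity) hΛl hne l
  have hsub := h3 Λ₀ h1 (Finset.Subset.refl _)
  have hd := integral_prodL_diff (Q := Pr V) hl (x := fun v => X v n)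
    (x' := fun v => TT P enc Λ₀ n v) (fun v => hX1 v n) (fun v => BM_TT P enc Λ₀ n v)
  have hsum : (l.map (fun p => Real.sqrt (d2 (Pr V) (X p.1 n) (TT P enc Λ₀ n p.1)))).sum
      ≤ L * (ε / (L + 1)) := by
    have := List.sum_le_card_nsmul (l.map (fun p => Real.sqrt (d2 (Pr V) (X p.1 n)
      (TT P enc Λ₀ n p.1)))) (ε / (L + 1)) (by
        intro x hx
        obtain ⟨p, hp, rfl⟩ := List.mem_map.mp hx
        have e := hsub p hp
        rw [d2_comm] at e
        calc _ ≤ Real.sqrt ((ε / (L + 1)) ^ 2) := Real.sqrt_le_sqrt e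
          _ = ε / (L + 1) := Real.sqrt_sq hε'.le)
    simpa using this
  have hLε : L * (ε / (L + 1)) ≤ ε := by
    have hL0 : 0 ≤ L := Nat.cast_nonneg _
    rw [mul_div_assoc', div_le_iff₀ (by positivity)]
    nlinarith
  have hlaw := TT_law P enc Λ₀ hl (fun p hp => h2 (hlΛ p hp)) hn
  have hmarg : avg G θ Λ₀ 0 (fun T => prodL l (spin T)) = avg G θ Λl 0 (fun T => prodL l (spin T)) :=
    avg_marginal hT (hθabs P) hΛl h1 hne h2 (fun T T' hTT =>
      prodL_congr (fun p hp => hTT p.1 (hlΛ p hp)))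
  rw [hmarg] at hlaw
  have := abs_sub_le (∫ ω, prodL l (fun v => X v n ω) ∂(Pr V))
    (∫ ω, prodL l (fun v => TT P enc Λ₀ n v ω) ∂(Pr V)) (avg G θ Λl 0 (fun T => prodL l (spin T)))
  linarith

/-- The law of the limit. -/
theorem Y_law (hT : G.IsTree) (P : Prm G θ) {enc : V → ℕ} {X : V → ℕ → (V → ℝ) × (V × ℕ → ℝ) → ℝ}
    (hX1 : ∀ v n, BM (X v n)) (hX2 : ∀ v n, NetTendsto G (Pr V) (fun Λ => TT P enc Λ n v) (X v n))
    {Y : V → (V → ℝ) × (V × ℕ → ℝ) → ℝ} (hY1 : ∀ v, BM (Y v))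
    (hY2 : ∀ v, Tendsto (fun n => d2 (Pr V) (X v (n + 1)) (Y v)) atTop (𝓝 0))
    {l : List (V × ℝ)} (hl : ∀ p ∈ l, |p.2| ≤ 1) {Λl : Finset V} (hΛl : IsConvexSet G Λl)
    (hne : Λl.Nonempty) (hlΛ : ∀ p ∈ l, p.1 ∈ Λl) :
    ∫ ω, prodL l (fun v => Y v ω) ∂(Pr V) = avg G θ Λl 0 (fun T => prodL l (spin T)) := by
  set π := avg G θ Λl 0 (fun T => prodL l (spin T)) with hπ
  have hbound : ∀ n : ℕ, |∫ ω, prodL l (fun v => Y v ω) ∂(Pr V) - π|
      ≤ (l.map (fun p => Real.sqrt (d2 (Pr V) (X p.1 (n + 1)) (Y p.1)))).sum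
        + l.length * Real.sqrt (4 / (((n + 1 : ℕ) : ℝ) * kapD P.δ ^ 2)) := by
    intro n
    have h1 := integral_prodL_diff (Q := Pr V) hl (x := fun v => X v (n + 1)) (x' := Y)
      (fun v => hX1 v _) hY1
    have h2 := X_law hT P hX1 hX2 hl hΛl hne hlΛ (n := n + 1) (Nat.le_add_left 1 n)
    have := abs_sub_le (∫ ω, prodL l (fun v => Y v ω) ∂(Pr V))
      (∫ ω, prodL l (fun v => X v (n + 1) ω) ∂(Pr V)) π
    rw [abs_sub_comm (∫ ω, prodL l (fun v => Y v ω) ∂(Pr V))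
      (∫ ω, prodL l (fun v => X v (n + 1) ω) ∂(Pr V))] at this
    linarith
  have hlim1 : ∀ l' : List (V × ℝ),
      Tendsto (fun n => (l'.map (fun p => Real.sqrt (d2 (Pr V) (X p.1 (n + 1)) (Y p.1)))).sum)
        atTop (𝓝 0) := by
    intro l'
    induction l' with
    | nil => simpa using tendsto_const_nhds
    | cons p l' ih =>
      simp only [List.map_cons, List.sum_cons]
      have h1 : Tendsto (fun n => Real.sqrt (d2 (Pr V) (X p.1 (n + 1)) (Y p.1))) atTop (𝓝 0) := by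
        have := (Real.continuous_sqrt.tendsto 0).comp (hY2 p.1)
        simpa [Function.comp_def] using this
      simpa using h1.add ih
  have hκ := kapD_pos P.hδ0 P.hδ1
  have hlim2 : Tendsto (fun n : ℕ => (l.length : ℝ) * Real.sqrt (4 / (((n + 1 : ℕ) : ℝ) * kapD P.δ ^ 2)))
      atTop (𝓝 0) := by
    have h0 : Tendsto (fun n : ℕ => 4 / (((n + 1 : ℕ) : ℝ) * kapD P.δ ^ 2)) atTop (𝓝 0) := by
      have h1 : Tendsto (fun n : ℕ => (4 / kapD P.δ ^ 2) * (1 / ((n : ℝ) + 1))) atTop (𝓝 ((4 / kapD P.δ ^ 2) * 0)) :=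
        tendsto_one_div_add_atTop_nhds_zero_nat.const_mul _
      rw [mul_zero] at h1
      refine h1.congr (fun n => ?_)
      push_cast
      field_simp
    have h1 := (Real.continuous_sqrt.tendsto 0).comp h0
    have h2 := h1.const_mul (l.length : ℝ)
    simpa [Function.comp_def] using h2
  have hlim := (hlim1 l).add hlim2
  rw [add_zero] at hlim
  have hzero : |∫ ω, prodL l (fun v => Y v ω) ∂(Pr V) - π| ≤ 0 := ge_of_tendsto' hlim hbound
  have := abs_nonpos_iff.mp hzero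
  linarith

end limitlaw

end Vale.Agent.P161
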