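import Vale.Agent.P161.Limit4
import Vale.Agent.P161.Equiv

set_option autoImplicit false

noncomputable section
open scoped Classical
open Finset MeasureTheory Filter Topology

namespace Vale.Agent.P161

variable {V : Type*} {G : SimpleGraph V} {θ : ℝ}

section sign

variable [Countable V]

/-- The limit takes the values `±1`. -/
theorem Y_sign (hT : G.IsTree) (P : Prm G θ) {enc : V → ℕ} {X : V → ℕ → (V → ℝ) × (V × ℕ → ℝ) → ℝ}
    (hX1 : ∀ v n, BM (X v n)) (hX2 : ∀ v n, NetTendsto G (Pr V) (fun Λ => TT P enc Λ n v) (X v n))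
    {Y : V → (V → ℝ) × (V × ℕ → ℝ) → ℝ} (hY1 : ∀ v, BM (Y v))
    (hY2 : ∀ v, Tendsto (fun n => d2 (Pr V) (X v (n + 1)) (Y v)) atTop (𝓝 0)) (v : V) :
    ∀ᵐ ω ∂(Pr V), Y v ω = 1 ∨ Y v ω = -1 := by
  let l : List (V × ℝ) := [(v, 1), (v, -1)]
  have hl : ∀ p ∈ l, |p.2| ≤ 1 := by
    intro p hp
    simp only [l, List.mem_cons, List.not_mem_nil, or_false] at hp
    rcases hp with rfl | rfl <;> simp
  have hlaw := Y_law hT P hX1 hX2 hY1 hY2 hl (isConvexSet_singleton hT v)
    (Finset.singleton_nonempty v) (by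
      intro p hp
      simp only [l, List.mem_cons, List.not_mem_nil, or_false] at hp
      rcases hp with rfl | rfl <;> simp)
  have hzero : ∀ T : Finset V, prodL l (spin T) = 0 := by
    intro T
    simp only [prodL, l, List.map_cons, List.map_nil, List.prod_cons, List.prod_nil]
    rcases spin_eq T v with h | h <;> rw [h] <;> norm_num
  have hav : avg G θ {v} 0 (fun T => prodL l (spin T)) = 0 := by
    simp only [hzero]
    exact avg_const (hθabs P) _ _ 0
  rw [hav] at hlaw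
  have hBM := BM_prodL hl (x := Y) hY1
  have hnn : 0 ≤ᵐ[Pr V] fun ω => prodL l (fun v => Y v ω) :=
    Eventually.of_forall (fun ω => (prodL_mem hl (x := fun v => Y v ω) (fun v => (hY1 v).2 ω)).1)
  have hae := (integral_eq_zero_iff_of_nonneg_ae hnn (BM_integrable hBM)).mp hlaw
  filter_upwards [hae] with ω hω
  simp only [Pi.zero_apply, prodL, l, List.map_cons, List.map_nil, List.prod_cons, List.prod_nil,
    mul_one] at hω
  rcases mul_eq_zero.mp hω with h | h
  · right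
    linarith
  · left
    linarith

/-- The sign of a real number, as `±1`. -/
def sgnR (x : ℝ) : ℝ := if 0 < x then 1 else -1

lemma sgnR_eq (x : ℝ) : sgnR x = 1 ∨ sgnR x = -1 := by
  unfold sgnR
  split_ifs <;> simp

lemma sgnR_of_sign {x : ℝ} (h : x = 1 ∨ x = -1) : sgnR x = x := by
  rcases h with rfl | rfl <;> simp [sgnR]

lemma measurable_sgnR : Measurable sgnR := by
  unfold sgnR
  exact Measurable.ite measurableSet_Ioi measurable_const measurable_const

/-- On sign-valued `x`, the product of linear factors is the indicator of the event. -/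
lemma prod_factor_indicator {D : Finset V} {η x : V → ℝ} (hη : ∀ v, η v = 1 ∨ η v = -1)
    (hx : ∀ v, x v = 1 ∨ x v = -1) :
    ∏ v ∈ D, (1 + η v * x v) / 2 = if ∀ v ∈ D, x v = η v then 1 else 0 := by
  split_ifs with h
  · refine Finset.prod_eq_one (fun v hv => ?_)
    rw [h v hv]
    rcases hη v with e | e <;> rw [e] <;> norm_num
  · push Not at h
    obtain ⟨v, hv, hne⟩ := h
    refine Finset.prod_eq_zero hv ?_
    rcases hη v with e | e <;> rcases hx v with e' | e' <;> rw [e, e'] at hne ⊢ <;>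
      first
        | exact absurd rfl hne
        | norm_num

lemma prodL_toList (D : Finset V) (η x : V → ℝ) :
    prodL (D.toList.map (fun v => (v, η v))) x = ∏ v ∈ D, (1 + η v * x v) / 2 := by
  unfold prodL
  rw [List.map_map]
  exact Finset.prod_map_toList D _

/-- Probability of a cylinder event for the sign of the limit. -/
theorem Y_cylinder (hT : G.IsTree) (P : Prm G θ) {enc : V → ℕ} {X : V → ℕ → (V → ℝ) × (V × ℕ → ℝ) → ℝ}
    (hX1 : ∀ v n, BM (X v n)) (hX2 : ∀ v n, NetTendsto G (Pr V) (fun Λ => TT P enc Λ n v) (X v n))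
    {Y : V → (V → ℝ) × (V × ℕ → ℝ) → ℝ} (hY1 : ∀ v, BM (Y v))
    (hY2 : ∀ v, Tendsto (fun n => d2 (Pr V) (X v (n + 1)) (Y v)) atTop (𝓝 0))
    {D : Finset V} (hD : IsConvexSet G D) (hne : D.Nonempty) {η : V → ℝ}
    (hη : ∀ v, η v = 1 ∨ η v = -1) :
    (Pr V) {ω | ∀ v ∈ D, sgnR (Y v ω) = η v}
      = ENNReal.ofReal (avg G θ D 0 (fun T => ∏ v ∈ D, (1 + η v * spin T v) / 2)) := by
  let l := D.toList.map (fun v => (v, η v))
  have hl : ∀ p ∈ l, |p.2| ≤ 1 := by
    intro p hp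
    obtain ⟨v, _, rfl⟩ := List.mem_map.mp hp
    rcases hη v with e | e <;> simp [e]
  have hlD : ∀ p ∈ l, p.1 ∈ D := by
    intro p hp
    obtain ⟨v, hv, rfl⟩ := List.mem_map.mp hp
    exact Finset.mem_toList.mp hv
  have hlaw := Y_law hT P hX1 hX2 hY1 hY2 hl hD hne hlD
  simp only [l, prodL_toList] at hlaw
  have hmeas : MeasurableSet {ω | ∀ v ∈ D, sgnR (Y v ω) = η v} := by
    have : {ω | ∀ v ∈ D, sgnR (Y v ω) = η v} = ⋂ v ∈ D, {ω | sgnR (Y v ω) = η v} := by
      ext ω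
      simp
    rw [this]
    refine Finset.measurableSet_biInter D (fun v _ => ?_)
    exact measurable_sgnR.comp (hY1 v).1 (measurableSet_singleton (η v))
  have hsign : ∀ᵐ ω ∂(Pr V), ∀ v, Y v ω = 1 ∨ Y v ω = -1 :=
    ae_all_iff.mpr (fun v => Y_sign hT P hX1 hX2 hY1 hY2 v)
  have hind : (fun ω => ∏ v ∈ D, (1 + η v * Y v ω) / 2)
      =ᵐ[Pr V] Set.indicator {ω | ∀ v ∈ D, sgnR (Y v ω) = η v} (fun _ => (1 : ℝ)) := by
    filter_upwards [hsign] with ω hω
    rw [prod_factor_indicator hη hω]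
    simp only [Set.indicator, Set.mem_ofPred_eq]
    have : (∀ v ∈ D, Y v ω = η v) ↔ (∀ v ∈ D, sgnR (Y v ω) = η v) := by
      constructor
      · intro h v hv
        rw [sgnR_of_sign (hω v)]
        exact h v hv
      · intro h v hv
        rw [← sgnR_of_sign (hω v)]
        exact h v hv
    simp only [this]
  rw [integral_congr_ae hind, integral_indicator hmeas] at hlaw
  simp only [integral_const, smul_eq_mul, mul_one] at hlaw
  rw [← hlaw]
  simp [Measure.real]

end sign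

section equivariance

variable [Countable V]

/-- The action of an automorphism on labels and noise. -/
def acts (g : G ≃g G) (ω : (V → ℝ) × (V × ℕ → ℝ)) : (V → ℝ) × (V × ℕ → ℝ) :=
  (ω.1 ∘ g.toEquiv.symm, ω.2 ∘ (hatG g).symm)

lemma measurable_acts (g : G ≃g G) : Measurable (acts g) := by
  unfold acts
  refine Measurable.prodMk ?_ ?_
  · refine measurable_pi_iff.mpr (fun v => ?_)
    exact (measurable_pi_apply _).comp measurable_fst
  · refine measurable_pi_iff.mpr (fun c => ?_)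
    exact (measurable_pi_apply _).comp measurable_snd

lemma map_acts (g : G ≃g G) : Measure.map (acts g) (Pr V) = Pr V := by
  have h1 := PP_map_comp_equiv (I := V) (J := V) g.toEquiv
  have h2 := PP_map_comp_equiv (I := V × ℕ) (J := V × ℕ) (hatG g)
  have m1 : Measurable (fun ω : V → ℝ => ω ∘ g.toEquiv.symm) :=
    measurable_pi_iff.mpr (fun v => measurable_pi_apply _)
  have m2 : Measurable (fun ω : V × ℕ → ℝ => ω ∘ (hatG g).symm) :=
    measurable_pi_iff.mpr (fun v => measurable_pi_apply _)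
  unfold Pr
  have := Measure.map_prod_map (PP V) (PP (V × ℕ)) m1 m2
  rw [h1, h2] at this
  exact this.symm

lemma integral_acts (g : G ≃g G) {f : (V → ℝ) × (V × ℕ → ℝ) → ℝ} (hf : Measurable f) :
    ∫ ω, f (acts g ω) ∂(Pr V) = ∫ ω, f ω ∂(Pr V) := by
  conv_rhs => rw [← map_acts g]
  rw [integral_map (measurable_acts g).aemeasurable hf.aestronglyMeasurable]

lemma BM_comp_acts (g : G ≃g G) {F : (V → ℝ) × (V × ℕ → ℝ) → ℝ} (hF : BM F) : BM (fun ω => F (acts g ω)) :=
  ⟨hF.1.comp (measurable_acts g), fun ω => hF.2 _⟩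

lemma d2_acts (g : G ≃g G) {F F' : (V → ℝ) × (V × ℕ → ℝ) → ℝ} (hF : BM F) (hF' : BM F') :
    d2 (Pr V) (fun ω => F (acts g ω)) (fun ω => F' (acts g ω)) = d2 (Pr V) F F' := by
  unfold d2
  exact integral_acts g (f := fun ω => (F ω - F' ω) ^ 2) ((hF.1.sub hF'.1).pow_const 2)

lemma ae_injective_fst : ∀ᵐ ω ∂(Pr V), Function.Injective ω.1 := by
  unfold Pr
  exact Measure.quasiMeasurePreserving_fst.ae (ae_injective_label (V := V))

/-- Covariance of the finite-volume estimates. -/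
lemma TT_acts (P : Prm G θ) {enc : V → ℕ} (henc : Function.Injective enc) (g : G ≃g G) (Λ : Finset V)
    (n : ℕ) (v : V) : ∀ᵐ ω ∂(Pr V),
      TT P enc (Λ.map g.toEquiv.toEmbedding) n (g v) (acts g ω) = TT P enc Λ n v ω := by
  filter_upwards [ae_injective_fst (V := V)] with ω hω
  unfold TT acts
  exact tau_map henc g hω _ Λ n v ω.2

lemma d2_congr_ae {Ω : Type*} [MeasurableSpace Ω] {Q : Measure Ω} {F F' H : Ω → ℝ}
    (h : F =ᵐ[Q] F') : d2 Q F H = d2 Q F' H := by
  unfold d2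
  refine integral_congr_ae ?_
  filter_upwards [h] with ω hω
  rw [hω]

/-- Equivariance at a fixed number of sweeps. -/
lemma X_acts (hT : G.IsTree) (P : Prm G θ) {enc : V → ℕ} (henc : Function.Injective enc)
    {X : V → ℕ → (V → ℝ) × (V × ℕ → ℝ) → ℝ}
    (hX1 : ∀ v n, BM (X v n)) (hX2 : ∀ v n, NetTendsto G (Pr V) (fun Λ => TT P enc Λ n v) (X v n))
    (g : G ≃g G) (v : V) (n : ℕ) :
    d2 (Pr V) (X v n) (fun ω => X (g v) n (acts g ω)) ≤ 0 := by
  refine le_of_forall_pos_le_add (fun ε hε => ?_)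
  rw [zero_add]
  obtain ⟨Λ₁, h11, h12, h13⟩ := hX2 v n (ε / 4) (by positivity)
  obtain ⟨Λ₂, h21, h22, h23⟩ := hX2 (g v) n (ε / 4) (by positivity)
  obtain ⟨Λ, hΛ, h41, h42⟩ := exists_convex_superset hT h11 h12 (Λ₂.map g.symm.toEquiv.toEmbedding)
  have e1 := h13 Λ hΛ h41
  have hΛmap : IsConvexSet G (Λ.map g.toEquiv.toEmbedding) := isConvexSet_map hT g hΛ
  have hsub : Λ₂ ⊆ Λ.map g.toEquiv.toEmbedding := by
    intro w hw
    rw [Finset.mem_map]
    refine ⟨g.symm w, h42 (Finset.mem_map.mpr ⟨w, hw, rfl⟩), ?_⟩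
    simp
  have e2 := h23 _ hΛmap hsub
  simp only at e1 e2
  have hF := BM_TT P enc (Λ.map g.toEquiv.toEmbedding) n (g v)
  have e3 := d2_acts g hF (hX1 (g v) n)
  rw [e3.symm.trans (by rfl)] at e2
  rw [d2_congr_ae (TT_acts P henc g Λ n v)] at e2
  have t := d2_tri (Q := Pr V) (hX1 v n) (BM_TT P enc Λ n v) (BM_comp_acts g (hX1 (g v) n))
  rw [d2_comm] at e1
  linarith

/-- Equivariance of the limit. -/
theorem Y_acts (hT : G.IsTree) (P : Prm G θ) {enc : V → ℕ} (henc : Function.Injective enc)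
    {X : V → ℕ → (V → ℝ) × (V × ℕ → ℝ) → ℝ}
    (hX1 : ∀ v n, BM (X v n)) (hX2 : ∀ v n, NetTendsto G (Pr V) (fun Λ => TT P enc Λ n v) (X v n))
    {Y : V → (V → ℝ) × (V × ℕ → ℝ) → ℝ} (hY1 : ∀ v, BM (Y v))
    (hY2 : ∀ v, Tendsto (fun n => d2 (Pr V) (X v (n + 1)) (Y v)) atTop (𝓝 0))
    (g : G ≃g G) : ∀ᵐ ω ∂(Pr V), ∀ v, Y (g v) (acts g ω) = Y v ω := by
  refine ae_all_iff.mpr (fun v => ?_)
  have hbound : ∀ n : ℕ, d2 (Pr V) (Y v) (fun ω => Y (g v) (acts g ω))
      ≤ 2 * d2 (Pr V) (X v (n + 1)) (Y v) + 4 * d2 (Pr V) (X (g v) (n + 1)) (Y (g v)) := by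
    intro n
    have t1 := d2_tri (Q := Pr V) (hY1 v) (hX1 v (n + 1)) (BM_comp_acts g (hY1 (g v)))
    have t2 := d2_tri (Q := Pr V) (hX1 v (n + 1)) (BM_comp_acts g (hX1 (g v) (n + 1)))
      (BM_comp_acts g (hY1 (g v)))
    have e0 := X_acts hT P henc hX1 hX2 g v (n + 1)
    have e1 := d2_acts g (hX1 (g v) (n + 1)) (hY1 (g v))
    rw [d2_comm (Y v) (X v (n + 1))] at t1
    have hnn := d2_nonneg (Q := Pr V) (X v (n + 1)) (fun ω => X (g v) (n + 1) (acts g ω))
    linarith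
  have hlim : Tendsto (fun n => 2 * d2 (Pr V) (X v (n + 1)) (Y v)
      + 4 * d2 (Pr V) (X (g v) (n + 1)) (Y (g v))) atTop (𝓝 0) := by
    have := ((hY2 v).const_mul 2).add ((hY2 (g v)).const_mul 4)
    simpa using this
  have hzero : d2 (Pr V) (Y v) (fun ω => Y (g v) (acts g ω)) ≤ 0 := ge_of_tendsto' hlim hbound
  have hint := integrable_sq_sub (Q := Pr V) (hY1 v) (BM_comp_acts g (hY1 (g v)))
  have heq : ∫ ω, (Y v ω - Y (g v) (acts g ω)) ^ 2 ∂(Pr V) = 0 :=
    le_antisymm hzero (d2_nonneg _ _)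
  have hae := (integral_eq_zero_iff_of_nonneg_ae (Eventually.of_forall (fun ω => sq_nonneg _))
    hint).mp heq
  filter_upwards [hae] with ω hω
  have : (Y v ω - Y (g v) (acts g ω)) ^ 2 = 0 := hω
  have := pow_eq_zero_iff (two_ne_zero) |>.mp this
  linarith

end equivariance

end Vale.Agent.P161
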