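import Vale.Agent.P161.Leaf

set_option autoImplicit false

noncomputable section
open scoped Classical
open Finset

namespace Vale.Agent.P161

variable {V : Type*}

section own

variable {G : SimpleGraph V} {θ : ℝ} {S : Finset V} {u : V}

/-- Weights with the field at `u` removed. -/
private def baseA (G : SimpleGraph V) (θ : ℝ) (S : Finset V) (f : V → ℝ) (u : V) (T : Finset V) : ℝ :=
  W G θ S T * Real.exp (dot S (Function.update f u 0) T)

private def baseP (G : SimpleGraph V) (θ : ℝ) (S : Finset V) (f : V → ℝ) (u : V) : ℝ :=
  ∑ T ∈ S.powerset, baseA G θ S f u T * ((1 + spin T u) / 2)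

private def baseQ (G : SimpleGraph V) (θ : ℝ) (S : Finset V) (f : V → ℝ) (u : V) : ℝ :=
  ∑ T ∈ S.powerset, baseA G θ S f u T * ((1 - spin T u) / 2)

private lemma baseA_pos (hθ : |θ| < 1) (f : V → ℝ) (T : Finset V) : 0 < baseA G θ S f u T :=
  mul_pos (W_pos hθ S T) (Real.exp_pos _)

private lemma baseP_pos (hθ : |θ| < 1) (hu : u ∈ S) (f : V → ℝ) : 0 < baseP G θ S f u := by
  refine Finset.sum_pos' (fun T _ => mul_nonneg (baseA_pos hθ f T).le ?_) ⟨{u}, ?_, ?_⟩
  · rcases spin_eq T u with h | h <;> simp [h]
  · simpa using hu
  · have : spin ({u} : Finset V) u = 1 := by simp [spin]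
    rw [this]
    have := baseA_pos (G := G) (S := S) (u := u) hθ f {u}
    norm_num; exact this

private lemma baseQ_pos (hθ : |θ| < 1) (f : V → ℝ) : 0 < baseQ G θ S f u := by
  refine Finset.sum_pos' (fun T _ => mul_nonneg (baseA_pos hθ f T).le ?_) ⟨∅, by simp, ?_⟩
  · rcases spin_eq T u with h | h <;> simp [h]
  · have : spin (∅ : Finset V) u = -1 := by simp [spin]
    rw [this]
    have := baseA_pos (G := G) (S := S) (u := u) hθ f ∅
    norm_num; exact this

private lemma wt_eq_base (hu : u ∈ S) {f f' : V → ℝ} (h : ∀ v ∈ S, v ≠ u → f v = f' v)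
    (T : Finset V) :
    wt G θ S f' T = baseA G θ S f u T * Real.exp (f' u * spin T u) := by
  unfold wt baseA
  have : dot S f' T = dot S (Function.update f u 0) T + f' u * spin T u := by
    rw [← dot_shift hu]
    refine dot_congr (fun v hv => ?_) (fun _ _ => rfl)
    by_cases hvu : v = u
    · subst hvu; simp [shift]
    · rw [shift_of_ne _ _ hvu, Function.update_of_ne hvu, h v hv hvu]
  rw [this, Real.exp_add, mul_assoc]

private lemma exp_spin (a : ℝ) (T : Finset V) (u : V) :
    Real.exp (a * spin T u) = (1 + spin T u) / 2 * Real.exp a + (1 - spin T u) / 2 * Real.exp (-a) := by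
  rcases spin_eq T u with h | h <;> rw [h] <;> norm_num

private lemma mag_eq_ratio (hθ : |θ| < 1) (hu : u ∈ S) {f f' : V → ℝ}
    (h : ∀ v ∈ S, v ≠ u → f v = f' v) :
    mag G θ S f' u
      = (baseP G θ S f u * Real.exp (f' u) - baseQ G θ S f u * Real.exp (-f' u))
        / (baseP G θ S f u * Real.exp (f' u) + baseQ G θ S f u * Real.exp (-f' u)) := by
  unfold mag avg ZZ baseP baseQ
  congr 1
  · rw [Finset.sum_mul, Finset.sum_mul, ← Finset.sum_sub_distrib]
    refine Finset.sum_congr rfl (fun T _ => ?_)
    show wt G θ S f' T * spin T u = _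
    rw [wt_eq_base hu h, exp_spin]
    rcases spin_eq T u with h' | h' <;> rw [h'] <;> ring
  · rw [Finset.sum_mul, Finset.sum_mul, ← Finset.sum_add_distrib]
    refine Finset.sum_congr rfl (fun T _ => ?_)
    rw [wt_eq_base hu h, exp_spin]
    ring

/-- The magnetisation at `u` is `1`-Lipschitz in the field at `u`. -/
theorem mag_own (hθ : |θ| < 1) (hu : u ∈ S) {f f' : V → ℝ} (h : ∀ v ∈ S, v ≠ u → f v = f' v) :
    |mag G θ S f u - mag G θ S f' u| ≤ |f u - f' u| := by
  rw [mag_eq_ratio hθ hu (f := f) (f' := f) (fun _ _ _ => rfl), mag_eq_ratio hθ hu h]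
  exact own_site_real (baseP_pos hθ hu f) (baseQ_pos hθ f) _ _

end own

/-- Finite subtrees, built by adding leaves. -/
inductive TreeSet (G : SimpleGraph V) : Finset V → Prop
  | single (v : V) : TreeSet G {v}
  | add {S : Finset V} {l p : V} : TreeSet G S → l ∉ S → p ∈ S → G.Adj l p →
      (∀ q ∈ S, G.Adj l q → q = p) → TreeSet G (insert l S)

section lip

variable {G : SimpleGraph V} {θ : ℝ}

lemma shift_diff_same {f f' : V → ℝ} {w p : V} (c : ℝ) :
    shift f p c w - shift f' p c w = f w - f' w := by
  by_cases h : w = p
  · subst h; rw [shift_self, shift_self]; ring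
  · rw [shift_of_ne _ _ h, shift_of_ne _ _ h]

/-- Changing the field at one site `w` changes the magnetisation at `u` by at most
`θ ^ dist(u,w)` times the change. -/
theorem mag_lip_single (hG : G.Connected) (h0 : 0 ≤ θ) (h1 : θ < 1) {S : Finset V}
    (hS : TreeSet G S) :
    ∀ u ∈ S, ∀ (w : V) (f f' : V → ℝ), (∀ v ∈ S, v ≠ w → f v = f' v) →
      |mag G θ S f u - mag G θ S f' u| ≤ θ ^ (G.dist u w) * |f w - f' w| := by
  have hθ : |θ| < 1 := by rw [abs_of_nonneg h0]; exact h1
  induction hS with
  | single a =>
    intro u hu w f f' h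
    rw [Finset.mem_singleton] at hu
    subst hu
    by_cases hw : w = u
    · subst hw
      simp only [SimpleGraph.dist_self, pow_zero, one_mul]
      exact mag_own hθ (Finset.mem_singleton_self _) h
    · have : mag G θ {u} f u = mag G θ {u} f' u := by
        refine mag_congr (fun v hv => ?_) u
        rw [Finset.mem_singleton] at hv
        subst hv
        exact h v (Finset.mem_singleton_self _) (Ne.symm hw)
      rw [this, sub_self, abs_zero]
      positivity
  | @add S l p hS hl hp hadj huniq ih =>
    intro u hu w f f' h
    have hpl : p ≠ l := fun e => hl (e ▸ hp)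
    by_cases hwS : w ∉ insert l S
    · have : mag G θ (insert l S) f u = mag G θ (insert l S) f' u := by
        refine mag_congr (fun v hv => ?_) u
        exact h v hv (fun e => hwS (e ▸ hv))
      rw [this, sub_self, abs_zero]
      positivity
    rw [not_not] at hwS
    have hdist1 : G.dist l p = 1 := SimpleGraph.dist_eq_one_iff_adj.mpr hadj
    by_cases hul : u = l
    · subst hul
      by_cases hwl : w = u
      · subst hwl
        simp only [SimpleGraph.dist_self, pow_zero, one_mul]
        exact mag_own hθ (Finset.mem_insert_self _ _) h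
      · have hw_S : w ∈ S := by
          rcases Finset.mem_insert.mp hwS with e | e
          · exact absurd e hwl
          · exact e
        have hfl : f u = f' u := h u (Finset.mem_insert_self _ _) (Ne.symm hwl)
        rw [mag_leaf hθ hl hp hadj huniq, mag_leaf hθ hl hp hadj huniq, ← hfl]
        have e1 : AA θ (f u) + BB θ (f u) * mag G θ (insert u S) f p
            - (AA θ (f u) + BB θ (f u) * mag G θ (insert u S) f' p)
            = BB θ (f u) * (mag G θ (insert u S) f p - mag G θ (insert u S) f' p) := by ring
        rw [e1, abs_mul, abs_of_nonneg (BB_nonneg h0 hθ _)]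
        rw [mag_insert hθ hl hp hadj huniq f hpl, mag_insert hθ hl hp hadj huniq f' hpl, ← hfl]
        have hih := ih p hp w (shift f p (cav θ (f u))) (shift f' p (cav θ (f u))) (by
          intro v hv hvw
          by_cases hvp : v = p
          · subst hvp
            rw [shift_self, shift_self, h v (Finset.mem_insert_of_mem hv) hvw]
          · rw [shift_of_ne _ _ hvp, shift_of_ne _ _ hvp]
            exact h v (Finset.mem_insert_of_mem hv) hvw)
        have hdiff : shift f p (cav θ (f u)) w - shift f' p (cav θ (f u)) w = f w - f' w :=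
          shift_diff_same _
        rw [hdiff] at hih
        have hd : G.dist u w ≤ G.dist p w + 1 := by
          have := hG.dist_triangle (u := u) (v := p) (w := w)
          omega
        calc BB θ (f u) * _ ≤ θ * (θ ^ G.dist p w * |f w - f' w|) :=
              mul_le_mul (BB_le h0 hθ _) hih (abs_nonneg _) h0
          _ = θ ^ (G.dist p w + 1) * |f w - f' w| := by ring
          _ ≤ θ ^ G.dist u w * |f w - f' w| :=
              mul_le_mul_of_nonneg_right (pow_le_pow_of_le_one h0 h1.le hd) (abs_nonneg _)
    · have hu_S : u ∈ S := by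
        rcases Finset.mem_insert.mp hu with e | e
        · exact absurd e hul
        · exact e
      rw [mag_insert hθ hl hp hadj huniq f hul, mag_insert hθ hl hp hadj huniq f' hul]
      by_cases hwl : w = l
      · subst hwl
        have hih := ih u hu_S p (shift f p (cav θ (f w))) (shift f' p (cav θ (f' w))) (by
          intro v hv hvp
          rw [shift_of_ne _ _ hvp, shift_of_ne _ _ hvp]
          exact h v (Finset.mem_insert_of_mem hv) (fun e => hl (e ▸ hv)))
        have hdiff : |shift f p (cav θ (f w)) p - shift f' p (cav θ (f' w)) p|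
            ≤ θ * |f w - f' w| := by
          rw [shift_self, shift_self, h p (Finset.mem_insert_of_mem hp) hpl.symm.symm]
          have := cav_lip h0 h1 (f w) (f' w)
          have e : f' p + cav θ (f w) - (f' p + cav θ (f' w)) = cav θ (f w) - cav θ (f' w) := by ring
          rwa [e]
        have hd : G.dist u w ≤ G.dist u p + 1 := by
          have := hG.dist_triangle (u := u) (v := p) (w := w)
          rw [SimpleGraph.dist_comm (u := p) (v := w), hdist1] at this
          omega
        calc _ ≤ θ ^ G.dist u p * |shift f p (cav θ (f w)) p - shift f' p (cav θ (f' w)) p| := hih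
          _ ≤ θ ^ G.dist u p * (θ * |f w - f' w|) :=
              mul_le_mul_of_nonneg_left hdiff (pow_nonneg h0 _)
          _ = θ ^ (G.dist u p + 1) * |f w - f' w| := by ring
          _ ≤ θ ^ G.dist u w * |f w - f' w| :=
              mul_le_mul_of_nonneg_right (pow_le_pow_of_le_one h0 h1.le hd) (abs_nonneg _)
      · have hfl : f l = f' l := h l (Finset.mem_insert_self _ _) (Ne.symm hwl)
        have hih := ih u hu_S w (shift f p (cav θ (f l))) (shift f' p (cav θ (f l))) (by
          intro v hv hvw
          by_cases hvp : v = p
          · subst hvp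
            rw [shift_self, shift_self, h v (Finset.mem_insert_of_mem hv) hvw]
          · rw [shift_of_ne _ _ hvp, shift_of_ne _ _ hvp]
            exact h v (Finset.mem_insert_of_mem hv) hvw)
        have hdiff : shift f p (cav θ (f l)) w - shift f' p (cav θ (f l)) w = f w - f' w :=
          shift_diff_same _
        rw [hdiff] at hih
        rw [← hfl]
        exact hih

/-- Full Lipschitz bound for the magnetisation in the field. -/
theorem mag_lip (hG : G.Connected) (h0 : 0 ≤ θ) (h1 : θ < 1) {S : Finset V} (hS : TreeSet G S)
    {u : V} (hu : u ∈ S) (f f' : V → ℝ) :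
    |mag G θ S f u - mag G θ S f' u| ≤ ∑ w ∈ S, θ ^ (G.dist u w) * |f w - f' w| := by
  have key : ∀ A : Finset V, A ⊆ S →
      |mag G θ S f u - mag G θ S (fun v => if v ∈ A then f' v else f v) u|
        ≤ ∑ w ∈ A, θ ^ (G.dist u w) * |f w - f' w| := by
    intro A
    induction A using Finset.induction_on with
    | empty =>
      intro _
      simp
    | insert a A ha ih =>
      intro hA
      have hA' : A ⊆ S := fun x hx => hA (Finset.mem_insert_of_mem hx)
      rw [Finset.sum_insert ha]
      have hstep := mag_lip_single hG h0 h1 hS u hu a (fun v => if v ∈ A then f' v else f v)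
        (fun v => if v ∈ insert a A then f' v else f v) (by
          intro v _ hva
          simp [Finset.mem_insert, hva])
      have hval : |(if a ∈ A then f' a else f a) - (if a ∈ insert a A then f' a else f a)|
          = |f a - f' a| := by
        simp [ha]
      simp only [hval] at hstep
      calc _ ≤ |mag G θ S f u - mag G θ S (fun v => if v ∈ A then f' v else f v) u|
            + |mag G θ S (fun v => if v ∈ A then f' v else f v) u
              - mag G θ S (fun v => if v ∈ insert a A then f' v else f v) u| := abs_sub_le _ _ _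
        _ ≤ _ := by linarith [ih hA']
  have := key S (Finset.Subset.refl _)
  have e : mag G θ S (fun v => if v ∈ S then f' v else f v) u = mag G θ S f' u :=
    mag_congr (fun v hv => by simp [hv]) u
  rwa [e] at this

end lip

end Vale.Agent.P161
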