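import Vale.Agent.P161.Geom

set_option autoImplicit false

noncomputable section
open scoped Classical
open Finset

namespace Vale.Agent.P161

variable {V : Type*} {G : SimpleGraph V}

/-- The Lyapunov bound: the kernel `θ ^ dist` almost preserves the weight `s ^ dist`. -/
theorem lyapunov (hT : G.IsTree) {θ s E : ℝ}
    (hθ : 0 ≤ θ) (hs : 0 < s) (hE : ∀ (S : Finset V) (u : V), ∑ w ∈ S, (θ * s) ^ G.dist u w ≤ E)
    {C : ℝ} (hC : C * (1 - θ / s) = E) (hC0 : E ≤ C) (S : Finset V) :
    ∀ (ρ : ℕ) (u x : V), G.dist u x = ρ →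
      ∑ w ∈ S, θ ^ G.dist u w * s ^ G.dist w x ≤ C * s ^ ρ := by
  intro ρ
  induction ρ with
  | zero =>
    intro u x h0
    have hux : u = x := hT.connected.dist_eq_zero_iff.mp h0
    subst hux
    calc ∑ w ∈ S, θ ^ G.dist u w * s ^ G.dist w u
        = ∑ w ∈ S, (θ * s) ^ G.dist u w := by
          refine Finset.sum_congr rfl (fun w _ => ?_)
          rw [mul_pow, SimpleGraph.dist_comm (u := w)]
      _ ≤ E := hE S u
      _ ≤ C * s ^ 0 := by simpa using hC0
  | succ ρ ih =>
    intro u x hρ
    have hne : u ≠ x := by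
      rintro rfl
      simp at hρ
    obtain ⟨u', ha, hu'⟩ := exists_closer hT hne
    have hterm : ∀ w ∈ S, θ ^ G.dist u w * s ^ G.dist w x
        ≤ θ * (θ ^ G.dist u' w * s ^ G.dist w x) + s ^ (ρ + 1) * (θ * s) ^ G.dist u w := by
      intro w _
      have hnn1 : 0 ≤ θ * (θ ^ G.dist u' w * s ^ G.dist w x) := by positivity
      have hnn2 : 0 ≤ s ^ (ρ + 1) * (θ * s) ^ G.dist u w := by positivity
      rcases dist_dichotomy hT w ha with e | e
      · -- `u'` is closer to `w`
        have : θ ^ G.dist u w * s ^ G.dist w x = θ * (θ ^ G.dist u' w * s ^ G.dist w x) := by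
          rw [← e, pow_succ]; ring
        rw [this]
        linarith
      · -- `u'` is farther from `w`, so `u` separates `w` from `x`
        have hsplit := dist_split hT (G.dist u w) u w x u' rfl ha hu' e
        have : θ ^ G.dist u w * s ^ G.dist w x = s ^ (ρ + 1) * (θ * s) ^ G.dist u w := by
          rw [hsplit, SimpleGraph.dist_comm (u := w) (v := u), hρ, pow_add, mul_pow]; ring
        rw [this]
        linarith
    have hsum := Finset.sum_le_sum hterm
    rw [Finset.sum_add_distrib, ← Finset.mul_sum, ← Finset.mul_sum] at hsum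
    have h1 : ∑ w ∈ S, θ ^ G.dist u' w * s ^ G.dist w x ≤ C * s ^ ρ := ih u' x (by omega)
    have h2 := hE S u
    have hsρ : 0 < s ^ ρ := pow_pos hs ρ
    calc _ ≤ _ := hsum
      _ ≤ θ * (C * s ^ ρ) + s ^ (ρ + 1) * E := by
          have h1' := mul_le_mul_of_nonneg_left h1 hθ
          have h2' := mul_le_mul_of_nonneg_left h2 (pow_pos hs (ρ + 1)).le
          linarith
      _ = C * s ^ (ρ + 1) := by
          rw [← hC, pow_succ]
          field_simp
          ring

end Vale.Agent.P161
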