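import Mathlib

set_option autoImplicit false

noncomputable section
open MeasureTheory

namespace Vale.Agent.P161

/-- The uniform distribution on `[0,1]`. -/
def unif : Measure ℝ := volume.restrict (Set.Icc (0 : ℝ) 1)

instance : IsProbabilityMeasure unif := ⟨by simp [unif]⟩

/-- The i.i.d. uniform product measure. -/
def PP (I : Type*) : Measure (I → ℝ) := Measure.infinitePi (fun _ : I => unif)

instance (I : Type*) : IsProbabilityMeasure (PP I) := by
  unfold PP; infer_instance

end Vale.Agent.P161
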