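import Vale.Agent.P161.Cauchy
import Vale.Agent.P161.Order
import Vale.Agent.P161.Transfer
import Vale.Agent.P161.Decode

set_option autoImplicit false

noncomputable section
open scoped Classical
open Finset MeasureTheory

namespace Vale.Agent.P161

variable {V : Type*}

/-- All the numerical parameters of the construction, with the estimates they satisfy. -/
structure Prm (G : SimpleGraph V) (θ : ℝ) where
  s : ℝ
  C : ℝ
  E₁ : ℝ
  δ : ℝ
  μ : ℝ
  ρ : ℝ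
  hs : 0 < s
  hθ0 : 0 ≤ θ
  hθ1 : θ < 1
  hLy : ∀ (S : Finset V) (x u : V), ∑ w ∈ S, θ ^ G.dist u w * s ^ G.dist w x ≤ C * s ^ G.dist u x
  hδ0 : 0 < δ
  hδ1 : δ ≤ 1 / 2
  hμ : 1 + 2 * δ ^ 2 * C * μ = μ
  hμ1 : 1 ≤ μ
  hE₁ : 0 ≤ E₁
  hSum : ∀ (S : Finset V) (u : V), ∑ w ∈ S, (s ^ 2) ^ G.dist u w ≤ E₁
  hρ0 : 0 ≤ ρ
  hρ1 : ρ < 1
  hTail : ∀ (S : Finset V) (u : V) (R : ℕ),
    ∑ w ∈ S.filter (fun w => R < G.dist u w), (s ^ 2) ^ G.dist u w ≤ ρ ^ R * E₁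
  hBall : ∀ (v : V) (R : ℕ), ∃ B : Finset V, ∀ w, w ∈ B ↔ G.dist v w ≤ R

/-- The parameters exist below the threshold. -/
theorem exists_Prm {G : SimpleGraph V} [G.LocallyFinite] {d : ℕ} (hT : G.IsTree)
    (hreg : G.IsRegularOfDegree d) (hd : 2 ≤ d) {θ : ℝ} (hθ0 : 0 ≤ θ)
    (hθ : θ ^ 2 * ((d : ℝ) - 1) < 1) : Nonempty (Prm G θ) := by
  have hd1 : (1 : ℝ) ≤ (d : ℝ) - 1 := by
    have : (2 : ℝ) ≤ d := by exact_mod_cast hd
    linarith
  have hdpos : (0 : ℝ) < (d : ℝ) - 1 := by linarith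
  -- the threshold
  set r := Real.sqrt (1 / ((d : ℝ) - 1)) with hr
  have hr2 : r ^ 2 * ((d : ℝ) - 1) = 1 := by
    rw [hr, Real.sq_sqrt (by positivity)]
    field_simp
  have hrpos : 0 < r := Real.sqrt_pos.mpr (by positivity)
  have hθr : θ < r := by
    by_contra hc
    push Not at hc
    have : r ^ 2 ≤ θ ^ 2 := by gcongr
    nlinarith
  have hr1 : r ≤ 1 := by
    by_contra hc
    push Not at hc
    nlinarith
  have hθ1 : θ < 1 := lt_of_lt_of_le hθr hr1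
  set s := (2 * θ + r) / 3 with hs_def
  set s₁ := (θ + 2 * r) / 3 with hs₁_def
  have hs : 0 < s := by rw [hs_def]; linarith
  have hs₁ : 0 < s₁ := by rw [hs₁_def]; linarith
  have hθs : θ < s := by rw [hs_def]; linarith
  have hss₁ : s < s₁ := by rw [hs₁_def, hs_def]; linarith
  have hs₁r : s₁ < r := by rw [hs₁_def]; linarith
  have hs₁2 : s₁ ^ 2 * ((d : ℝ) - 1) < 1 := by
    have : s₁ ^ 2 < r ^ 2 := by gcongr
    nlinarith
  have hs2 : s ^ 2 * ((d : ℝ) - 1) < 1 := by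
    have : s ^ 2 < s₁ ^ 2 := by gcongr
    nlinarith
  have hθs2 : θ * s * ((d : ℝ) - 1) < 1 := by
    have : θ * s ≤ s ^ 2 := by nlinarith
    nlinarith
  -- Lyapunov constants
  set E := (d : ℝ) / (1 - θ * s * ((d : ℝ) - 1)) with hE_def
  have hE0 : 0 ≤ E := by
    rw [hE_def]
    exact div_nonneg (Nat.cast_nonneg d) (by linarith)
  have hE : ∀ (S : Finset V) (u : V), ∑ w ∈ S, (θ * s) ^ G.dist u w ≤ E :=
    fun S u => sum_pow_dist_le hT hreg hd (mul_nonneg hθ0 hs.le) hθs2 S u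
  have hfrac : 0 < 1 - θ / s := by
    have : θ / s < 1 := (div_lt_one hs).mpr hθs
    linarith
  have hfrac1 : 1 - θ / s ≤ 1 := by
    have : 0 ≤ θ / s := div_nonneg hθ0 hs.le
    linarith
  set C := E / (1 - θ / s) with hC_def
  have hC : C * (1 - θ / s) = E := by
    rw [hC_def]
    exact div_mul_cancel₀ _ hfrac.ne'
  have hC0 : E ≤ C := by
    rw [hC_def, le_div_iff₀ hfrac]
    nlinarith
  have hCnn : 0 ≤ C := le_trans hE0 hC0
  have hLy : ∀ (S : Finset V) (x u : V),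
      ∑ w ∈ S, θ ^ G.dist u w * s ^ G.dist w x ≤ C * s ^ G.dist u x :=
    fun S x u => lyapunov hT hθ0 hs hE hC hC0 S _ u x rfl
  -- the channel parameter
  set δ := 1 / (2 * (C + 1)) with hδ_def
  have hδ0 : 0 < δ := by rw [hδ_def]; positivity
  have hδ1 : δ ≤ 1 / 2 := by
    rw [hδ_def]
    rw [div_le_div_iff₀ (by positivity) (by norm_num)]
    linarith
  have hsmall : 2 * δ ^ 2 * C < 1 := by
    have e : 2 * δ ^ 2 * C = C / (2 * (C + 1) ^ 2) := by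
      rw [hδ_def]
      field_simp
      try ring
    rw [e, div_lt_one (by positivity)]
    nlinarith
  set μ := 1 / (1 - 2 * δ ^ 2 * C) with hμ_def
  have hden : 0 < 1 - 2 * δ ^ 2 * C := by linarith
  have hμ : 1 + 2 * δ ^ 2 * C * μ = μ := by
    rw [hμ_def]
    field_simp
    try ring
  have hμ1 : 1 ≤ μ := by
    rw [hμ_def, le_div_iff₀ hden]
    have : 0 ≤ 2 * δ ^ 2 * C := by positivity
    linarith
  -- the summable weights
  set E₁ := (d : ℝ) / (1 - s₁ ^ 2 * ((d : ℝ) - 1)) with hE₁_def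
  have hE₁ : 0 ≤ E₁ := by
    rw [hE₁_def]
    exact div_nonneg (Nat.cast_nonneg d) (by linarith)
  have hS₁ : ∀ (S : Finset V) (u : V), ∑ w ∈ S, (s₁ ^ 2) ^ G.dist u w ≤ E₁ :=
    fun S u => sum_pow_dist_le hT hreg hd (sq_nonneg s₁) hs₁2 S u
  have hss : s ^ 2 ≤ s₁ ^ 2 := by gcongr
  have hSum : ∀ (S : Finset V) (u : V), ∑ w ∈ S, (s ^ 2) ^ G.dist u w ≤ E₁ := by
    intro S u
    refine le_trans (Finset.sum_le_sum (fun w _ => ?_)) (hS₁ S u)
    exact pow_le_pow_left₀ (sq_nonneg s) hss _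
  set ρ := s ^ 2 / s₁ ^ 2 with hρ_def
  have hρ0 : 0 ≤ ρ := by rw [hρ_def]; positivity
  have hρ1 : ρ < 1 := by
    rw [hρ_def, div_lt_one (by positivity)]
    gcongr
  have hρs : ρ * s₁ ^ 2 = s ^ 2 := by
    rw [hρ_def]
    field_simp
  have hTail : ∀ (S : Finset V) (u : V) (R : ℕ),
      ∑ w ∈ S.filter (fun w => R < G.dist u w), (s ^ 2) ^ G.dist u w ≤ ρ ^ R * E₁ := by
    intro S u R
    calc ∑ w ∈ S.filter (fun w => R < G.dist u w), (s ^ 2) ^ G.dist u w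
        ≤ ∑ w ∈ S.filter (fun w => R < G.dist u w), ρ ^ R * (s₁ ^ 2) ^ G.dist u w := by
          refine Finset.sum_le_sum (fun w hw => ?_)
          have hlt := (Finset.mem_filter.mp hw).2
          rw [← hρs, mul_pow]
          refine mul_le_mul_of_nonneg_right ?_ (by positivity)
          exact pow_le_pow_of_le_one hρ0 hρ1.le hlt.le
      _ = ρ ^ R * ∑ w ∈ S.filter (fun w => R < G.dist u w), (s₁ ^ 2) ^ G.dist u w := by
          rw [Finset.mul_sum]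
      _ ≤ ρ ^ R * E₁ := mul_le_mul_of_nonneg_left (hS₁ _ u) (by positivity)
  have hBall : ∀ (v : V) (R : ℕ), ∃ B : Finset V, ∀ w, w ∈ B ↔ G.dist v w ≤ R := by
    intro v R
    refine ⟨(Finset.range (R + 1)).biUnion (shell G v), fun w => ?_⟩
    rw [Finset.mem_biUnion, SimpleGraph.dist_comm]
    constructor
    · rintro ⟨r, hr, hw⟩
      rw [dist_of_mem_shell v r w hw]
      exact Nat.lt_succ_iff.mp (Finset.mem_range.mp hr)
    · intro h
      exact ⟨_, Finset.mem_range.mpr (Nat.lt_succ_of_le h), mem_shell hT v _ w rfl⟩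
  exact ⟨⟨s, C, E₁, δ, μ, ρ, hs, hθ0, hθ1, hLy, hδ0, hδ1, hμ, hμ1, hE₁, hSum, hρ0, hρ1, hTail, hBall⟩⟩

end Vale.Agent.P161
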